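import Vale.Agent.P180.R2.H589.Un.Au7

/-!
P180: automorphisms of quotients of `SU(V)`: the form for the classes of pairs.
-/

set_option linter.all false

namespace Vale.Agent.P180.R2.H589.Un

open Subgroup Module
open Vale.Agent.P180.R2.H589.Sch

section Pairs

variable {K : Type} [Field K] [Finite K] {V : Type} [AddCommGroup V] [Module K V]
  [Module.Finite K V] {θ : K ≃+* K} {h : V → V → K} (hθ : Iv θ) (hB : Hm θ h)

omit [Finite K] [Module.Finite K V] in
/-- the two models -/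
theorem exists_equivSL {X : Subgroup (SpecialLinearGroup K V)}
    (hX : ∀ g : SpecialLinearGroup K V, g ∈ X ↔ ∀ x y, h (g x) (g y) = h x y) :
    ∃ e : SUG h ≃* X, ∀ (g : SUG h) (v : V),
      ((e g : X) : SpecialLinearGroup K V) v = (g : V ≃ₗ[K] V) v := by
  refine ⟨{ toFun := fun g => ⟨⟨(g : V ≃ₗ[K] V), g.2.2⟩, (hX _).mpr g.2.1⟩
            invFun := fun x => ⟨((x : SpecialLinearGroup K V) : V ≃ₗ[K] V), (hX _).mp x.2,
              (x : SpecialLinearGroup K V).2⟩
            left_inv := fun g => rfl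
            right_inv := fun x => rfl
            map_mul' := fun g h => rfl }, fun g v => rfl⟩

omit [Finite K] [Module.Finite K V] in
/-- `X ≤ SL(V)` instead of `SUG h` -/
theorem exists_model {X : Subgroup (SpecialLinearGroup K V)}
    (hX : ∀ g : SpecialLinearGroup K V, g ∈ X ↔ ∀ x y, h (g x) (g y) = h x y)
    {L : Type*} [Group L] {π : X →* L} (hπ : Function.Surjective π) (hk : π.ker ≤ center X) :
    ∃ (e : SUG h ≃* X) (π' : SUG h →* L), Function.Surjective π' ∧ π'.ker ≤ center (SUG h) ∧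
      (∀ g, π' g = π (e g)) ∧ ∀ (g : SUG h) (v : V),
      ((e g : X) : SpecialLinearGroup K V) v = (g : V ≃ₗ[K] V) v := by
  obtain ⟨e, he⟩ := exists_equivSL hX
  refine ⟨e, π.comp e.toMonoidHom, hπ.comp e.surjective, ?_, fun g => rfl, he⟩
  intro x hx
  have h1 : e x ∈ center X := hk hx
  rw [mem_center_iff] at h1 ⊢
  intro y
  apply e.injective
  rw [map_mul, map_mul]
  exact h1 (e y)

omit [Finite K] [Module.Finite K V] in
theorem model_center {X : Subgroup (SpecialLinearGroup K V)} {T : Type*} [Group T]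
    {π : X →* T} (hk : π.ker = center X) {e : SUG h ≃* X} {π' : SUG h →* T}
    (h3 : π'.ker ≤ center (SUG h)) (h4 : ∀ g, π' g = π (e g)) : π'.ker = center (SUG h) := by
  refine le_antisymm h3 fun x hx => ?_
  rw [MonoidHom.mem_ker, h4, ← MonoidHom.mem_ker, hk]
  rw [mem_center_iff] at hx ⊢
  intro y
  obtain ⟨y, rfl⟩ := e.surjective y
  rw [← map_mul, ← map_mul, hx]

include hθ hB

/-- **Semilinear similitudes, for isometry groups in `SL(V)`.** -/
theorem ssim_of_aut (hF : 3 < Nat.card (FF θ)) (h2 : (2 : K) ≠ 0) (hd : 2 < finrank K V)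
    {X : Subgroup (SpecialLinearGroup K V)}
    (hX : ∀ g : SpecialLinearGroup K V, g ∈ X ↔ ∀ x y, h (g x) (g y) = h x y)
    {L : Type*} [Group L] {π : X →* L} (hπ : Function.Surjective π) (hk : π.ker ≤ center X)
    (α : MulAut L) :
    ∃ (σ : K ≃+* K) (κ : K) (g : V ≃+ V), κ ≠ 0 ∧ (∀ (c : K) v, g (c • v) = σ c • g v) ∧
      (∀ u v, h (g u) (g v) = κ * σ (h u v)) ∧
      ∀ x y : X, (∀ v, g ((x : SpecialLinearGroup K V) v) = (y : SpecialLinearGroup K V) (g v)) →
        α (π x) = π y := by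
  obtain ⟨e, π', h1, h3, h4, h5⟩ := exists_model hX hπ hk
  obtain ⟨g, σ, κ, hg, hind⟩ := exists_ssim_L hθ hB hF h2 hd h1 h3 α
  refine ⟨σ, κ, g, hg.ne, hg.sl, hg.form, fun x y hxy => ?_⟩
  obtain ⟨x, rfl⟩ := e.surjective x
  obtain ⟨y, rfl⟩ := e.surjective y
  rw [← h4, ← h4]
  refine hind x y fun v => ?_
  have h6 := hxy v
  rwa [h5, h5] at h6

/-- the same for the simple group, no condition on `|K|` -/
theorem ssim_of_aut_T (h2 : (2 : K) ≠ 0) (hd : 2 < finrank K V)
    {X : Subgroup (SpecialLinearGroup K V)}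
    (hX : ∀ g : SpecialLinearGroup K V, g ∈ X ↔ ∀ x y, h (g x) (g y) = h x y)
    {T : Type*} [Group T] {π : X →* T} (hπ : Function.Surjective π) (hk : π.ker = center X)
    (α : MulAut T) :
    ∃ (σ : K ≃+* K) (κ : K) (g : V ≃+ V), κ ≠ 0 ∧ (∀ (c : K) v, g (c • v) = σ c • g v) ∧
      (∀ u v, h (g u) (g v) = κ * σ (h u v)) ∧
      ∀ x y : X, (∀ v, g ((x : SpecialLinearGroup K V) v) = (y : SpecialLinearGroup K V) (g v)) →
        α (π x) = π y := by
  obtain ⟨e, π', h1, h3, h4, h5⟩ := exists_model hX hπ hk.le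
  obtain ⟨g, σ, κ, hg, hind⟩ := exists_ssim hθ hB h2 hd h1 (model_center hk h3 h4) α
  refine ⟨σ, κ, g, hg.ne, hg.sl, hg.form, fun x y hxy => ?_⟩
  obtain ⟨x, rfl⟩ := e.surjective x
  obtain ⟨y, rfl⟩ := e.surjective y
  rw [← h4, ← h4]
  refine hind x y fun v => ?_
  have h6 := hxy v
  rwa [h5, h5] at h6

/-- **Conjugation in an overgroup.** -/
theorem ssim_conj (hF : 3 < Nat.card (FF θ)) (h2 : (2 : K) ≠ 0) (hd : 2 < finrank K V)
    {X : Subgroup (SpecialLinearGroup K V)}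
    (hX : ∀ g : SpecialLinearGroup K V, g ∈ X ↔ ∀ x y, h (g x) (g y) = h x y)
    {G : Type*} [Group G] {L : Subgroup G} {π : X →* L} (hπ : Function.Surjective π)
    (hk : π.ker ≤ center X) {r : G} (hr : r ∈ normalizer (L : Set G)) :
    ∃ (σ : K ≃+* K) (κ : K) (g : V ≃+ V), κ ≠ 0 ∧ (∀ (c : K) v, g (c • v) = σ c • g v) ∧
      (∀ u v, h (g u) (g v) = κ * σ (h u v)) ∧
      ∀ x y : X, (∀ v, g ((x : SpecialLinearGroup K V) v) = (y : SpecialLinearGroup K V) (g v)) →
        r * (π x : G) * r⁻¹ = π y := by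
  obtain ⟨σ, κ, g, h1, h3, h4, h5⟩ := ssim_of_aut hθ hB hF h2 hd hX hπ hk
    (normalizerMonoidHom L ⟨r, hr⟩)
  refine ⟨σ, κ, g, h1, h3, h4, fun x y hxy => ?_⟩
  rw [← h5 x y hxy]
  rfl

/-- **`Out` of the quotients of `SU(V)` by central subgroups is solvable.** -/
theorem derived_le_conj (hF : 3 < Nat.card (FF θ)) (h2 : (2 : K) ≠ 0) (hd : 2 < finrank K V)
    {X : Subgroup (SpecialLinearGroup K V)}
    (hX : ∀ g : SpecialLinearGroup K V, g ∈ X ↔ ∀ x y, h (g x) (g y) = h x y)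
    {L : Type*} [Group L] {π : X →* L} (hπ : Function.Surjective π) (hk : π.ker ≤ center X) :
    derivedSeries (MulAut L) 2 ≤ (MulAut.conj : L →* MulAut L).range := by
  obtain ⟨e, π', h1, h3, h4, h5⟩ := exists_model hX hπ hk
  have hV : ∃ v : V, v ≠ 0 := by
    obtain ⟨o, ho0, ho⟩ := exists_iso_vec hθ hB (by omega)
    exact ⟨o, ho0⟩
  exact derived_le hθ hB h2 hV h1 (fun α => exists_ssim_L hθ hB hF h2 hd h1 h3 α)

/-- **Automorphisms of order prime to `|Aut K|` and to the dimension are inner.** -/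
theorem inner_of_coprime_X (hF : 3 < Nat.card (FF θ)) (h2 : (2 : K) ≠ 0)
    (hd : 2 < finrank K V) {X : Subgroup (SpecialLinearGroup K V)}
    (hX : ∀ g : SpecialLinearGroup K V, g ∈ X ↔ ∀ x y, h (g x) (g y) = h x y)
    {L : Type*} [Group L] {π : X →* L} (hπ : Function.Surjective π) (hk : π.ker ≤ center X)
    {α : MulAut L} {m : ℕ} (hc : m.Coprime (Nat.card (K ≃+* K)))
    (hcd : m.Coprime (finrank K V)) (hα : α ^ m = 1) :
    α ∈ (MulAut.conj : L →* MulAut L).range := by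
  obtain ⟨e, π', h1, h3, h4, h5⟩ := exists_model hX hπ hk
  exact inner_of_coprime hθ hB h2 hd h1 h3 (fun α => exists_ssim_L hθ hB hF h2 hd h1 h3 α)
    hc hcd hα

/-- **The same for the simple group**, no condition on `|K|`. -/
theorem derived_le_conj_T (h2 : (2 : K) ≠ 0) (hd : 2 < finrank K V)
    {X : Subgroup (SpecialLinearGroup K V)}
    (hX : ∀ g : SpecialLinearGroup K V, g ∈ X ↔ ∀ x y, h (g x) (g y) = h x y)
    {T : Type*} [Group T] {π : X →* T} (hπ : Function.Surjective π) (hk : π.ker = center X) :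
    derivedSeries (MulAut T) 2 ≤ (MulAut.conj : T →* MulAut T).range := by
  obtain ⟨e, π', h1, h3, h4, h5⟩ := exists_model hX hπ hk.le
  have hV : ∃ v : V, v ≠ 0 := by
    obtain ⟨o, ho0, ho⟩ := exists_iso_vec hθ hB (by omega)
    exact ⟨o, ho0⟩
  exact derived_le hθ hB h2 hV h1 (fun α => exists_ssim hθ hB h2 hd h1 (model_center hk h3 h4) α)

/-- **Automorphisms of order prime to `|Aut K|` and to the dimension of the simple group are
inner.** -/
theorem inner_of_coprime_T (h2 : (2 : K) ≠ 0) (hd : 2 < finrank K V)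
    {X : Subgroup (SpecialLinearGroup K V)}
    (hX : ∀ g : SpecialLinearGroup K V, g ∈ X ↔ ∀ x y, h (g x) (g y) = h x y)
    {T : Type*} [Group T] {π : X →* T} (hπ : Function.Surjective π) (hk : π.ker = center X)
    {α : MulAut T} {m : ℕ} (hc : m.Coprime (Nat.card (K ≃+* K)))
    (hcd : m.Coprime (finrank K V)) (hα : α ^ m = 1) :
    α ∈ (MulAut.conj : T →* MulAut T).range := by
  obtain ⟨e, π', h1, h3, h4, h5⟩ := exists_model hX hπ hk.le
  exact inner_of_coprime hθ hB h2 hd h1 h3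
    (fun α => exists_ssim hθ hB h2 hd h1 (model_center hk h3 h4) α) hc hcd hα

end Pairs

section Forms

variable {K V : Type*} [Field K] [AddCommGroup V] [Module K V]

/-- hermitian forms given by a ring homomorphism -/
theorem exists_hm {θ' : K →+* K} {B : V → V → K} (hθ : ∀ a, θ' (θ' a) = a)
    (hne : ∃ a, θ' a ≠ a) (hadd : ∀ x y z, B (x + y) z = B x z + B y z)
    (hsml : ∀ (c : K) x y, B (c • x) y = c * B x y) (hherm : ∀ x y, B y x = θ' (B x y))
    (hnd : ∀ x, (∀ y, B x y = 0) → x = 0) :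
    ∃ θ : K ≃+* K, (∀ a, θ a = θ' a) ∧ Iv θ ∧ Hm θ B := by
  let θ : K ≃+* K := RingEquiv.ofRingHom θ' θ' (RingHom.ext hθ) (RingHom.ext hθ)
  have hθθ : ∀ a, θ a = θ' a := fun a => rfl
  refine ⟨θ, hθθ, ⟨fun a => hθ a, hne⟩, ⟨hadd, hsml, fun x y => hherm x y, hnd⟩⟩

end Forms

end Vale.Agent.P180.R2.H589.Un
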