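import Vale.Agent.P180.R2.H589.Un.Chr

/-!
P180: the Schur multiplier of a special unitary group over a finite field has order prime to the
characteristic: the induction.
-/

set_option linter.all false

namespace Vale.Agent.P180.R2.H589.Un

open Subgroup Module
open Vale.Agent.P180.R2.H589.Sch
open Vale.Agent.P180.R2.H589.Sp (oo oo_ne finite_gl cj SM)
open scoped commutatorElement Pointwise

section Fix

variable {K V : Type} [Field K] [Finite K] [AddCommGroup V] [Module K V] [Finite V]
  {θ : K ≃+* K} {h : V → V → K} (hθ : Iv θ) (hB : Hm θ h) {p : ℕ} [Fact p.Prime] [CharP K p]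

include hθ hB in
/-- `p`-groups of isometries fix an isotropic vector. -/
theorem exists_fixed_iso (hd : 2 ≤ finrank K V) {S : Type} [Group S] [Finite S] (hS : IsPGroup p S)
    (ρ : S →* (V ≃ₗ[K] V)) (hρ : ∀ s, ρ s ∈ UG h) :
    ∃ v : V, v ≠ 0 ∧ h v v = 0 ∧ ∀ s, ρ s v = v := by
  haveI : Module.Finite K V := Module.Finite.of_finite
  have hex : ∀ U : Submodule K V, (∀ s, ∀ x ∈ U, ρ s x ∈ U) → (∃ x ∈ U, x ≠ 0) →
      ∃ x ∈ U, x ≠ 0 ∧ ∀ s, ρ s x = x := by
    intro U hU hU0
    letI act0 : MulAction S U :=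
      { smul := fun s x => ⟨ρ s x, hU s x x.2⟩
        one_smul := fun x => Subtype.ext (by
          change ρ 1 (x : V) = x
          rw [map_one]
          rfl)
        mul_smul := fun s t x => Subtype.ext (by
          change ρ (s * t) (x : V) = ρ s (ρ t (x : V))
          rw [map_mul]
          rfl) }
    have hsm : ∀ (s : S) (x : U), ((s • x : U) : V) = ρ s (x : V) := fun s x => rfl
    have hcard : p ∣ Nat.card U := by
      rw [Module.natCard_eq_pow_finrank (K := K)]
      refine dvd_pow Sp.dvd_cardK ?_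
      intro h0
      have h3 : Subsingleton U := Module.finrank_zero_iff.mp h0
      obtain ⟨x, hx, hx0⟩ := hU0
      exact hx0 (congrArg Subtype.val (Subsingleton.elim (⟨x, hx⟩ : U) 0))
    have h0 : (0 : U) ∈ MulAction.fixedPoints S U := by
      rw [MulAction.mem_fixedPoints]
      intro s
      exact Subtype.ext ((hsm s 0).trans (map_zero _))
    obtain ⟨v, hv, hv0⟩ :=
      hS.exists_fixed_point_of_prime_dvd_card_of_fixed_point U hcard h0
    rw [MulAction.mem_fixedPoints] at hv
    exact ⟨v, v.2, fun h1 => hv0 (Subtype.ext h1.symm), fun s =>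
      (hsm s v).symm.trans (congrArg Subtype.val (hv s))⟩
  obtain ⟨e, he⟩ := exists_nz (K := K) (V := V) (by omega : 1 ≤ finrank K V)
  obtain ⟨v, -, hv0, hv⟩ := hex ⊤ (fun s x _ => Submodule.mem_top) ⟨e, Submodule.mem_top, he⟩
  by_cases hvi : h v v = 0
  · exact ⟨v, hv0, hvi, hv⟩
  obtain ⟨U, hU⟩ : ∃ U, U = pp hB (Submodule.span K {v}) := ⟨_, rfl⟩
  have hmem : ∀ x, x ∈ U ↔ h x v = 0 := fun x => by rw [hU]; exact mem_pp_line hB
  have hUr := finrank_pp_line hB hvi
  rw [← hU] at hUr
  obtain ⟨w, hw, hw0, hwf⟩ := hex U (fun s x hx => by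
      rw [hmem] at hx ⊢
      rw [← hv s, mem_UG.mp (hρ s), hx]) (by
      by_contra hcon
      push Not at hcon
      have h3 : U = ⊥ := by
        rw [Submodule.eq_bot_iff]
        exact hcon
      rw [h3, finrank_bot] at hUr
      omega)
  by_cases hwi : h w w = 0
  · exact ⟨w, hw0, hwi, hwf⟩
  have hvw : h v w = 0 := hB.swap ((hmem w).mp hw)
  obtain ⟨t, ht0, ht⟩ := exists_isotropic hθ hB hvi hwi hvw
  refine ⟨v + t • w, ?_, ht, fun s => by rw [map_add, map_smul, hv, hwf]⟩
  intro h0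
  have h1 := congrArg (fun x => h x v) h0
  simp only [hB.addl, hB.sml, hB.swap hvw, hB.zl, mul_zero, add_zero] at h1
  exact hvi h1

end Fix

section Main

variable {K : Type} [Field K] [Finite K] {θ : K ≃+* K} {p : ℕ} [Fact p.Prime] [CharP K p]
  (hθ : Iv θ)

include hθ in
theorem not_dvd_index_GU {W : Type} [AddCommGroup W] [Module K W] [Module.Finite K W]
    {h : W → W → K} (hB : Hm θ h) :
    ¬ p ∣ ((GU θ h).subgroupOf (SUG (hyp θ h))).index := by
  have hV := hyp_hm hθ hB
  haveI : Finite W := Module.finite_of_finite K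
  haveI : Finite ((K × W × K) ≃ₗ[K] (K × W × K)) := finite_gl
  let G := SUG (hyp θ h)
  let S : Sylow p G := default
  obtain ⟨v, hv0, hvi, hv⟩ := exists_fixed_iso hθ hV (p := p) (by
      rw [Module.finrank_prod, Module.finrank_prod, Module.finrank_self]
      omega) S.isPGroup' ((SUG (hyp θ h)).subtype.comp (S : Subgroup G).subtype)
    (fun s => s.1.2.1)
  obtain ⟨g, hg, l, hl0, hgv⟩ := line_trans hθ hV hv0 (oo_ne (K := K) (W := W)) hvi (oo_iso hB)
  have hle : (((⟨g, TG_le _ hg⟩ : G) • S : Sylow p G) : Subgroup G) ≤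
      (GU θ h).subgroupOf (SUG (hyp θ h)) := by
    intro x hx
    rw [Sylow.coe_subgroup_smul, mem_pointwise_smul_iff_inv_smul_mem, ← map_inv,
      MulAut.smul_def, MulAut.conj_apply, inv_inv] at hx
    have h1 := hv ⟨_, hx⟩
    have h2 : (g⁻¹ * (x : (K × W × K) ≃ₗ[K] (K × W × K)) * g) v = v := h1
    rw [mem_subgroupOf]
    refine ⟨⟨x.2.1, 1, ?_⟩, x.2⟩
    have h3 : g ((g⁻¹ * (x : (K × W × K) ≃ₗ[K] (K × W × K)) * g) v) = g v := by rw [h2]
    have h4 : g ((g⁻¹ * (x : (K × W × K) ≃ₗ[K] (K × W × K)) * g) v) =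
        (x : (K × W × K) ≃ₗ[K] (K × W × K)) (g v) := by
      rw [LinearEquiv.mul_apply, LinearEquiv.mul_apply]
      exact g.apply_symm_apply _
    rw [h4, hgv, map_smul] at h3
    rw [one_smul]
    exact smul_right_injective _ hl0 h3
  intro hd
  exact Sylow.not_dvd_index ((⟨g, TG_le _ hg⟩ : G) • S) (hd.trans (index_dvd_of_le hle))

include hθ in
/-- **The multiplier of a special unitary group.** -/
theorem SM_SUG (hF : 9 < Nat.card (FF θ)) {V : Type} [AddCommGroup V] [Module K V]
    [Module.Finite K V] {h : V → V → K} (hB : Hm θ h) : SM p (SUG h) := by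
  refine u_ind hθ (fun V _ _ h => SM p (SUG h)) ?_ ?_ ?_ V h hB
  · intro V _ _ _ h hB hd
    haveI : Subsingleton (SUG h) :=
      ⟨fun a b => Subtype.ext (by rw [eq_one_of_dim hd a.2.2, eq_one_of_dim hd b.2.2])⟩
    exact SM.of_subsingleton
  · intro W _ _ _ h hB ih
    refine SM.of_index (not_dvd_index_GU hθ hB) ?_
    refine SM.of_equiv (Subgroup.subgroupOfEquivOfLe ?_).symm (SM_GU hθ hB hF ih)
    exact fun g hg => hg.2
  · intro V V' _ _ _ _ _ h h' e hB he ih
    refine SM.of_equiv ?_ ih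
    exact
      { toFun := fun g => ⟨cj e g, (cj_mem_SUG he).mpr g.2⟩
        invFun := fun g => ⟨(cj e).symm g, by
          rw [← cj_mem_SUG he, MulEquiv.apply_symm_apply]; exact g.2⟩
        left_inv := fun g => Subtype.ext ((cj e).symm_apply_apply g)
        right_inv := fun g => Subtype.ext ((cj e).apply_symm_apply g)
        map_mul' := fun g h => Subtype.ext (map_mul (cj e) (g : V ≃ₗ[K] V) (h : V ≃ₗ[K] V)) }

end Main

end Vale.Agent.P180.R2.H589.Un
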