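import Vale.Agent.P180.R2.H589.Un.Shu3
import Vale.Agent.P180.R2.H589.Un.Chr2
import Vale.Agent.P180.R2.H589.Un.Au8
import Vale.Agent.P180.R2.H589.Sp.Main

/-!
P180: finite perfect groups `L` with `L/Z(L) ≅ PSU(V)` are quotients of `SU(V)`; reduction to
dimension at most three for the part of the multiplier which is prime to the characteristic.
-/

set_option linter.all false

namespace Vale.Agent.P180.R2.H589.Un

open Subgroup Module
open Vale.Agent.P180.R2.H589.Sch
open Vale.Agent.P180.R2.H589.Sp (finite_gl center_quot_trivial center_of_surj)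
open scoped commutatorElement

/-- The claim for the spaces of dimension at most three. -/
def SmallU {K : Type} [Field K] (θ : K ≃+* K) : Prop :=
  ∀ (p : ℕ) [Fact p.Prime] [CharP K p] (V : Type) [AddCommGroup V] [Module K V]
    [Module.Finite K V] (h : V → V → K), Hm θ h → finrank K V ≤ 3 → CopU p h

variable {K : Type} [Field K] [Finite K] {V : Type} [AddCommGroup V] [Module K V]
  [Module.Finite K V] {θ : K ≃+* K} {h : V → V → K} (hθ : Iv θ) (hB : Hm θ h)
  (hF : 18 < Nat.card (FF θ)) (hsm : SmallU θ)

include hθ hB hF hsm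

/-- **A finite perfect central extension of `SU(V)` is trivial.** -/
theorem su_injective {E : Type} [Group E] [Finite E]
    (hperf : commutator E = ⊤) (f : E →* SUG h)
    (hf : Function.Surjective f) (hk : f.ker ≤ center E) : Function.Injective f := by
  haveI hp : Fact (ringChar K).Prime := ⟨CharP.char_is_prime K (ringChar K)⟩
  obtain ⟨p, hpdef⟩ : ∃ p, p = ringChar K := ⟨_, rfl⟩
  rw [← hpdef] at hp
  haveI : CharP K p := by rw [hpdef]; exact ringChar.charP K
  -- the kernel has order prime to `p`
  have h1 : ¬ p ∣ Nat.card f.ker := by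
    intro hdv
    obtain ⟨w, hw⟩ := exists_prime_orderOf_dvd_card' p hdv
    have h2 : (w : E) = 1 := by
      refine (SM_SUG (p := p) hθ (by omega) hB).apply_perfect f hf hk hperf w.2 ⟨1, ?_⟩
      have h3 : w ^ p = 1 := by rw [← hw]; exact pow_orderOf_eq_one w
      rw [pow_one]
      exact congrArg Subtype.val h3
    have h3 : w = 1 := Subtype.ext h2
    rw [h3, orderOf_one] at hw
    exact hp.out.one_lt.ne hw
  -- `E` is generated by the `p`-elements
  obtain ⟨H, hH⟩ : ∃ H : Subgroup E, H = closure {x : E | Pel p x} := ⟨_, rfl⟩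
  have h2 : H.map f = ⊤ := by
    rw [eq_top_iff]
    rintro ⟨g, hg⟩ -
    have h3 : TG hB ≤ (H.map f).map (SUG h).subtype := by
      rw [TG, closure_le]
      rintro _ ⟨a, ha, c, hc, rfl⟩
      obtain ⟨q, hq, hfq⟩ := exists_pel (f := f) (p := p) h1
        (g := ⟨tU hB ha c, tU_mem_SUG hB ha hc⟩) (by
        obtain ⟨n, hn⟩ := tU_pel (p := p) hB ha c
        exact ⟨n, Subtype.ext hn⟩) (hf _)
      refine ⟨f q, ⟨q, ?_, rfl⟩, congrArg Subtype.val hfq⟩
      rw [hH]
      exact subset_closure hq
    have h4 : g ∈ TG hB := by rw [← SUG_eq_TG hθ (by omega) hB]; exact hg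
    obtain ⟨y, hy, hyg⟩ := h3 h4
    have h5 : y = ⟨g, hg⟩ := Subtype.ext hyg
    rw [← h5]
    exact hy
  have h3 : H = ⊤ := by
    have h4 : commutator E ≤ ⁅H, H⁆ := by
      rw [commutator_def, commutator_le]
      intro x _ y _
      obtain ⟨x', hx', hxx⟩ : f x ∈ H.map f := by rw [h2]; exact mem_top _
      obtain ⟨y', hy', hyy⟩ : f y ∈ H.map f := by rw [h2]; exact mem_top _
      rw [comm_congr hk hxx.symm hyy.symm]
      exact commutator_mem_commutator hx' hy'
    have h5 : ⁅H, H⁆ ≤ H := by
      rw [commutator_le]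
      intro x hx y hy
      rw [commutatorElement_def]
      exact mul_mem (mul_mem (mul_mem hx hy) (inv_mem hx)) (inv_mem hy)
    rw [eq_top_iff, ← hperf]
    exact h4.trans h5
  -- the kernel is trivial
  have hker : ((SUG h).subtype.comp f).ker = f.ker := by
    ext x
    rw [MonoidHom.mem_ker, MonoidHom.mem_ker]
    constructor
    · intro hx
      exact Subtype.ext hx
    · intro hx
      change ((f x : SUG h) : V ≃ₗ[K] V) = 1
      rw [hx]
      rfl
  rw [← MonoidHom.ker_eq_bot_iff, ← hker]
  refine copU_of_small (p := p) hθ hF (fun V _ _ _ h hB hd => hsm p V h hB hd) _ V h hB le_rfl E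
    ((SUG h).subtype.comp f) (fun g hg => ?_)
    (fun x => (f x).2) (by rw [hker]; exact hk) (by rw [hker]; exact h1) (by rw [← hH]; exact h3)
  obtain ⟨y, hy⟩ := hf ⟨g, hg⟩
  exact ⟨y, congrArg Subtype.val hy⟩

omit hsm in
theorem X_perfect {X : Subgroup (SpecialLinearGroup K V)}
    (hX : ∀ g : SpecialLinearGroup K V, g ∈ X ↔ ∀ x y, h (g x) (g y) = h x y) :
    commutator X = ⊤ := by
  obtain ⟨ε, -⟩ := exists_equivSL hX
  have h1 := SUG_perfect' hθ (by omega : 3 < Nat.card (FF θ)) hB
  have h2 : (commutator (SUG h)).map ε.toMonoidHom = ⊤ := by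
    rw [h1, ← MonoidHom.range_eq_map, MonoidHom.range_eq_top]
    exact ε.surjective
  rw [eq_top_iff, ← h2, commutator_def, map_commutator, commutator_def]
  exact commutator_mono le_top le_top

/-- **Finite perfect groups `L` with `L/Z(L) ≅ PSU(V)`** are quotients of `SU(V)` by central
subgroups. -/
theorem exists_surj_su' {X : Subgroup (SpecialLinearGroup K V)}
    (hX : ∀ g : SpecialLinearGroup K V, g ∈ X ↔ ∀ x y, h (g x) (g y) = h x y)
    {L : Type} [Group L] [Finite L] (hL : commutator L = ⊤)
    (e : L ⧸ center L ≃* X ⧸ center X) :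
    ∃ π : X →* L, Function.Surjective π ∧ π.ker ≤ center X := by
  haveI : Finite V := Module.finite_of_finite K
  haveI : Finite (V ≃ₗ[K] V) := finite_gl
  obtain ⟨ε, -⟩ := exists_equivSL hX
  haveI : Finite X := Finite.of_equiv _ ε.toEquiv
  refine H259.Schur.exists_surj_of_injective (X_perfect hθ hB hF hX) hL
    (fun E π h1 h2 h3 => ?_) e
  have h4 := su_injective hθ hB hF hsm h1 (ε.symm.toMonoidHom.comp π) (ε.symm.surjective.comp h2)
    (fun x hx => h3 (by
      have h5 : ε.symm (π x) = 1 := hx
      rw [MonoidHom.mem_ker]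
      exact (MulEquiv.map_eq_one_iff ε.symm).mp h5))
  intro x y hxy
  apply h4
  change ε.symm (π x) = ε.symm (π y)
  rw [hxy]

/-- **The same in the form used for the classes of pairs**: `X` is the group of all isometries of
determinant one of a nondegenerate hermitian form, `T` is the quotient of `X` by the scalars; then
every finite perfect `L` with `L/Z(L) ≅ T` is a quotient of `X` by scalars. -/
theorem exists_surj_un' {X : Subgroup (SpecialLinearGroup K V)}
    (hX : ∀ g : SpecialLinearGroup K V, g ∈ X ↔ ∀ x y, h (g x) (g y) = h x y)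
    {T : Type*} [Group T] {π : X →* T} (hπ : Function.Surjective π)
    (hker : ∀ x : X, π x = 1 ↔ (x : SpecialLinearGroup K V) ∈ center (SpecialLinearGroup K V))
    {L : Type} [Group L] [Finite L] (hL : commutator L = ⊤) (e : L ⧸ center L ≃* T) :
    ∃ π' : X →* L, Function.Surjective π' ∧ ∀ x : X, π' x ∈ center L ↔
      (x : SpecialLinearGroup K V) ∈ center (SpecialLinearGroup K V) := by
  -- the centre of `X`
  have hcen : ∀ x : X, x ∈ center X ↔
      (x : SpecialLinearGroup K V) ∈ center (SpecialLinearGroup K V) := by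
    intro x
    constructor
    · intro hx
      rw [← hker]
      have h1 : e.symm (π x) ∈ center (L ⧸ center L) := by
        rw [mem_center_iff]
        intro t
        obtain ⟨y, hy⟩ := hπ (e t)
        have h2 : t = e.symm (π y) := by rw [hy, e.symm_apply_apply]
        rw [h2, ← map_mul, ← map_mul, ← map_mul, ← map_mul, mem_center_iff.mp hx y]
      have h2 := center_quot_trivial hL h1
      exact (MulEquiv.map_eq_one_iff e.symm).mp h2
    · intro hx
      rw [mem_center_iff] at hx ⊢
      intro y
      exact Subtype.ext (hx y)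
  have hk : π.ker = center X := by
    ext x
    rw [MonoidHom.mem_ker, hker, hcen]
  let e' : L ⧸ center L ≃* X ⧸ center X :=
    e.trans ((QuotientGroup.quotientKerEquivOfSurjective π hπ).symm.trans
      (QuotientGroup.quotientMulEquivOfEq hk))
  obtain ⟨π', h1, h2⟩ := exists_surj_su' hθ hB hF hsm hX hL e'
  refine ⟨π', h1, fun x => ⟨fun hx =>
    (hcen x).mp (center_of_surj (X_perfect hθ hB hF hX) h2 hx), fun hx => ?_⟩⟩
  have h3 := (hcen x).mpr hx
  rw [mem_center_iff]
  intro y
  obtain ⟨y, rfl⟩ := h1 y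
  rw [← map_mul, ← map_mul, mem_center_iff.mp h3 y]

end Vale.Agent.P180.R2.H589.Un
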