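import Vale.Agent.P180.R2.H589.Un.Ref
import Vale.Agent.P180.R2.H589.Sp.Au1
import Vale.Agent.P180.R2.H589.Sch.Gen

/-!
P180: automorphisms of `PSU(V)`: transvection groups.
-/

set_option linter.all false

namespace Vale.Agent.P180.R2.H589.Un

open Subgroup Module
open Vale.Agent.P180.R2.H589.Sch
open Vale.Agent.P180.R2.H589.Sp (oo oo_ne finite_gl)

section Basic

variable {K V : Type*} [Field K] [AddCommGroup V] [Module K V] {θ : K ≃+* K} {h : V → V → K}
  (hB : Hm θ h)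

/-- `g` is a transvection with centre `v` -/
def IsU (h : V → V → K) (g : V ≃ₗ[K] V) (v : V) (c : K) : Prop :=
  ∀ x, g x = x + (c * h x v) • v

theorem isU_one (v : V) : IsU h 1 v 0 := fun x => by rw [zero_mul, zero_smul, add_zero]; rfl

theorem IsU.inj {g g' : V ≃ₗ[K] V} {v : V} {c : K} (hg : IsU h g v c) (hg' : IsU h g' v c) :
    g = g' := LinearEquiv.ext fun x => by rw [hg, hg']

include hB

theorem IsU.mul {g g' : V ≃ₗ[K] V} {v : V} {c c' : K} (hv : h v v = 0) (hg : IsU h g v c)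
    (hg' : IsU h g' v c') : IsU h (g * g') v (c + c') := by
  intro x
  rw [LinearEquiv.mul_apply, hg, hg', hB.addl, hB.sml, hv]
  module

theorem IsU.inv {g : V ≃ₗ[K] V} {v : V} {c : K} (hv : h v v = 0) (hg : IsU h g v c) :
    IsU h g⁻¹ v (-c) := by
  intro x
  apply g.injective
  have h1 : g (g⁻¹ x) = x := g.apply_symm_apply x
  rw [h1, map_add, map_smul, hg x, hg v, hv]
  module

omit hB in
theorem IsU.conj {g k : V ≃ₗ[K] V} {v : V} {c : K} (hk : k ∈ UG h) (hg : IsU h g v c) :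
    IsU h (k * g * k⁻¹) (k v) c := by
  intro x
  obtain ⟨y, rfl⟩ := k.surjective x
  have h1 : k⁻¹ (k y) = y := k.symm_apply_apply y
  rw [LinearEquiv.mul_apply, LinearEquiv.mul_apply, h1, hg, map_add, map_smul, mem_UG.mp hk]

theorem IsU.smul_iff {g : V ≃ₗ[K] V} {v : V} {c l : K} :
    IsU h g (l • v) c ↔ IsU h g v (l * θ l * c) := by
  have h1 : ∀ x, (c * h x (l • v)) • (l • v) = (l * θ l * c * h x v) • v := by
    intro x
    rw [hB.smr, smul_smul]
    congr 1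
    ring
  constructor
  · intro hg x
    rw [hg, h1]
  · intro hg x
    rw [hg, h1]

theorem IsU.pel {p : ℕ} [CharP K p] {g : V ≃ₗ[K] V} {v : V} {c : K} (hv : h v v = 0)
    (hg : IsU h g v c) : Pel p g := by
  have h1 : g = tU hB hv c := LinearEquiv.ext fun x => by rw [hg, tU_apply]
  rw [h1]
  exact tU_pel hB hv c

theorem IsU.line {g : V ≃ₗ[K] V} {v w : V} {c d : K} (hv : v ≠ 0) (hc : c ≠ 0)
    (hg : IsU h g v c) (hg' : IsU h g w d) : ∃ k : K, w = k • v := by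
  obtain ⟨y, hy⟩ := hB.exists_one hv
  have h1 : h y v = 1 := by rw [hB.herm v y, hy, map_one]
  have h2 := hg y
  rw [hg', h1, mul_one] at h2
  have h3 := add_left_cancel h2
  have h4 : d * h y w ≠ 0 := by
    intro h5
    rw [h5, zero_smul] at h3
    exact (smul_ne_zero hc hv) h3.symm
  refine ⟨(d * h y w)⁻¹ * c, ?_⟩
  rw [mul_smul, ← h3, smul_smul, inv_mul_cancel₀ h4, one_smul]

theorem IsU.comm {g g' : V ≃ₗ[K] V} {v w : V} {c d : K} (hvw : h v w = 0) (hg : IsU h g v c)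
    (hg' : IsU h g' w d) : g * g' = g' * g := by
  apply LinearEquiv.ext
  intro x
  rw [LinearEquiv.mul_apply, LinearEquiv.mul_apply, hg' x, hg x, hg, hg', hB.addl, hB.addl,
    hB.sml, hB.sml, hvw, hB.swap hvw]
  module

theorem IsU.orth {g g' : V ≃ₗ[K] V} {v w : V} {c d : K} (hw0 : w ≠ 0) (hw : h w w = 0)
    (hc : c ≠ 0) (hd : d ≠ 0) (hg : IsU h g v c) (hg' : IsU h g' w d) (hgU : g ∈ UG h)
    (hcomm : g * g' * g⁻¹ = g') : h v w = 0 := by
  have h1 := hg'.conj hgU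
  rw [hcomm] at h1
  obtain ⟨k, hk⟩ := hg'.line hB hw0 hd h1
  rw [hg] at hk
  by_contra h0
  have h2 : h w v ≠ 0 := hB.swap_ne h0
  have h3 : (c * h w v) • v = (k - 1) • w := by
    have h3 : (c * h w v) • v = (w + (c * h w v) • v) - w := by abel
    rw [h3, hk]
    module
  apply h0
  have h4 : v = ((c * h w v)⁻¹ * (k - 1)) • w := by
    rw [mul_smul, ← h3, smul_smul, inv_mul_cancel₀ (mul_ne_zero hc h2), one_smul]
  rw [h4, hB.sml, hw, mul_zero]

theorem exists_isU {v : V} (hv : h v v = 0) {c : K} (hc : c + θ c = 0) :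
    ∃ g : SUG h, IsU h g v c := ⟨⟨tU hB hv c, tU_mem_SUG hB hv hc⟩, fun x => rfl⟩

omit hB in
theorem center_of_scalar {z : SUG h} {c : K} (hz : ∀ v, (z : V ≃ₗ[K] V) v = c • v) :
    z ∈ center (SUG h) := by
  rw [mem_center_iff]
  intro y
  apply Subtype.ext
  apply LinearEquiv.ext
  intro v
  change (y : V ≃ₗ[K] V) ((z : V ≃ₗ[K] V) v) = (z : V ≃ₗ[K] V) ((y : V ≃ₗ[K] V) v)
  rw [hz, hz, map_smul]

/-- central elements stabilise the isotropic lines -/
theorem line_of_center (hθ : Iv θ) {z : SUG h} (hz : z ∈ center (SUG h)) {v : V} (hv0 : v ≠ 0)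
    (hv : h v v = 0) : ∃ c : K, (z : V ≃ₗ[K] V) v = c • v := by
  obtain ⟨d, hd, hd'⟩ := exists_dl hθ
  obtain ⟨g, hg⟩ := exists_isU hB hv (c := d) (by rw [hd', add_neg_cancel])
  have h1 := mem_center_iff.mp hz g
  have h2 : (z : V ≃ₗ[K] V) * g * (z : V ≃ₗ[K] V)⁻¹ = g := by
    rw [mul_inv_eq_iff_eq_mul]
    exact (congrArg Subtype.val h1).symm
  have h3 := hg.conj (k := (z : V ≃ₗ[K] V)) z.2.1
  rw [h2] at h3
  exact hg.line hB hv0 hd h3

end Basic

section Hyp

variable {K W : Type*} [Field K] [AddCommGroup W] [Module K W] {θ : K ≃+* K} {h : W → W → K}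
  (hθ : Iv θ) (hB : Hm θ h)

include hθ hB

theorem o'_iso : hyp θ h (o' K W) (o' K W) = 0 := by
  rw [hyp_apply]
  change (0 : K) * θ 1 + 1 * θ 0 + h 0 0 = 0
  rw [hB.zl, map_zero]
  ring

omit hθ hB in
theorem o'_ne : o' K W ≠ 0 := fun h => one_ne_zero (congrArg (fun u : K × W × K => u.2.2) h)

omit hθ in
theorem iso_of_cond {x : W} {c : K} (hc : c + θ c + h x x = 0) :
    hyp θ h ((c, x, 1) : K × W × K) (c, x, 1) = 0 := by
  rw [hyp_apply]
  change c * θ 1 + 1 * θ c + h x x = 0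
  rw [map_one]
  linear_combination hc

/-- Linear maps which stabilise the isotropic lines are scalars. -/
theorem scalar_of_iso {z : (K × W × K) →ₗ[K] (K × W × K)}
    (hz : ∀ v : K × W × K, v ≠ 0 → hyp θ h v v = 0 → ∃ c : K, z v = c • v) :
    ∃ c : K, ∀ v, z v = c • v := by
  obtain ⟨l, hl⟩ := hz (oo K W) oo_ne (oo_iso hB)
  obtain ⟨l', hl'⟩ := hz (o' K W) o'_ne (o'_iso hθ hB)
  obtain ⟨d, hd, hd'⟩ := exists_dl hθ
  -- vectors with last coordinate one
  have key : ∀ (x : W) (c : K), c + θ c + h x x = 0 →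
      l' = l ∧ z ((c, x, 1) : K × W × K) = l • ((c, x, 1) : K × W × K) := by
    intro x c hc
    have hc' : (c + d) + θ (c + d) + h x x = 0 := by
      rw [map_add, hd']
      linear_combination hc
    obtain ⟨m, hm⟩ := hz (c, x, 1) (fun h => one_ne_zero (congrArg (fun u : K × W × K => u.2.2) h))
      (iso_of_cond hB hc)
    obtain ⟨m', hm'⟩ := hz (c + d, x, 1)
      (fun h => one_ne_zero (congrArg (fun u : K × W × K => u.2.2) h)) (iso_of_cond hB hc')
    have h1 : ((c + d, x, 1) : K × W × K) = (c, x, 1) + d • oo K W := by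
      refine Prod.ext ?_ (Prod.ext ?_ ?_)
      · change c + d = c + d * 1
        ring
      · change x = x + d • (0 : W)
        rw [smul_zero, add_zero]
      · change (1 : K) = 1 + d * 0
        ring
    rw [h1, map_add, map_smul, hm, hl] at hm'
    have e1 := congrArg Prod.fst hm'
    have e2 := congrArg (fun u : K × W × K => u.2.2) hm'
    change m * c + d * (l * 1) = m' * (c + d * 1) at e1
    change m * 1 + d * (l * 0) = m' * (1 + d * 0) at e2
    have e3 : m = m' := by linear_combination e2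
    have e4 : m = l := by
      rw [← e3] at e1
      have : (m - l) * d = 0 := by linear_combination -e1
      exact sub_eq_zero.mp ((mul_eq_zero.mp this).resolve_right hd)
    refine ⟨?_, by rw [hm, e4]⟩
    -- the vector `(d, 0, 1)`
    obtain ⟨n, hn⟩ := hz (d, 0, 1)
      (fun h => one_ne_zero (congrArg (fun u : K × W × K => u.2.2) h))
      (iso_of_cond hB (by rw [hd', hB.zl]; ring))
    have h2 : ((d, 0, 1) : K × W × K) = d • oo K W + o' K W := by
      refine Prod.ext ?_ (Prod.ext ?_ ?_)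
      · change d = d * 1 + 0
        ring
      · change (0 : W) = d • (0 : W) + 0
        rw [smul_zero, add_zero]
      · change (1 : K) = d * 0 + 1
        ring
    rw [h2, map_add, map_smul, hl, hl'] at hn
    have e5 := congrArg Prod.fst hn
    have e6 := congrArg (fun u : K × W × K => u.2.2) hn
    change d * (l * 1) + l' * 0 = n * (d * 1 + 0) at e5
    change d * (l * 0) + l' * 1 = n * (d * 0 + 1) at e6
    have e7 : n = l := by
      have : (n - l) * d = 0 := by linear_combination -e5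
      exact sub_eq_zero.mp ((mul_eq_zero.mp this).resolve_right hd)
    rw [← e7]
    linear_combination e6
  refine ⟨l, fun v => ?_⟩
  obtain ⟨c, hc⟩ := exists_cond hB hθ v.2.1
  obtain ⟨hll, h3⟩ := key _ _ hc
  have h4 : v = (v.1 - c) • oo K W + ((c, v.2.1, 1) : K × W × K) + (v.2.2 - 1) • o' K W := by
    refine Prod.ext ?_ (Prod.ext ?_ ?_)
    · change v.1 = (v.1 - c) * 1 + c + (v.2.2 - 1) * 0
      ring
    · change v.2.1 = (v.1 - c) • (0 : W) + v.2.1 + (v.2.2 - 1) • (0 : W)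
      rw [smul_zero, smul_zero, zero_add, add_zero]
    · change v.2.2 = (v.1 - c) * 0 + 1 + (v.2.2 - 1) * 1
      ring
  rw [h4, map_add, map_add, map_smul, map_smul, hl, hl', h3, hll]
  module

theorem scalar_of_center {z : SUG (hyp θ h)} (hz : z ∈ center (SUG (hyp θ h))) :
    ∃ c : K, ∀ v, (z : (K × W × K) ≃ₗ[K] (K × W × K)) v = c • v :=
  scalar_of_iso hθ hB (z := (z : (K × W × K) ≃ₗ[K] (K × W × K)).toLinearMap)
    fun v hv0 hv => line_of_center (hyp_hm hθ hB) hθ hz hv0 hv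

theorem not_dvd_center {p : ℕ} [hp : Fact p.Prime] [CharP K p] [Finite K] [Finite W] :
    ¬ p ∣ Nat.card (center (SUG (hyp θ h))) := by
  intro hdv
  haveI : Finite ((K × W × K) ≃ₗ[K] (K × W × K)) := finite_gl
  obtain ⟨w, hw⟩ := exists_prime_orderOf_dvd_card' p hdv
  obtain ⟨c, hc⟩ := scalar_of_center hθ hB w.2
  have h1 : w ^ p = 1 := by rw [← hw]; exact pow_orderOf_eq_one w
  have h2 : ∀ (n : ℕ) (v : K × W × K),
      (((w : SUG (hyp θ h)) : (K × W × K) ≃ₗ[K] (K × W × K)) ^ n) v = c ^ n • v := by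
    intro n
    induction n with
    | zero => intro v; rw [pow_zero, pow_zero, one_smul]; rfl
    | succ n ih => intro v; rw [pow_succ', LinearEquiv.mul_apply, ih, map_smul, hc, smul_smul,
        pow_succ]
  have h3 : c = 1 := by
    have h4 : (((w : SUG (hyp θ h)) : (K × W × K) ≃ₗ[K] (K × W × K)) ^ p) (oo K W) = oo K W := by
      have h5 : ((w : SUG (hyp θ h)) : (K × W × K) ≃ₗ[K] (K × W × K)) ^ p = 1 := by
        have h6 := congrArg (fun u : center (SUG (hyp θ h)) =>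
          ((u : SUG (hyp θ h)) : (K × W × K) ≃ₗ[K] (K × W × K))) h1
        exact h6
      rw [h5]; rfl
    rw [h2] at h4
    have h5 := congrArg Prod.fst h4
    change c ^ p * 1 = 1 at h5
    rw [mul_one] at h5
    have h6 : (c - 1) ^ p = 0 := by rw [sub_pow_char, h5, one_pow, sub_self]
    exact sub_eq_zero.mp (pow_eq_zero_iff hp.out.ne_zero |>.mp h6)
  have h4 : w = 1 := by
    apply Subtype.ext
    apply Subtype.ext
    apply LinearEquiv.ext
    intro v
    rw [hc, h3, one_smul]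
    rfl
  rw [h4, orderOf_one] at hw
  exact hp.out.one_lt.ne hw

end Hyp

section T

variable {K V : Type*} [Field K] [AddCommGroup V] [Module K V] {θ : K ≃+* K} {h : V → V → K}
  {T : Type*} [Group T] (π : SUG h →* T)

/-- the transvection groups -/
def XT (v : V) : Set T := {t | ∃ (g : SUG h) (c : K), IsU h g v c ∧ t = π g}

theorem mem_XT {v : V} {t : T} : t ∈ XT π v ↔ ∃ (g : SUG h) (c : K), IsU h g v c ∧ t = π g :=
  Iff.rfl

theorem XT_smul (hB : Hm θ h) {k : K} (hk : k ≠ 0) (v : V) : XT π (k • v) = XT π v := by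
  have hk' : k * θ k ≠ 0 := mul_ne_zero hk ((map_ne_zero θ).mpr hk)
  ext t
  constructor
  · rintro ⟨g, c, hg, rfl⟩
    exact ⟨g, _, (IsU.smul_iff hB).mp hg, rfl⟩
  · rintro ⟨g, c, hg, rfl⟩
    refine ⟨g, (k * θ k)⁻¹ * c, (IsU.smul_iff hB).mpr ?_, rfl⟩
    rw [mul_inv_cancel_left₀ hk']
    exact hg

theorem XT_conj (g : SUG h) (v : V) {t : T} (ht : t ∈ XT π v) :
    π g * t * (π g)⁻¹ ∈ XT π ((g : V ≃ₗ[K] V) v) := by
  obtain ⟨k, c, hk, rfl⟩ := ht
  exact ⟨g * k * g⁻¹, c, hk.conj g.2.1, by rw [map_mul, map_mul, map_inv]⟩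

theorem XT_conj_iff (g : SUG h) (v : V) {t : T} :
    π g * t * (π g)⁻¹ ∈ XT π ((g : V ≃ₗ[K] V) v) ↔ t ∈ XT π v := by
  refine ⟨fun hh => ?_, XT_conj π g v⟩
  have h1 := XT_conj π g⁻¹ _ hh
  have h2 : π g⁻¹ * (π g * t * (π g)⁻¹) * (π g⁻¹)⁻¹ = t := by rw [map_inv]; group
  rw [h2] at h1
  have h3 : ((g⁻¹ : SUG h) : V ≃ₗ[K] V) ((g : V ≃ₗ[K] V) v) = v :=
    (g : V ≃ₗ[K] V).symm_apply_apply v
  rwa [h3] at h1

theorem XT_conj_iff' (g : SUG h) (v : V) {t : T} :
    (π g)⁻¹ * t * π g ∈ XT π v ↔ t ∈ XT π ((g : V ≃ₗ[K] V) v) := by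
  rw [← XT_conj_iff π g v]
  have : π g * ((π g)⁻¹ * t * π g) * (π g)⁻¹ = t := by group
  rw [this]

theorem XT_comm (hB : Hm θ h) {v w : V} (hvw : h v w = 0) {x y : T} (hx : x ∈ XT π v)
    (hy : y ∈ XT π w) : x * y = y * x := by
  obtain ⟨g, c, hg, rfl⟩ := hx
  obtain ⟨k, d, hk, rfl⟩ := hy
  rw [← map_mul, ← map_mul]
  congr 1
  exact Subtype.ext (hg.comm hB hvw hk)

variable {π} (p : ℕ) [hp : Fact p.Prime] [CharP K p] [Finite V] (hB : Hm θ h) (hθ : Iv θ)
  (hk : π.ker ≤ center (SUG h)) (hkp : ¬ p ∣ Nat.card π.ker)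

include hp hk hkp

/-- unique lifts of the `p`-elements -/
theorem pel_inj {x y : SUG h} (hx : Pel p x) (hy : Pel p y) (hxy : π x = π y) : x = y := by
  haveI : Finite (V ≃ₗ[K] V) := finite_gl
  exact pel_unique (f := π) hk hkp hx hy hxy

theorem comm_of_pi {g r : SUG h} (hr : Pel p r) (hgr : π g * π r = π r * π g) :
    g * r * g⁻¹ = r := by
  refine pel_inj p hk hkp (hr.conj g) hr ?_
  rw [map_mul, map_mul, map_inv, hgr, mul_inv_cancel_right]

omit hp hk hkp [Finite V] in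
include hB in
theorem isU_pel {g : SUG h} {v : V} {c : K} (hv : h v v = 0) (hg : IsU h g v c) : Pel p g := by
  obtain ⟨n, hn⟩ := hg.pel (p := p) hB hv
  exact ⟨n, Subtype.ext hn⟩

include hB hθ in
theorem XT_eq {v w : V} (hv0 : v ≠ 0) (hv : h v v = 0) (hw : h w w = 0)
    (hvw : ∀ t ∈ XT π v, t ∈ XT π w) : ∃ k : K, w = k • v := by
  obtain ⟨d, hd, hd'⟩ := exists_dl hθ
  obtain ⟨g, hg⟩ := exists_isU hB hv (c := d) (by rw [hd', add_neg_cancel])
  obtain ⟨g', c, hg', hgg⟩ := hvw _ ⟨g, d, hg, rfl⟩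
  have h1 := pel_inj p hk hkp (isU_pel p hB hv hg) (isU_pel p hB hw hg') hgg
  rw [← h1] at hg'
  exact hg.line hB hv0 hd hg'

include hB hθ in
theorem orth_of_XT {v w : V} (hv : h v v = 0) (hw0 : w ≠ 0) (hw : h w w = 0)
    (hcomm : ∀ x ∈ XT π v, ∀ y ∈ XT π w, x * y = y * x) : h v w = 0 := by
  obtain ⟨d, hd, hd'⟩ := exists_dl hθ
  obtain ⟨g, hg⟩ := exists_isU hB hv (c := d) (by rw [hd', add_neg_cancel])
  obtain ⟨g', hg'⟩ := exists_isU hB hw (c := d) (by rw [hd', add_neg_cancel])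
  have h1 := comm_of_pi p hk hkp (isU_pel p hB hw hg')
    (hcomm _ ⟨g, d, hg, rfl⟩ _ ⟨g', d, hg', rfl⟩)
  exact hg.orth hB hw0 hw hd hd hg' g.2.1 (congrArg Subtype.val h1)

include hB hθ in
theorem line_of_norm {g : SUG h} {v : V} (hv0 : v ≠ 0) (hv : h v v = 0)
    (hn : ∀ t ∈ XT π v, π g * t * (π g)⁻¹ ∈ XT π v) : ∃ k : K, (g : V ≃ₗ[K] V) v = k • v := by
  have h1 : ∀ t ∈ XT π v, t ∈ XT π (((g⁻¹ : SUG h) : V ≃ₗ[K] V) v) := by
    intro t ht
    have h2 := XT_conj π g⁻¹ v (hn t ht)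
    have h3 : π g⁻¹ * (π g * t * (π g)⁻¹) * (π g⁻¹)⁻¹ = t := by rw [map_inv]; group
    rwa [h3] at h2
  obtain ⟨k, hk⟩ := XT_eq p hB hθ hk hkp hv0 hv (UG_iso hB (g⁻¹).2.1 hv) h1
  have hk0 : k ≠ 0 := by
    rintro rfl
    rw [zero_smul] at hk
    exact hv0 (LinearEquiv.map_eq_zero_iff _ |>.mp hk)
  refine ⟨k⁻¹, ?_⟩
  have h4 : (g : V ≃ₗ[K] V) (((g⁻¹ : SUG h) : V ≃ₗ[K] V) v) = v :=
    (g : V ≃ₗ[K] V).apply_symm_apply v
  rw [hk, map_smul] at h4
  nth_rewrite 2 [← h4]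
  rw [smul_smul, inv_mul_cancel₀ hk0, one_smul]

end T

end Vale.Agent.P180.R2.H589.Un
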