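import Vale.Agent.P180.R2.H589.Un.Au1
import Vale.Agent.P180.R2.H589.Sp.Au2

/-!
P180: automorphisms of `PSU(V)`, odd characteristic: the radical of the stabiliser of an isotropic
line.
-/

set_option linter.all false

namespace Vale.Agent.P180.R2.H589.Un

open Subgroup Module
open Vale.Agent.P180.R2.H589.Sch
open Vale.Agent.P180.R2.H589.Sp (oo oo_ne finite_gl)
open scoped Pointwise

section Z

variable {K : Type*} [Field K] {θ : K ≃+* K}

/-- trace zero elements -/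
def Z0 (θ : K ≃+* K) : AddSubgroup K where
  carrier := {z | z + θ z = 0}
  zero_mem' := by
    change (0 : K) + θ 0 = 0
    rw [map_zero, add_zero]
  add_mem' := by
    intro a b ha hb
    change a + b + θ (a + b) = 0
    change a + θ a = 0 at ha
    change b + θ b = 0 at hb
    rw [map_add]
    linear_combination ha + hb
  neg_mem' := by
    intro a ha
    change -a + θ (-a) = 0
    change a + θ a = 0 at ha
    rw [map_neg]
    linear_combination -ha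

theorem mem_Z0 {z : K} : z ∈ Z0 θ ↔ z + θ z = 0 := Iff.rfl

theorem Z0_coe (z : Z0 θ) : (z : K) + θ z = 0 := z.2

theorem Z0_neg (z : Z0 θ) : θ (z : K) = - (z : K) := eq_neg_of_add_eq_zero_right (Z0_coe z)

/-- norms act on the trace zero elements -/
def nz (hθ : Iv θ) (l : K) (z : Z0 θ) : Z0 θ := ⟨l * θ l * z, by
  rw [mem_Z0, map_mul, map_mul, hθ.inv, Z0_neg]
  ring⟩

theorem nz_val (hθ : Iv θ) (l : K) (z : Z0 θ) : (nz hθ l z : K) = l * θ l * z := rfl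

theorem two_lt_FF [Finite K] (h2 : (2 : K) ≠ 0) : 2 < Nat.card (FF θ) :=
  Sp.two_lt_card (K := FF θ) fun h => h2 (by
    have h3 := congrArg Subtype.val h
    exact h3)

end Z

section Om

variable {K W : Type*} [Field K] [AddCommGroup W] [Module K W] {θ : K ≃+* K} {h : W → W → K}
  (hθ : Iv θ) (hB : Hm θ h)

/-- the skew part of the form -/
def om (hθ : Iv θ) (hB : Hm θ h) (y y' : W) : Z0 θ := ⟨(h y y' - h y' y) / 2, by
  rw [mem_Z0, map_div₀, map_sub, ← hB.herm, ← hB.herm, map_ofNat]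
  ring⟩

theorem om_val (y y' : W) : (om hθ hB y y' : K) = (h y y' - h y' y) / 2 := rfl

theorem om_self (y : W) : om hθ hB y y = 0 := by
  apply Subtype.ext
  rw [om_val, sub_self, zero_div]
  rfl

theorem om_neg (y y' : W) : om hθ hB y (-y') = - om hθ hB y y' := by
  apply Subtype.ext
  change (h y (-y') - h (-y') y) / 2 = - ((h y y' - h y' y) / 2)
  rw [hB.negl, hB.negr]
  ring

theorem om_swap (y y' : W) : om hθ hB y' y = - om hθ hB y y' := by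
  apply Subtype.ext
  change (h y' y - h y y') / 2 = - ((h y y' - h y' y) / 2)
  ring

theorem om_zl (y : W) : om hθ hB 0 y = 0 := by
  apply Subtype.ext
  rw [om_val, hB.zl, hB.zr, sub_self, zero_div]
  rfl

theorem om_zr (y : W) : om hθ hB y 0 = 0 := by
  apply Subtype.ext
  rw [om_val, hB.zl, hB.zr, sub_self, zero_div]
  rfl

end Om

section Q

variable {K W : Type*} [Field K] [Finite K] [AddCommGroup W] [Module K W] {θ : K ≃+* K}
  {h : W → W → K} (hθ : Iv θ) (hB : Hm θ h) (h2 : (2 : K) ≠ 0)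

theorem qq_det (y : W) (c : K) : LinearEquiv.det (qq hB y c) = 1 := by
  haveI hp : Fact (ringChar K).Prime := ⟨CharP.char_is_prime K (ringChar K)⟩
  exact det_pel (p := ringChar K) (qq_pel hB y c)

include h2 hB in
theorem cond_r (y : W) (z : Z0 θ) : ((z : K) - h y y / 2) + θ ((z : K) - h y y / 2) + h y y = 0 := by
  have h3 : θ (2 : K) = 2 := map_ofNat θ 2
  rw [map_sub, map_div₀, hB.fix, h3, Z0_neg]
  field_simp
  ring

/-- elements of the radical -/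
def rG (hθ : Iv θ) (hB : Hm θ h) (h2 : (2 : K) ≠ 0) (y : W) (z : Z0 θ) : SUG (hyp θ h) :=
  ⟨qq hB y ((z : K) - h y y / 2), qq_mem hB (cond_r hB h2 y z), qq_det hB _ _⟩

theorem rG_val (y : W) (z : Z0 θ) : (rG hθ hB h2 y z : (K × W × K) ≃ₗ[K] (K × W × K)) =
    qq hB y ((z : K) - h y y / 2) := rfl

theorem rG_inj {y y' : W} {z z' : Z0 θ} (he : rG hθ hB h2 y z = rG hθ hB h2 y' z') :
    y = y' ∧ z = z' := by
  obtain ⟨h3, h4⟩ := qq_inj hB (congrArg Subtype.val he)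
  subst h3
  exact ⟨rfl, Subtype.ext (sub_left_injective h4)⟩

theorem rG_mul (y y' : W) (z z' : Z0 θ) : rG hθ hB h2 y z * rG hθ hB h2 y' z' =
    rG hθ hB h2 (y + y') (z + z' + om hθ hB y y') := by
  apply Subtype.ext
  rw [Subgroup.coe_mul, rG_val, rG_val, rG_val, qq_mul]
  congr 1
  rw [AddSubgroup.coe_add, AddSubgroup.coe_add, om_val, hB.addl, hB.addr, hB.addr]
  field_simp
  ring

theorem rG_zero : rG hθ hB h2 0 0 = 1 := by
  apply Subtype.ext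
  rw [rG_val, hB.zl, zero_div, sub_zero]
  exact qq_zero hB

theorem rG_inv (y : W) (z : Z0 θ) : (rG hθ hB h2 y z)⁻¹ = rG hθ hB h2 (-y) (-z) := by
  symm
  apply eq_inv_of_mul_eq_one_left
  rw [rG_mul, neg_add_cancel, neg_add_cancel, zero_add, om_swap, om_neg, om_self, neg_zero,
    neg_zero, rG_zero]

theorem rG_conj (y₀ y : W) (z₀ z : Z0 θ) : rG hθ hB h2 y₀ z₀ * rG hθ hB h2 y z *
    (rG hθ hB h2 y₀ z₀)⁻¹ = rG hθ hB h2 y (z + (om hθ hB y₀ y + om hθ hB y₀ y)) := by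
  rw [rG_inv, rG_mul, rG_mul]
  congr 1
  · abel
  · apply Subtype.ext
    simp only [AddSubgroup.coe_add, AddSubgroup.coe_neg, om_val, hB.negl, hB.negr, hB.addl,
      hB.addr]
    field_simp
    ring

theorem rG_add (y : W) (z : Z0 θ) : rG hθ hB h2 y z = rG hθ hB h2 y 0 * rG hθ hB h2 0 z := by
  rw [rG_mul, add_zero, zero_add, om_zr, add_zero]

omit [Finite K] in
theorem lv_det_val {m : W ≃ₗ[K] W} [Module.Finite K W] (l : Kˣ) :
    LinearEquiv.det (lv θ m l) = 1 ↔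
      (l : K) * (θ (l : K))⁻¹ * (LinearEquiv.det m : Kˣ) = 1 := by
  rw [← Units.val_inj, lv_det, Units.val_one]

theorem lG_rG {a : SUG (hyp θ h)} {m : W ≃ₗ[K] W} (hm : m ∈ UG h) {l : Kˣ}
    (ha : (a : (K × W × K) ≃ₗ[K] (K × W × K)) = lv θ m l) (y : W) (z : Z0 θ) :
    a * rG hθ hB h2 y z * a⁻¹ = rG hθ hB h2 (θ (l : K) • m y) (nz hθ l z) := by
  apply Subtype.ext
  rw [Subgroup.coe_mul, Subgroup.coe_mul, Subgroup.coe_inv, ha, rG_val, lv_qq hB hm hθ, rG_val]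
  congr 1
  rw [nz_val, hB.sml, hB.smr, hθ.inv, mem_UG.mp hm]
  ring

theorem rG_pel {p : ℕ} [CharP K p] (y : W) (z : Z0 θ) : Pel p (rG hθ hB h2 y z) := by
  obtain ⟨n, hn⟩ := qq_pel (p := p) hB y ((z : K) - h y y / 2)
  exact ⟨n, Subtype.ext hn⟩

include hB in
omit [Finite K] in
theorem hyp_oo_r (hθ : Iv θ) (x : K × W × K) : hyp θ h x (oo K W) = x.2.2 := by
  rw [(hyp_hm hθ hB).herm (oo K W) x, hyp_oo hB, hθ.inv]

theorem rG_isU (z : Z0 θ) : IsU (hyp θ h) (rG hθ hB h2 0 z : (K × W × K) ≃ₗ[K] (K × W × K))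
    (oo K W) z := by
  intro x
  rw [rG_val, hB.zl, zero_div, sub_zero, qq_tU hB hθ, tU_apply]

theorem isU_rG {g : SUG (hyp θ h)} {c : K}
    (hg : IsU (hyp θ h) (g : (K × W × K) ≃ₗ[K] (K × W × K)) (oo K W) c) :
    ∃ z : Z0 θ, (z : K) = c ∧ g = rG hθ hB h2 0 z := by
  have h3 : (g : (K × W × K) ≃ₗ[K] (K × W × K)) = qq hB 0 c := by
    apply LinearEquiv.ext
    intro x
    rw [hg, qq_tU hB hθ, tU_apply]
  have h4 : c + θ c = 0 := by
    have h5 := g.2.1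
    rw [h3] at h5
    have h6 := cond_of_mem hB h5
    rwa [hB.zl, add_zero] at h6
  refine ⟨⟨c, h4⟩, rfl, Subtype.ext ?_⟩
  rw [h3, rG_val, hB.zl, zero_div, sub_zero]

theorem rG_oo (y : W) (z : Z0 θ) :
    (rG hθ hB h2 y z : (K × W × K) ≃ₗ[K] (K × W × K)) (oo K W) = oo K W := qq_oo hB _ _

theorem rG_o' (y : W) (z : Z0 θ) :
    (rG hθ hB h2 y z : (K × W × K) ≃ₗ[K] (K × W × K)) (o' K W) =
      ((z : K) - h y y / 2, y, 1) := by
  rw [rG_val, qq_apply]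
  refine Prod.ext ?_ (Prod.ext ?_ rfl)
  · change (0 : K) - h 0 y + ((z : K) - h y y / 2) * 1 = _
    rw [hB.zl]
    ring
  · change (0 : W) + (1 : K) • y = y
    rw [one_smul, zero_add]

/-- the decomposition of the stabiliser of the first line -/
theorem decomp {g : SUG (hyp θ h)} {k : K} (hg : (g : (K × W × K) ≃ₗ[K] (K × W × K)) (oo K W) =
    k • oo K W) : ∃ (a : SUG (hyp θ h)) (m : W ≃ₗ[K] W) (l : Kˣ) (y : W) (z : Z0 θ),
    m ∈ UG h ∧ (l : K) = k ∧ (a : (K × W × K) ≃ₗ[K] (K × W × K)) = lv θ m l ∧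
      g = a * rG hθ hB h2 y z := by
  obtain ⟨y, c, hc, h3⟩ := exists_decomp hB hθ
    (⟨(g : (K × W × K) ≃ₗ[K] (K × W × K)), g.2.1, k, hg⟩ : StU θ h)
  obtain ⟨z, hz⟩ : ∃ z : Z0 θ, (z : K) = c + h y y / 2 := by
    refine ⟨⟨c + h y y / 2, ?_⟩, rfl⟩
    have h4 : θ (2 : K) = 2 := map_ofNat θ 2
    rw [mem_Z0, map_add, map_div₀, hB.fix, h4]
    field_simp
    linear_combination 2 * hc
  have h4 : (rG hθ hB h2 y z : (K × W × K) ≃ₗ[K] (K × W × K)) = qq hB y c := by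
    rw [rG_val, hz, add_sub_cancel_right]
  refine ⟨g * (rG hθ hB h2 y z)⁻¹, _, lam θ h (⟨(g : (K × W × K) ≃ₗ[K] (K × W × K)),
    g.2.1, k, hg⟩ : StU θ h), y, z, (bl hB (⟨(g : (K × W × K) ≃ₗ[K] (K × W × K)),
    g.2.1, k, hg⟩ : StU θ h)).2, ?_, ?_, by group⟩
  · rw [lam_val]
    change ((g : (K × W × K) ≃ₗ[K] (K × W × K)) (oo K W)).1 = k
    rw [hg]
    exact mul_one k
  · rw [Subgroup.coe_mul, Subgroup.coe_inv, h4, mul_inv_eq_iff_eq_mul]
    exact h3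

variable {T : Type*} [Group T] (π : SUG (hyp θ h) →* T)

/-- the radical -/
def RT (hθ : Iv θ) (hB : Hm θ h) (h2 : (2 : K) ≠ 0) (π : SUG (hyp θ h) →* T) : Subgroup T where
  carrier := {t | ∃ y z, t = π (rG hθ hB h2 y z)}
  one_mem' := ⟨0, 0, by rw [rG_zero, map_one]⟩
  mul_mem' := by
    rintro _ _ ⟨y, c, rfl⟩ ⟨y', c', rfl⟩
    exact ⟨_, _, by rw [← map_mul, rG_mul]⟩
  inv_mem' := by
    rintro _ ⟨y, c, rfl⟩
    exact ⟨_, _, by rw [← map_inv, rG_inv]⟩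

theorem mem_RT {t : T} : t ∈ RT hθ hB h2 π ↔ ∃ y z, t = π (rG hθ hB h2 y z) := Iff.rfl

theorem rG_mem_RT (y : W) (z : Z0 θ) : π (rG hθ hB h2 y z) ∈ RT hθ hB h2 π := ⟨y, z, rfl⟩

theorem mem_XT_oo {t : T} : t ∈ XT π (oo K W) ↔ ∃ z, t = π (rG hθ hB h2 0 z) := by
  constructor
  · rintro ⟨g, c, hg, rfl⟩
    obtain ⟨z, -, rfl⟩ := isU_rG hθ hB h2 hg
    exact ⟨z, rfl⟩
  · rintro ⟨z, rfl⟩
    exact ⟨_, _, rG_isU hθ hB h2 z, rfl⟩

theorem XT_oo_le {t : T} (ht : t ∈ XT π (oo K W)) : t ∈ RT hθ hB h2 π := by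
  obtain ⟨z, rfl⟩ := (mem_XT_oo hθ hB h2 π).mp ht
  exact ⟨0, z, rfl⟩

theorem isPGroup_RT (p : ℕ) [Fact p.Prime] [CharP K p] : IsPGroup p (RT hθ hB h2 π) := by
  rw [Bt.isPGroup_iff]
  rintro _ ⟨y, c, rfl⟩
  exact (rG_pel (p := p) hθ hB h2 y c).map π

variable {π} (p : ℕ) [hp : Fact p.Prime] [CharP K p] [Finite W]
  (hker : π.ker = center (SUG (hyp θ h)))

include hp hker in
theorem hkp' (hθ : Iv θ) (hB : Hm θ h) : ¬ p ∣ Nat.card π.ker := by
  rw [hker]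
  exact not_dvd_center hθ hB

include hker hp in
theorem pir_inj {y y' : W} {z z' : Z0 θ}
    (he : π (rG hθ hB h2 y z) = π (rG hθ hB h2 y' z')) : y = y' ∧ z = z' :=
  rG_inj hθ hB h2 (pel_inj p hker.le (hkp' p hker hθ hB) (rG_pel hθ hB h2 y z)
    (rG_pel hθ hB h2 y' z') he)

include hp hker

/-- The centraliser of the radical. -/
theorem cent_RT {g : SUG (hyp θ h)} (hc : ∀ t ∈ RT hθ hB h2 π, π g * t = t * π g) :
    π g ∈ XT π (oo K W) := by
  have hV := hyp_hm hθ hB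
  have hkp := hkp' p hker hθ hB
  have hk : ∀ y z, g * rG hθ hB h2 y z * g⁻¹ = rG hθ hB h2 y z := fun y z =>
    comm_of_pi p hker.le hkp (rG_pel (p := p) hθ hB h2 y z) (hc _ (rG_mem_RT hθ hB h2 π y z))
  obtain ⟨d, hd0, hd⟩ := exists_dl hθ
  obtain ⟨δ, hδ⟩ : ∃ δ : Z0 θ, (δ : K) = d := ⟨⟨d, by rw [mem_Z0, hd, add_neg_cancel]⟩, rfl⟩
  have h1 : ∃ k : K, (g : (K × W × K) ≃ₗ[K] (K × W × K)) (oo K W) = k • oo K W := by
    have h3 := hk 0 δ
    have h4 := (rG_isU hθ hB h2 δ).conj (k := (g : (K × W × K) ≃ₗ[K] (K × W × K))) g.2.1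
    have h5 : (g : (K × W × K) ≃ₗ[K] (K × W × K)) * (rG hθ hB h2 0 δ :
        (K × W × K) ≃ₗ[K] (K × W × K)) * (g : (K × W × K) ≃ₗ[K] (K × W × K))⁻¹ =
        (rG hθ hB h2 0 δ : (K × W × K) ≃ₗ[K] (K × W × K)) := congrArg Subtype.val h3
    rw [h5] at h4
    exact (rG_isU hθ hB h2 δ).line hV oo_ne (by rw [hδ]; exact hd0) h4
  obtain ⟨k, hgk⟩ := h1
  obtain ⟨a, m, l, y₀, z₀, hm, hl, ha, rfl⟩ := decomp hθ hB h2 hgk
  have hk' : ∀ y z, θ (l : K) • m y = y ∧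
      nz hθ l (z + (om hθ hB y₀ y + om hθ hB y₀ y)) = z := by
    intro y z
    have h3 := hk y z
    have h4 : a * rG hθ hB h2 y₀ z₀ * rG hθ hB h2 y z * (a * rG hθ hB h2 y₀ z₀)⁻¹ =
      a * (rG hθ hB h2 y₀ z₀ * rG hθ hB h2 y z * (rG hθ hB h2 y₀ z₀)⁻¹) * a⁻¹ := by group
    rw [h4, rG_conj, lG_rG hθ hB h2 hm ha] at h3
    exact rG_inj hθ hB h2 h3
  have hl2 : (l : K) * θ (l : K) = 1 := by
    have h3 := congrArg Subtype.val (hk' 0 δ).2
    rw [om_zr, add_zero, add_zero, nz_val, hδ] at h3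
    exact mul_right_cancel₀ hd0 (by rw [h3, one_mul])
  have hom : ∀ y, h y₀ y = h y y₀ := by
    intro y
    have h3 := congrArg Subtype.val (hk' y 0).2
    rw [nz_val, hl2, one_mul, zero_add, AddSubgroup.coe_add, om_val] at h3
    have h4 : (h y₀ y - h y y₀) / 2 + (h y₀ y - h y y₀) / 2 = h y₀ y - h y y₀ := by
      field_simp
      ring
    rw [h4] at h3
    exact sub_eq_zero.mp h3
  have hy₀ : y₀ = 0 := by
    apply hB.nd
    intro y
    have h3 := hom y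
    have h4 := hom (d • y)
    rw [hB.sml, hB.smr, hd] at h4
    have h5 : 2 * d * h y₀ y = 0 := by linear_combination -h4 + d * h3
    exact (mul_eq_zero.mp h5).resolve_left (mul_ne_zero h2 hd0)
  have hll : (θ (l : K))⁻¹ = l := by
    rw [inv_eq_iff_eq_inv]
    exact eq_inv_of_mul_eq_one_right hl2
  have hmy : ∀ y, m y = (l : K) • y := by
    intro y
    have h3 := (hk' y 0).1
    have h4 : (l : K) • (θ (l : K) • m y) = (l : K) • y := by rw [h3]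
    rwa [smul_smul, hl2, one_smul] at h4
  have hac : a ∈ center (SUG (hyp θ h)) := by
    refine center_of_scalar (c := (l : K)) fun u => ?_
    rw [ha, lv_apply, hll, hmy]
    rfl
  rw [← hker] at hac
  rw [map_mul, MonoidHom.mem_ker.mp hac, one_mul, hy₀]
  exact (mem_XT_oo hθ hB h2 π).mpr ⟨z₀, rfl⟩

variable [Finite T] (hπ : Function.Surjective π)

include hπ

/-- **The centre of a Sylow subgroup which contains the radical.** -/
theorem center_sylow {S : Sylow p T} (hS : RT hθ hB h2 π ≤ S) (t : T) :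
    t ∈ centralizer (S : Set T) ⊓ S ↔ t ∈ XT π (oo K W) := by
  have hV := hyp_hm hθ hB
  have hkp := hkp' p hker hθ hB
  haveI : Finite ((K × W × K) ≃ₗ[K] (K × W × K)) := finite_gl
  have h1 : ∀ t ∈ centralizer (S : Set T) ⊓ S, t ∈ XT π (oo K W) := by
    rintro t ⟨ht, -⟩
    obtain ⟨g, rfl⟩ := hπ t
    refine cent_RT hθ hB h2 p hker fun s hs => ?_
    exact (mem_centralizer_iff.mp ht s (hS hs)).symm
  refine ⟨h1 t, ?_⟩
  obtain ⟨d, hd0, hd⟩ := exists_dl hθ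
  obtain ⟨δ, hδ⟩ : ∃ δ : Z0 θ, (δ : K) = d := ⟨⟨d, by rw [mem_Z0, hd, add_neg_cancel]⟩, rfl⟩
  have hδ0 : δ ≠ 0 := by
    rintro rfl
    exact hd0 hδ.symm
  -- a nontrivial element of the centre
  have hX0 : ∃ t ∈ XT π (oo K W), t ≠ 1 := by
    refine ⟨π (rG hθ hB h2 0 δ), (mem_XT_oo hθ hB h2 π).mpr ⟨δ, rfl⟩, fun he => hδ0 ?_⟩
    rw [← map_one π, ← rG_zero hθ hB h2] at he
    exact (pir_inj hθ hB h2 p hker he).2
  obtain ⟨t₀, ht₀, ht₀1⟩ := hX0
  haveI : Nontrivial S := ⟨⟨⟨t₀, hS (XT_oo_le hθ hB h2 π ht₀)⟩, 1,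
    fun h => ht₀1 (congrArg Subtype.val h)⟩⟩
  haveI := (S.isPGroup').center_nontrivial
  obtain ⟨z, hz⟩ := exists_ne (1 : center S)
  have hzS : ((z : S) : T) ∈ centralizer (S : Set T) ⊓ S := by
    refine ⟨mem_centralizer_iff.mpr ?_, (z : S).2⟩
    intro s hs
    exact congrArg Subtype.val (mem_center_iff.mp z.2 ⟨s, hs⟩)
  obtain ⟨c, hc⟩ := (mem_XT_oo hθ hB h2 π).mp (h1 _ hzS)
  have hc0 : (c : K) ≠ 0 := by
    intro h0
    have h3 : c = 0 := Subtype.ext h0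
    rw [h3, rG_zero, map_one] at hc
    exact hz (Subtype.ext (Subtype.ext hc))
  intro ht
  refine ⟨mem_centralizer_iff.mpr ?_, hS (XT_oo_le hθ hB h2 π ht)⟩
  obtain ⟨e, rfl⟩ := (mem_XT_oo hθ hB h2 π).mp ht
  intro s hs
  obtain ⟨g, hg, rfl⟩ := exists_pel (p := p) hkp (Bt.isPGroup_iff.mp S.isPGroup' s hs) (hπ s)
  have h3 : π g * π (rG hθ hB h2 0 c) = π (rG hθ hB h2 0 c) * π g := by
    rw [← hc]
    exact mem_centralizer_iff.mp hzS.1 _ hs
  have h4 := comm_of_pi p hker.le hkp (rG_pel (p := p) hθ hB h2 0 c) h3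
  have h5 := (rG_isU hθ hB h2 c).conj (k := (g : (K × W × K) ≃ₗ[K] (K × W × K))) g.2.1
  have h6 : (g : (K × W × K) ≃ₗ[K] (K × W × K)) * (rG hθ hB h2 0 c :
      (K × W × K) ≃ₗ[K] (K × W × K)) * (g : (K × W × K) ≃ₗ[K] (K × W × K))⁻¹ =
      (rG hθ hB h2 0 c : (K × W × K) ≃ₗ[K] (K × W × K)) := congrArg Subtype.val h4
  rw [h6] at h5
  obtain ⟨k, hk⟩ := (rG_isU hθ hB h2 c).line hV oo_ne hc0 h5
  rw [hk, IsU.smul_iff hV] at h5
  obtain ⟨c', hc', h7⟩ := isU_rG hθ hB h2 h5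
  have h8 := (rG_inj hθ hB h2 h7).2
  rw [← h8] at hc'
  have h9 : k * θ k = 1 := mul_right_cancel₀ hc0 (by rw [← hc', one_mul])
  -- the conjugate of `e`
  have h10 := (rG_isU hθ hB h2 e).conj (k := (g : (K × W × K) ≃ₗ[K] (K × W × K))) g.2.1
  rw [hk, IsU.smul_iff hV, h9, one_mul] at h10
  have h11 : g * rG hθ hB h2 0 e * g⁻¹ = rG hθ hB h2 0 e :=
    Subtype.ext (IsU.inj h10 (rG_isU hθ hB h2 e))
  rw [← map_mul, ← map_mul, ← mul_inv_eq_iff_eq_mul.mp h11]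

include hθ hB h2 in
/-- After composition with an inner automorphism, an automorphism stabilises the first
transvection group. -/
theorem exists_fix_XT (α : MulAut T) : ∃ t : T, ∀ x, (MulAut.conj t * α) x ∈
    XT π (oo K W) ↔ x ∈ XT π (oo K W) := by
  obtain ⟨S, hS⟩ := (isPGroup_RT hθ hB h2 π p).exists_le_sylow
  obtain ⟨t, ht⟩ := MulAction.exists_smul_eq T (α • S) S
  rw [Sylow.smul_def, smul_smul] at ht
  have h3 : ∀ x, (MulAut.conj t * α) x ∈ S ↔ x ∈ S := by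
    intro x
    have h4 : (MulAut.conj t * α) • x ∈ ((MulAut.conj t * α) • (S : Subgroup T)) ↔
      x ∈ (S : Subgroup T) := smul_mem_pointwise_smul_iff
    rw [← Sylow.pointwise_smul_def, ht] at h4
    exact h4
  obtain ⟨β, hβ⟩ : ∃ β : MulAut T, β = MulAut.conj t * α := ⟨_, rfl⟩
  rw [← hβ] at h3
  refine ⟨t, fun x => ?_⟩
  rw [← hβ, ← center_sylow hθ hB h2 p hker hπ hS, ← center_sylow hθ hB h2 p hker hπ hS]
  have h5 : ∀ {β : MulAut T}, (∀ x, β x ∈ S ↔ x ∈ S) → ∀ x,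
      x ∈ centralizer (S : Set T) ⊓ S → β x ∈ centralizer (S : Set T) ⊓ S := by
    rintro β h3 x ⟨hx1, hx2⟩
    refine ⟨mem_centralizer_iff.mpr fun s hs => ?_, (h3 x).mpr hx2⟩
    obtain ⟨s, rfl⟩ := β.surjective s
    rw [← map_mul, ← map_mul, mem_centralizer_iff.mp hx1 s ((h3 s).mp hs)]
  constructor
  · intro h
    have h6 := h5 (β := β⁻¹) (fun y => by
      rw [← h3, MulAut.apply_inv_self]) _ h
    rwa [MulAut.inv_apply_self] at h6
  · exact h5 h3 x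

end Q

end Vale.Agent.P180.R2.H589.Un
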