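import Vale.Agent.P180.R2.H589.Un.Au2

/-!
P180: automorphisms of `PSU(V)`, odd characteristic: the radical is characteristic; normalisation.
-/

set_option linter.all false

namespace Vale.Agent.P180.R2.H589.Un

open Subgroup Module
open Vale.Agent.P180.R2.H589.Sch
open Vale.Agent.P180.R2.H589.Sp (oo oo_ne finite_gl)

section Op

variable {K W : Type*} [Field K] [Finite K] [AddCommGroup W] [Module K W] {θ : K ≃+* K}
  {h : W → W → K} (hθ : Iv θ) (hB : Hm θ h) (h2 : (2 : K) ≠ 0)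
  {T : Type*} [Group T] {π : SUG (hyp θ h) →* T}
  (p : ℕ) [hp : Fact p.Prime] [CharP K p] [Finite W] (hW : ∃ x : W, x ≠ 0)
  (hker : π.ker = center (SUG (hyp θ h)))

include hθ hB in
omit [Finite K] [Finite W] in
/-- Levi elements with a quasi-reflection as block -/
theorem exists_levi_rf [Module.Finite K W] {u : W} (hu : h u u = 1) {ζ : K} (hζ : ζ ≠ 0)
    (hζ1 : ζ * θ ζ = 1) : ∃ (a : SUG (hyp θ h)) (l : Kˣ),
    (a : (K × W × K) ≃ₗ[K] (K × W × K)) = lv θ (rf hB hu hζ) l := by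
  obtain ⟨y, hy0, hy⟩ := hilbert90 hθ (x := θ ζ) (by rw [hθ.inv, mul_comm, hζ1])
  refine ⟨⟨lv θ (rf hB hu hζ) (Units.mk0 y hy0), lv_mem (rf_mem hB hu hζ hζ1) hθ _, ?_⟩,
    Units.mk0 y hy0, rfl⟩
  change LinearEquiv.det _ = 1
  rw [lv_det_val, rf_det, Units.val_mk0]
  have h3 : θ y ≠ 0 := (map_ne_zero θ).mpr hy0
  have h4 : y * ζ = θ y := by
    calc y * ζ = (θ ζ * θ y) * ζ := by rw [hy]
      _ = (ζ * θ ζ) * θ y := by ring
      _ = θ y := by rw [hζ1, one_mul]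
  rw [mul_right_comm, h4, mul_inv_cancel₀ h3]

include hp hker h2 hW hθ hB

/-- **The radical is the largest normal `p`-subgroup of the normaliser of the first transvection
group.** -/
theorem le_RT {Q : Subgroup T} (hQ : IsPGroup p Q)
    (h1 : ∀ t ∈ Q, ∀ x ∈ XT π (oo K W), t * x * t⁻¹ ∈ XT π (oo K W))
    (hn : ∀ t, (∀ x ∈ XT π (oo K W), t * x * t⁻¹ ∈ XT π (oo K W)) →
      ∀ q ∈ Q, t * q * t⁻¹ ∈ Q) : ∀ g : SUG (hyp θ h), π g ∈ Q → π g ∈ RT hθ hB h2 π := by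
  have hV := hyp_hm hθ hB
  have hkp := hkp' p hker hθ hB
  haveI : Finite ((K × W × K) ≃ₗ[K] (K × W × K)) := finite_gl
  haveI : Module.Finite K W := Module.Finite.of_finite
  let Y : Subgroup (SUG (hyp θ h)) :=
    { carrier := {g | Pel p g ∧ π g ∈ Q}
      one_mem' := ⟨pel_one, by rw [map_one]; exact Q.one_mem⟩
      mul_mem' := by
        rintro g h ⟨h1, h2⟩ ⟨h3, h4⟩
        refine ⟨pel_mul hker.le hkp hQ h1 h3 h2 h4, ?_⟩
        rw [map_mul]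
        exact Q.mul_mem h2 h4
      inv_mem' := by
        rintro g ⟨h1, h2⟩
        refine ⟨h1.inv, ?_⟩
        rw [map_inv]
        exact Q.inv_mem h2 }
  have hYp : IsPGroup p Y := Bt.isPGroup_iff.mpr fun x hx => hx.1
  have hYS : ∀ g ∈ Y, (g : (K × W × K) ≃ₗ[K] (K × W × K)) ∈ StU θ h := by
    intro g hg
    exact ⟨g.2.1, line_of_norm p hV hθ hker.le hkp oo_ne (oo_iso hB) (h1 _ hg.2)⟩
  obtain ⟨x₀, hx₀, hfix⟩ := Bt.exists_fixed_gen hYp
    (fun (y : Y) (x : W) => blF ((y : SUG (hyp θ h)) : (K × W × K) ≃ₗ[K] (K × W × K)) x)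
    (fun x => blF_one x) (fun y z x => blF_mul hB (hYS y y.2) (hYS z z.2) x)
    (by
      obtain ⟨x, hx⟩ := hW
      rw [Module.natCard_eq_pow_finrank (K := K)]
      refine dvd_pow Bt.dvd_card_K ?_
      intro h0
      have h3 : Subsingleton W := Module.finrank_zero_iff.mp h0
      exact hx (Subsingleton.elim _ _)) (x₀ := (0 : W)) (fun y => map_zero _)
  -- the fixed space
  let U : Submodule K W :=
    { carrier := {w | ∀ g ∈ Y, blF (g : (K × W × K) ≃ₗ[K] (K × W × K)) w = w}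
      zero_mem' := fun g hg => map_zero _
      add_mem' := fun {a b} ha hb g hg => by rw [map_add, ha g hg, hb g hg]
      smul_mem' := fun c a ha g hg => by rw [map_smul, ha g hg] }
  have hU : ∀ w, w ∈ U ↔ ∀ g ∈ Y, blF (g : (K × W × K) ≃ₗ[K] (K × W × K)) w = w := fun w => Iff.rfl
  obtain ⟨ζ, hζ1, hζne⟩ := exists_nm_one hθ
  have hζ0 : ζ ≠ 0 := by
    rintro rfl
    rw [zero_mul] at hζ1
    exact zero_ne_one hζ1
  have hbl : ∀ w : W, w ∈ U := by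
    refine fun w => eq_top_of_inv hθ hB (two_lt_FF h2) (U := U)
      ⟨x₀, fun g hg => hfix ⟨g, hg⟩, hx₀⟩ (fun u hu x hx hxu => ?_) w
    obtain ⟨a, l, ha⟩ := exists_levi_rf hθ hB hu hζ0 hζ1
    have haS : (a : (K × W × K) ≃ₗ[K] (K × W × K)) ∈ StU θ h := by
      rw [ha]
      exact lv_St (rf_mem hB hu hζ0 hζ1) hθ l
    have hal : (a : (K × W × K) ≃ₗ[K] (K × W × K)) (oo K W) = (l : K) • oo K W := by
      rw [ha, lv_oo]
    have haX : ∀ x ∈ XT π (oo K W), π a⁻¹ * x * (π a⁻¹)⁻¹ ∈ XT π (oo K W) := by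
      intro x hx
      rw [← XT_smul π hV l.ne_zero, ← hal] at hx
      have h3 := XT_conj π a⁻¹ _ hx
      have h4 : ((a⁻¹ : SUG (hyp θ h)) : (K × W × K) ≃ₗ[K] (K × W × K))
          ((a : (K × W × K) ≃ₗ[K] (K × W × K)) (oo K W)) = oo K W :=
        (a : (K × W × K) ≃ₗ[K] (K × W × K)).symm_apply_apply _
      rwa [h4] at h3
    have h5 : blF (a : (K × W × K) ≃ₗ[K] (K × W × K)) x ∈ U := by
      rw [hU]
      intro g hg
      have hcj : a⁻¹ * g * a ∈ Y := by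
        have h3 : a⁻¹ * g * a = a⁻¹ * g * a⁻¹⁻¹ := by rw [inv_inv]
        rw [h3]
        refine ⟨hg.1.conj _, ?_⟩
        rw [map_mul, map_mul, map_inv π a⁻¹]
        exact hn _ haX _ hg.2
      have h3 := (hU x).mp hx _ hcj
      have h4 : (g : (K × W × K) ≃ₗ[K] (K × W × K)) * a =
          a * ((a⁻¹ * g * a : SUG (hyp θ h)) : (K × W × K) ≃ₗ[K] (K × W × K)) := by
        rw [← Subgroup.coe_mul, ← Subgroup.coe_mul]
        congr 1
        group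
      have h5 := congrArg (fun e => blF e x) h4
      rwa [blF_mul hB (hYS g hg) haS, blF_mul hB haS (hYS _ hcj), h3] at h5
    have h6 : blF (a : (K × W × K) ≃ₗ[K] (K × W × K)) x = x + ((ζ - 1) * h x u) • u := by
      rw [ha]
      rfl
    rw [h6] at h5
    have h7 := U.sub_mem h5 hx
    rw [add_sub_cancel_left] at h7
    have h8 : (ζ - 1) * h x u ≠ 0 := mul_ne_zero (sub_ne_zero.mpr hζne) hxu
    have h9 := U.smul_mem ((ζ - 1) * h x u)⁻¹ h7
    rwa [smul_smul, inv_mul_cancel₀ h8, one_smul] at h9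
  intro g hg
  obtain ⟨y, hyp, hyg⟩ := exists_pel (p := p) hkp
    (Bt.isPGroup_iff.mp hQ _ hg) ⟨g, rfl⟩
  have hyY : y ∈ Y := ⟨hyp, by rw [hyg]; exact hg⟩
  have hyS := hYS y hyY
  have hlam : lamF (y : (K × W × K) ≃ₗ[K] (K × W × K)) = 1 := by
    obtain ⟨n, hn⟩ := hyp
    have h3 : ∀ i : ℕ, ((y : (K × W × K) ≃ₗ[K] (K × W × K)) ^ i) (oo K W) =
        (lamF (y : (K × W × K) ≃ₗ[K] (K × W × K))) ^ i • oo K W := by
      intro i
      induction i with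
      | zero => rw [pow_zero, pow_zero, one_smul]; rfl
      | succ i ih => rw [pow_succ', LinearEquiv.mul_apply, ih, map_smul, lamF_spec hyS, smul_smul,
          pow_succ]
    have h4 := h3 (p ^ n)
    have h5 : (y : (K × W × K) ≃ₗ[K] (K × W × K)) ^ p ^ n = 1 := by
      rw [← Subgroup.coe_pow, hn]; rfl
    rw [h5] at h4
    have h6 := congrArg Prod.fst h4
    change (1 : K) = (lamF (y : (K × W × K) ≃ₗ[K] (K × W × K))) ^ p ^ n * 1 at h6
    rw [mul_one] at h6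
    have h7 : (lamF (y : (K × W × K) ≃ₗ[K] (K × W × K)) - 1) ^ p ^ n = 0 := by
      rw [sub_pow_char_pow, ← h6, one_pow, sub_self]
    exact sub_eq_zero.mp (pow_eq_zero_iff (pow_ne_zero n hp.out.ne_zero) |>.mp h7)
  have h3 : bl hB ⟨_, hyS⟩ = 1 := by
    apply Subtype.ext
    apply LinearEquiv.ext
    intro x
    exact hbl x y hyY
  have h4 : lam θ h ⟨_, hyS⟩ = 1 := Units.ext hlam
  have h5 : (y : (K × W × K) ≃ₗ[K] (K × W × K)) (oo K W) = (1 : K) • oo K W := by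
    rw [lamF_spec hyS, hlam]
  obtain ⟨y₁, c, hc, h6⟩ := exists_qq hB h3 h4
  obtain ⟨z, hz⟩ : ∃ z : Z0 θ, (z : K) = c + h y₁ y₁ / 2 := by
    refine ⟨⟨c + h y₁ y₁ / 2, ?_⟩, rfl⟩
    have h4 : θ (2 : K) = 2 := map_ofNat θ 2
    rw [mem_Z0, map_add, map_div₀, hB.fix, h4]
    field_simp
    linear_combination 2 * hc
  rw [← hyg]
  refine ⟨y₁, z, congrArg π (Subtype.ext ?_)⟩
  rw [rG_val, hz, add_sub_cancel_right]
  exact h6

end Op

section Radical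

variable {K W : Type*} [Field K] [Finite K] [AddCommGroup W] [Module K W] {θ : K ≃+* K}
  {h : W → W → K} (hθ : Iv θ) (hB : Hm θ h) (h2 : (2 : K) ≠ 0)
  {T : Type*} [Group T] {π : SUG (hyp θ h) →* T}
  (p : ℕ) [hp : Fact p.Prime] [CharP K p] [Finite W] (hW : ∃ x : W, x ≠ 0)
  (hker : π.ker = center (SUG (hyp θ h))) (hπ : Function.Surjective π)

omit hp [CharP K p] [Finite W] in
theorem RT_conj {g : SUG (hyp θ h)} {k : K}
    (hg : (g : (K × W × K) ≃ₗ[K] (K × W × K)) (oo K W) = k • oo K W) {t : T}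
    (ht : t ∈ RT hθ hB h2 π) : π g * t * (π g)⁻¹ ∈ RT hθ hB h2 π := by
  obtain ⟨a, m, l, y₀, z₀, hm, -, ha, rfl⟩ := decomp hθ hB h2 hg
  obtain ⟨y, z, rfl⟩ := ht
  rw [← map_inv, ← map_mul, ← map_mul]
  have h4 : a * rG hθ hB h2 y₀ z₀ * rG hθ hB h2 y z * (a * rG hθ hB h2 y₀ z₀)⁻¹ =
    a * (rG hθ hB h2 y₀ z₀ * rG hθ hB h2 y z * (rG hθ hB h2 y₀ z₀)⁻¹) * a⁻¹ := by group
  rw [h4, rG_conj, lG_rG hθ hB h2 hm ha]
  exact rG_mem_RT hθ hB h2 π _ _

include hp hker hW hπ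

theorem map_RT_le {β : MulAut T} (hβ : ∀ x, β x ∈ XT π (oo K W) ↔
    x ∈ XT π (oo K W)) {x : T} (hx : x ∈ RT hθ hB h2 π) : β x ∈ RT hθ hB h2 π := by
  have hV := hyp_hm hθ hB
  have hkp := hkp' p hker hθ hB
  obtain ⟨Q, hQ⟩ : ∃ Q, Q = (RT hθ hB h2 π).map β.toMonoidHom := ⟨_, rfl⟩
  have hQp : IsPGroup p Q := by
    rw [hQ]
    exact (isPGroup_RT hθ hB h2 π p).map _
  have hnorm : ∀ {t : T}, t ∈ RT hθ hB h2 π → ∀ x ∈ XT π (oo K W),
      t * x * t⁻¹ ∈ XT π (oo K W) := by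
    rintro _ ⟨y, c, rfl⟩ x hx
    have h3 := XT_conj π (rG hθ hB h2 y c) (oo K W) hx
    rwa [rG_oo] at h3
  obtain ⟨g, hg⟩ := hπ (β x)
  rw [← hg]
  refine le_RT hθ hB h2 p hW hker hQp ?_ ?_ g ?_
  · rw [hQ]
    rintro _ ⟨r, hr, rfl⟩ x hx
    obtain ⟨x, rfl⟩ := β.surjective x
    change β r * β x * (β r)⁻¹ ∈ _
    rw [← map_inv, ← map_mul, ← map_mul, hβ]
    exact hnorm hr x ((hβ x).mp hx)
  · intro t ht q hq
    rw [hQ] at hq ⊢
    obtain ⟨r, hr, rfl⟩ := hq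
    obtain ⟨t, rfl⟩ := β.surjective t
    obtain ⟨g, rfl⟩ := hπ t
    have h3 : ∀ x ∈ XT π (oo K W), π g * x * (π g)⁻¹ ∈ XT π (oo K W) := by
      intro x hx
      have h4 := ht (β x) ((hβ x).mpr hx)
      rw [← map_inv, ← map_mul, ← map_mul, hβ] at h4
      exact h4
    obtain ⟨k, hk⟩ := line_of_norm p hV hθ hker.le hkp oo_ne (oo_iso hB) h3
    refine ⟨_, RT_conj hθ hB h2 hk hr, ?_⟩
    change β (π g * r * (π g)⁻¹) = β (π g) * β r * (β (π g))⁻¹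
    rw [map_mul, map_mul, map_inv]
  · rw [hQ, hg]
    exact ⟨x, hx, rfl⟩

end Radical

section Aut

variable {K W : Type*} [Field K] [Finite K] [AddCommGroup W] [Module K W] {θ : K ≃+* K}
  {h : W → W → K} (hθ : Iv θ) (hB : Hm θ h) (h2 : (2 : K) ≠ 0)
  {T : Type*} [Group T] {π : SUG (hyp θ h) →* T}
  (p : ℕ) [hp : Fact p.Prime] [CharP K p] [Finite W] (hW : ∃ x : W, x ≠ 0)
  (hker : π.ker = center (SUG (hyp θ h))) (hπ : Function.Surjective π)

omit [Field K] [Finite K] [AddCommGroup W] [Module K W] hp [CharP K p] [Finite W] in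
theorem conj_iff_of_mem {X Y : Set T} {β : MulAut T} (hh : ∀ x, β x ∈ Y ↔ x ∈ X) (t x : T) :
    (β t)⁻¹ * β x * β t ∈ Y ↔ t⁻¹ * x * t ∈ X := by
  rw [← hh, map_mul, map_mul, map_inv]

include hπ hθ hB in
omit hp [CharP K p] [Finite W] in
/-- The transvection groups are permuted. -/
theorem exists_img {β : MulAut T} {u : K × W × K} (hu0 : u ≠ 0) (hu : hyp θ h u u = 0)
    {u' : K × W × K} (hu0' : u' ≠ 0) (hu' : hyp θ h u' u' = 0)
    (hβ : ∀ x, β x ∈ XT π u' ↔ x ∈ XT π u) {v : K × W × K} (hv : v ≠ 0)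
    (hvi : hyp θ h v v = 0) :
    ∃ w : K × W × K, w ≠ 0 ∧ hyp θ h w w = 0 ∧ ∀ x, β x ∈ XT π w ↔ x ∈ XT π v := by
  have hV := hyp_hm hθ hB
  obtain ⟨g, hg, l, hl, hgv⟩ := line_trans hθ hV hu0 hv hu hvi
  obtain ⟨a, ha⟩ : ∃ a : SUG (hyp θ h), a = ⟨g, TG_le hV hg⟩ := ⟨_, rfl⟩
  have hav : (a : (K × W × K) ≃ₗ[K] (K × W × K)) u = l • v := by rw [ha]; exact hgv
  obtain ⟨b, hb⟩ := hπ (β (π a))
  refine ⟨(b : (K × W × K) ≃ₗ[K] (K × W × K)) u',
    fun h => hu0' (LinearEquiv.map_eq_zero_iff _ |>.mp h), UG_iso hV b.2.1 hu', fun x => ?_⟩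
  rw [← XT_conj_iff', hb, conj_iff_of_mem hβ, XT_conj_iff', hav, XT_smul π hV hl]

include hp hker hπ hθ hB h2 in
/-- Normalisation. -/
theorem exists_norm (α : MulAut T) : ∃ t : T,
    (∀ x, (MulAut.conj t * α) x ∈ XT π (oo K W) ↔ x ∈ XT π (oo K W)) ∧
    (∀ x, (MulAut.conj t * α) x ∈ XT π (o' K W) ↔ x ∈ XT π (o' K W)) := by
  have hV := hyp_hm hθ hB
  have hkp := hkp' p hker hθ hB
  haveI : Finite ((K × W × K) ≃ₗ[K] (K × W × K)) := finite_gl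
  haveI : Finite T := Finite.of_surjective π hπ
  obtain ⟨t, ht⟩ := exists_fix_XT hθ hB h2 p hker hπ α
  obtain ⟨β, hβ⟩ : ∃ β, β = MulAut.conj t * α := ⟨_, rfl⟩
  rw [← hβ] at ht
  obtain ⟨w, hw0, hwi, hw⟩ := exists_img hθ hB hπ oo_ne (oo_iso hB) oo_ne (oo_iso hB) ht
    o'_ne (o'_iso hθ hB)
  -- `w` is not orthogonal to the first vector
  have hw2 : w.2.2 ≠ 0 := by
    intro h0
    have h3 : hyp θ h w (oo K W) = 0 := by rw [hyp_oo_r hB hθ, h0]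
    have h4 : hyp θ h (o' K W) (oo K W) = 0 := by
      refine orth_of_XT p hV hθ hker.le hkp (o'_iso hθ hB) oo_ne (oo_iso hB)
        fun x hx y hy => ?_
      apply β.injective
      rw [map_mul, map_mul]
      exact XT_comm π hV h3 ((hw x).mpr hx) ((ht y).mpr hy)
    rw [hyp_oo_r hB hθ] at h4
    exact one_ne_zero h4
  obtain ⟨v, hv⟩ : ∃ v, v = w.2.2⁻¹ • w := ⟨_, rfl⟩
  have hvi : hyp θ h v v = 0 := by rw [hv]; exact smul_iso hV hwi _
  have hve : v = (v.1, v.2.1, 1) := by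
    refine Prod.ext rfl (Prod.ext rfl ?_)
    rw [hv]
    exact inv_mul_cancel₀ hw2
  have hc : v.1 + θ v.1 + h v.2.1 v.2.1 = 0 := by
    rw [hve, hyp_apply] at hvi
    simp only [map_one, mul_one, one_mul] at hvi
    linear_combination hvi
  obtain ⟨z, hz⟩ : ∃ z : Z0 θ, (z : K) = v.1 + h v.2.1 v.2.1 / 2 := by
    refine ⟨⟨v.1 + h v.2.1 v.2.1 / 2, ?_⟩, rfl⟩
    have h4 : θ (2 : K) = 2 := map_ofNat θ 2
    rw [mem_Z0, map_add, map_div₀, hB.fix, h4]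
    field_simp
    linear_combination 2 * hc
  obtain ⟨a, ha⟩ : ∃ a : SUG (hyp θ h), a = rG hθ hB h2 v.2.1 z := ⟨_, rfl⟩
  have ha1 : (a : (K × W × K) ≃ₗ[K] (K × W × K)) (o' K W) = v := by
    rw [ha, rG_o', hz, add_sub_cancel_right]
    exact hve.symm
  have ha2 : (a : (K × W × K) ≃ₗ[K] (K × W × K)) (oo K W) = oo K W := by rw [ha, rG_oo]
  have ha3 : XT π w = XT π ((a : (K × W × K) ≃ₗ[K] (K × W × K)) (o' K W)) := by
    rw [ha1, hv, XT_smul π hV (inv_ne_zero hw2)]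
  have key : ∀ x, (MulAut.conj ((π a)⁻¹ * t) * α) x = (π a)⁻¹ * β x * π a := by
    intro x
    rw [map_mul, mul_assoc, ← hβ, MulAut.mul_apply, MulAut.conj_apply, inv_inv]
  refine ⟨(π a)⁻¹ * t, fun x => ?_, fun x => ?_⟩
  · rw [key, XT_conj_iff', ha2, ht]
  · rw [key, XT_conj_iff', ← ha3, hw]

end Aut

end Vale.Agent.P180.R2.H589.Un
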