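import Vale.Agent.P180.R2.H589.Un.Au2
import Vale.Agent.P180.R2.H589.Sp.Au5

/-!
P180: automorphisms of `PSU(V)`, odd characteristic: additive maps which preserve the skew part of
the form up to a bijection are semilinear similitudes.
-/

set_option linter.all false

namespace Vale.Agent.P180.R2.H589.Un

open Subgroup Module
open Vale.Agent.P180.R2.H589.Sch

section Sim

variable {K W : Type*} [Field K] [Finite K] [AddCommGroup W] [Module K W] {θ : K ≃+* K}
  {h : W → W → K} (hθ : Iv θ) (hB : Hm θ h) (h2 : (2 : K) ≠ 0) {s : W ≃+ W}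
  {τ : Z0 θ →+ Z0 θ} (hτ : Function.Injective τ)
  (hom : ∀ y y', τ (om hθ hB y y') = om hθ hB (s y) (s y'))

omit [Finite K] in
theorem Z0_half (h2 : (2 : K) ≠ 0) (z : Z0 θ) : ((z : K) - θ (z : K)) / 2 = z := by
  rw [Z0_neg]
  field_simp
  ring

include hτ hom h2 in
/-- **The similitude factor.** -/
theorem exists_factor (hW : ∃ x : W, x ≠ 0) {σ : K ≃+* K}
    (hs : ∀ (c : K) y, s (c • y) = σ c • s y) :
    ∃ κ : K, κ ≠ 0 ∧ θ κ = κ ∧ (∀ y y', h (s y) (s y') = κ * σ (h y y')) ∧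
      ∀ z : Z0 θ, (τ z : K) = κ * σ z := by
  have hσθ : ∀ c, θ (σ c) = σ (θ c) := fun c => Sp.ringEquiv_comm θ σ c
  obtain ⟨d, hd0, hd⟩ := exists_dl hθ
  obtain ⟨δ, hδ⟩ : ∃ δ : Z0 θ, (δ : K) = d := ⟨⟨d, by rw [mem_Z0, hd, add_neg_cancel]⟩, rfl⟩
  have hτδ : (τ δ : K) ≠ 0 := by
    intro h0
    have h3 : τ δ = τ 0 := by
      rw [map_zero]
      exact Subtype.ext h0
    rw [hτ h3] at hδ
    exact hd0 hδ.symm
  have hσd : σ d ≠ 0 := (map_ne_zero σ).mpr hd0
  -- the basic relation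
  have e1 : ∀ (y y' : W) (c : K) (z : Z0 θ), (z : K) = (c * h y y' - θ (c * h y y')) / 2 →
      (τ z : K) = (σ c * h (s y) (s y') - θ (σ c * h (s y) (s y'))) / 2 := by
    intro y y' c z hz
    have h3 : z = om hθ hB (c • y) y' := by
      apply Subtype.ext
      rw [om_val, hB.herm (c • y) y', hB.sml, hz]
    rw [h3, hom, om_val, hs, hB.herm (σ c • s y) (s y'), hB.sml]
  -- nonorthogonal pairs
  have e2 : ∀ y y' : W, h y y' ≠ 0 → ∃ ρ : K, θ ρ = ρ ∧ h (s y) (s y') = ρ * σ (h y y') ∧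
      ∀ z : Z0 θ, (τ z : K) = ρ * σ z := by
    intro y y' hx
    have hσx : σ (h y y') ≠ 0 := (map_ne_zero σ).mpr hx
    obtain ⟨ρ, hρ⟩ : ∃ ρ, ρ = h (s y) (s y') / σ (h y y') := ⟨_, rfl⟩
    have hX : h (s y) (s y') = ρ * σ (h y y') := by
      rw [hρ, div_mul_cancel₀ _ hσx]
    have h3 : ∀ (e : K) (z : Z0 θ), (z : K) = (e - θ e) / 2 →
        (τ z : K) = (σ e * ρ - θ (σ e * ρ)) / 2 := by
      intro e z hz
      have h4 := e1 y y' (e / h y y') z (by rw [div_mul_cancel₀ _ hx, hz])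
      have h5 : σ (e / h y y') * h (s y) (s y') = σ e * ρ := by
        rw [map_div₀, hX]
        field_simp
      rw [h5] at h4
      exact h4
    have hρθ : θ ρ = ρ := by
      have h4 := h3 1 0 (by rw [map_one, sub_self, zero_div]; rfl)
      rw [map_zero, map_one, one_mul] at h4
      change (0 : K) = _ at h4
      have h5 : (ρ - θ ρ) = 0 := by
        have h6 : ρ - θ ρ = 2 * ((ρ - θ ρ) / 2) := by field_simp
        rw [h6, ← h4, mul_zero]
      exact (sub_eq_zero.mp h5).symm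
    refine ⟨ρ, hρθ, hX, fun z => ?_⟩
    have h4 := h3 z z (Z0_half h2 z).symm
    rw [h4, map_mul, hρθ, hσθ, Z0_neg, map_neg]
    field_simp
    ring
  obtain ⟨κ, hκ⟩ : ∃ κ, κ = (τ δ : K) / σ d := ⟨_, rfl⟩
  have hκ0 : κ ≠ 0 := by rw [hκ]; exact div_ne_zero hτδ hσd
  have e3 : ∀ ρ : K, (∀ z : Z0 θ, (τ z : K) = ρ * σ z) → ρ = κ := by
    intro ρ hρ
    rw [hκ, hρ δ, hδ, mul_div_assoc, div_self hσd, mul_one]
  obtain ⟨x, hx⟩ := hW
  obtain ⟨x', hx'⟩ := hB.exists_ne hx
  obtain ⟨ρ, h3, -, h5⟩ := e2 x x' hx'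
  have h6 := e3 ρ h5
  subst h6
  refine ⟨ρ, hκ0, h3, fun y y' => ?_, h5⟩
  by_cases hxx : h y y' = 0
  · have h7 : ∀ c : K, σ c * h (s y) (s y') - θ (σ c * h (s y) (s y')) = 0 := by
      intro c
      have h8 := e1 y y' c 0 (by rw [hxx, mul_zero, map_zero, sub_self, zero_div]; rfl)
      rw [map_zero] at h8
      change (0 : K) = _ at h8
      have h9 : σ c * h (s y) (s y') - θ (σ c * h (s y) (s y')) =
        2 * ((σ c * h (s y) (s y') - θ (σ c * h (s y) (s y'))) / 2) := by field_simp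
      rw [h9, ← h8, mul_zero]
    have h8 := h7 1
    have h9 := h7 d
    rw [map_one, one_mul] at h8
    rw [map_mul, hσθ, hd, map_neg] at h9
    have h10 : 2 * σ d * h (s y) (s y') = 0 := by linear_combination h9 + σ d * h8
    rw [hxx, map_zero, mul_zero]
    exact (mul_eq_zero.mp h10).resolve_left (mul_ne_zero h2 hσd)
  · obtain ⟨ρ', h7, h8, h9⟩ := e2 y y' hxx
    rw [h8, e3 ρ' h9]

section Line

variable (hl : ∀ y, y ≠ 0 → h y y = 0 → h (s y) (s y) = 0 ∧ ∀ k : K, ∃ k' : K,
  s (k • y) = k' • s y)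

include hB hl in
/-- comparison of the scalars -/
theorem line_cmp {y y' : W} (hy0 : y ≠ 0) (hy : h y y = 0) (hy' : h y' y' = 0)
    (htr : h y y' + h y' y = 0) (hind : ∀ k : K, y' ≠ k • y) {S S' : K → K}
    (hS : ∀ k, s (k • y) = S k • s y) (hS' : ∀ k, s (k • y') = S' k • s y') : S = S' := by
  have hs0 : ∀ {x}, s x = 0 → x = 0 := fun {x} hx => s.map_eq_zero_iff.mp hx
  have hsy : s y ≠ 0 := fun h0 => hy0 (hs0 h0)
  have hSinj : Function.Injective S := by
    intro a b hab
    have h3 : s (a • y) = s (b • y) := by rw [hS, hS, hab]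
    exact smul_left_injective K hy0 (s.injective h3)
  have hSsurj : Function.Surjective S := Finite.injective_iff_surjective.mp hSinj
  have hind' : ∀ k : K, s y' ≠ k • s y := by
    intro k hk
    obtain ⟨k, rfl⟩ := hSsurj k
    rw [← hS] at hk
    exact hind k (s.injective hk)
  have h3 : y + y' ≠ 0 := by
    intro h0
    refine hind (-1) ?_
    rw [neg_one_smul]
    exact (neg_eq_of_add_eq_zero_right h0).symm
  have h4 : h (y + y') (y + y') = 0 := by
    rw [hB.addl, hB.addr, hB.addr, hy, hy']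
    linear_combination htr
  funext k
  obtain ⟨k', hk'⟩ := (hl _ h3 h4).2 k
  rw [smul_add, map_add, map_add, hS, hS', smul_add] at hk'
  have h5 : (S k - k') • s y = (k' - S' k) • s y' := by
    rw [sub_smul, sub_smul, sub_eq_sub_iff_add_eq_add, hk']
    abel
  have h6 : k' - S' k = 0 := by
    by_contra h0
    refine hind' ((k' - S' k)⁻¹ * (S k - k')) ?_
    rw [mul_smul, h5, smul_smul, inv_mul_cancel₀ h0, one_smul]
  rw [h6, zero_smul] at h5
  have h7 := (smul_eq_zero.mp h5).resolve_right hsy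
  rw [sub_eq_zero.mp h7, sub_eq_zero.mp h6]

include hτ hom h2 hl in
/-- **Semilinearity** for spaces with isotropic vectors. -/
theorem exists_sigma (hi : ∃ e : W, e ≠ 0 ∧ h e e = 0) :
    ∃ σ : K ≃+* K, ∀ (c : K) y, s (c • y) = σ c • s y := by
  have hs0 : ∀ {x}, s x = 0 → x = 0 := fun {x} hx => s.map_eq_zero_iff.mp hx
  obtain ⟨d, hd0, hd⟩ := exists_dl hθ
  obtain ⟨δ, hδ⟩ : ∃ δ : Z0 θ, (δ : K) = d := ⟨⟨d, by rw [mem_Z0, hd, add_neg_cancel]⟩, rfl⟩
  obtain ⟨e, he0, he⟩ := hi
  obtain ⟨f, hf, hef⟩ := exists_pair hθ hB he0 he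
  have hfe : h f e = 1 := by rw [hB.herm e f, hef, map_one]
  have hf0 : f ≠ 0 := by
    rintro rfl
    rw [hB.zr] at hef
    exact zero_ne_one hef
  obtain ⟨y₁, hy₁⟩ : ∃ y₁, y₁ = d • e := ⟨_, rfl⟩
  have hy₁0 : y₁ ≠ 0 := by rw [hy₁]; exact smul_ne_zero hd0 he0
  have hy₁i : h y₁ y₁ = 0 := by rw [hy₁]; exact smul_iso hB he d
  have h12 : h y₁ f = d := by rw [hy₁, hB.sml, hef, mul_one]
  have h21 : h f y₁ = -d := by rw [hB.herm y₁ f, h12, hd]
  choose S hS using (hl y₁ hy₁0 hy₁i).2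
  have hsy₁ : s y₁ ≠ 0 := fun h0 => hy₁0 (hs0 h0)
  have hsf : s f ≠ 0 := fun h0 => hf0 (hs0 h0)
  have hSinj : Function.Injective S := by
    intro a b hab
    have h3 : s (a • y₁) = s (b • y₁) := by rw [hS, hS, hab]
    exact smul_left_injective K hy₁0 (s.injective h3)
  have hS1 : S 1 = 1 := by
    have h3 := hS 1
    rw [one_smul] at h3
    have h4 : (S 1 - 1) • s y₁ = 0 := by rw [sub_smul, ← h3, one_smul, sub_self]
    exact sub_eq_zero.mp ((smul_eq_zero.mp h4).resolve_right hsy₁)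
  have hSadd : ∀ a b, S (a + b) = S a + S b := by
    intro a b
    apply smul_left_injective K hsy₁
    change S (a + b) • s y₁ = (S a + S b) • s y₁
    rw [← hS, add_smul, map_add, hS, hS, add_smul]
  have hS0 : S 0 = 0 := by
    have := hSadd 0 0
    rw [add_zero] at this
    exact add_eq_left.mp this.symm
  -- the second vector
  have hind2 : ∀ c : K, c ≠ 0 → ∀ k : K, c • f ≠ k • y₁ := by
    intro c hc k hk
    have h3 := congrArg (fun x => h x y₁) hk
    simp only [hB.sml, hy₁i, h21, mul_zero] at h3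
    exact (mul_ne_zero hc (neg_ne_zero.mpr hd0)) h3
  have hfix : ∀ c : K, c ≠ 0 → θ c = c → ∀ k, s (k • (c • f)) = S k • s (c • f) := by
    intro c hc hcθ
    have hcf0 : c • f ≠ 0 := smul_ne_zero hc hf0
    choose S' hS' using (hl (c • f) hcf0 (smul_iso hB hf c)).2
    have h3 : S = S' := line_cmp hB hl hy₁0 hy₁i (smul_iso hB hf c)
      (by rw [hB.smr, hB.sml, h12, h21, hcθ]; ring) (hind2 c hc) hS hS'
    intro k
    rw [h3]
    exact hS' k
  have hSf : ∀ k, s (k • f) = S k • s f := by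
    have h3 := hfix 1 one_ne_zero (map_one θ)
    simp only [one_smul] at h3
    exact h3
  have hSF : ∀ c k : K, θ c = c → S (k * c) = S k * S c := by
    intro c k hc
    by_cases hc0 : c = 0
    · rw [hc0, mul_zero, hS0, mul_zero]
    have h3 := hfix c hc0 hc k
    rw [smul_smul, hSf, hSf, smul_smul] at h3
    exact smul_left_injective K hsf h3
  obtain ⟨b, hb⟩ : ∃ b, b = h (s y₁) (s f) := ⟨_, rfl⟩
  have hb' : h (s f) (s y₁) = θ b := by rw [hB.herm (s y₁) (s f), ← hb]
  have hsy₁i : h (s y₁) (s y₁) = 0 := (hl y₁ hy₁0 hy₁i).1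
  have hsfi : h (s f) (s f) = 0 := (hl f hf0 hf).1
  -- the sum with multiples of the second vector
  have hsum : ∀ c : K, θ c = c → θ (S c) * b + S c * θ b = 0 := by
    intro c hc
    have h3 : y₁ + c • f ≠ 0 := by
      intro h0
      have h4 := congrArg (fun x => h x f) h0
      simp only [hB.addl, hB.sml, hf, h12, hB.zl, mul_zero, add_zero] at h4
      exact hd0 h4
    have h4 : h (y₁ + c • f) (y₁ + c • f) = 0 := by
      rw [hB.addl, hB.addr, hB.addr, hB.sml, hB.sml, hB.smr, hB.smr, hy₁i, hf, h12, h21, hc]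
      ring
    have h5 := (hl _ h3 h4).1
    rw [map_add, hSf, hB.addl, hB.addr, hB.addr, hB.sml, hB.sml, hB.smr, hB.smr, hsy₁i, hsfi,
      ← hb, hb'] at h5
    linear_combination h5
  have hbθ : θ b = -b := by
    have h3 := hsum 1 (map_one θ)
    rw [hS1, map_one, one_mul, one_mul] at h3
    linear_combination h3
  -- the basic relation
  have hE : ∀ (a c : K) (z : Z0 θ), (z : K) = d * (c * θ a + θ c * a) / 2 →
      (τ z : K) = b * (S c * θ (S a) + θ (S c) * S a) / 2 := by
    intro a c z hz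
    have h3 : z = om hθ hB (c • y₁) (a • f) := by
      apply Subtype.ext
      rw [om_val, hB.sml, hB.smr, hB.sml, hB.smr, h12, h21, hz]
      ring
    rw [h3, hom, om_val, hS, hSf, hB.sml, hB.smr, hB.sml, hB.smr, ← hb, hb', hbθ]
    ring
  have hb0 : b ≠ 0 := by
    intro h0
    have h3 := hE 1 1 δ (by rw [hδ, map_one]; field_simp; ring)
    rw [h0, zero_mul, zero_div] at h3
    have h4 : τ δ = τ 0 := by
      rw [map_zero]
      exact Subtype.ext h3
    rw [hτ h4] at hδ
    exact hd0 hδ.symm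
  have hSθ : ∀ c : K, θ c = c → θ (S c) = S c := by
    intro c hc
    have h3 := hsum c hc
    rw [hbθ] at h3
    have h4 : (θ (S c) - S c) * b = 0 := by linear_combination h3
    exact sub_eq_zero.mp ((mul_eq_zero.mp h4).resolve_right hb0)
  have hτF : ∀ (c : K) (hc : θ c = c) (z : Z0 θ), (z : K) = d * c → (τ z : K) = b * S c := by
    intro c hc z hz
    have h3 := hE 1 c z (by rw [map_one, hc, hz]; field_simp; ring)
    rw [h3, hS1, map_one, hSθ c hc]
    field_simp
    ring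
  have hTr : ∀ a c : K, S ((c * θ a + θ c * a) / 2) = (S c * θ (S a) + θ (S c) * S a) / 2 := by
    intro a c
    have hθ2 : θ (2 : K) = 2 := map_ofNat θ 2
    have h3 : θ ((c * θ a + θ c * a) / 2) = (c * θ a + θ c * a) / 2 := by
      rw [map_div₀, map_add, map_mul, map_mul, hθ.inv, hθ.inv, hθ2]
      ring
    obtain ⟨z, hz⟩ : ∃ z : Z0 θ, (z : K) = d * ((c * θ a + θ c * a) / 2) := by
      refine ⟨⟨d * ((c * θ a + θ c * a) / 2), ?_⟩, rfl⟩
      rw [mem_Z0, map_mul, h3, hd]
      ring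
    have h4 := hτF _ h3 z hz
    have h5 := hE a c z (by rw [hz]; ring)
    rw [h4] at h5
    apply mul_left_cancel₀ hb0
    rw [h5]
    ring
  have hdbl : ∀ x : K, S (2 * x) = 2 * S x := by
    intro x
    rw [two_mul, hSadd, two_mul]
  have hsub : ∀ x y : K, S (x - y) = S x - S y := by
    intro x y
    have h3 := hSadd (x - y) y
    rw [sub_add_cancel] at h3
    rw [h3, add_sub_cancel_right]
  have hsq : ∀ c : K, S (c * c) = S c * S c := by
    intro c
    have hθ2 : θ (2 : K) = 2 := map_ofNat θ 2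
    have h3 := hTr 1 c
    have h4 := hTr c c
    rw [map_one, hS1, map_one, mul_one, mul_one, mul_one, mul_one] at h3
    have h5 : (c * θ c + θ c * c) / 2 = c * θ c := by
      field_simp
      ring
    have h6 : c * c = 2 * (c * ((c + θ c) / 2)) - c * θ c := by
      field_simp
      ring
    have h7 : θ ((c + θ c) / 2) = (c + θ c) / 2 := by
      rw [map_div₀, map_add, hθ.inv, hθ2]
      ring
    rw [h5] at h4
    rw [h6, hsub, hdbl, hSF _ _ h7, h3, h4]
    field_simp
    ring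
  have hmul : ∀ a c : K, S (a * c) = S a * S c := by
    intro a c
    have h3 := hsq (a + c)
    have h4 : (a + c) * (a + c) = a * a + 2 * (a * c) + c * c := by ring
    rw [h4, hSadd, hSadd, hdbl, hsq, hsq, hSadd] at h3
    have h5 : 2 * (S (a * c) - S a * S c) = 0 := by linear_combination h3
    exact sub_eq_zero.mp ((mul_eq_zero.mp h5).resolve_left h2)
  let σ' : K →+* K :=
    { toFun := S
      map_one' := hS1
      map_mul' := hmul
      map_zero' := hS0
      map_add' := hSadd }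
  let σ : K ≃+* K := RingEquiv.ofBijective σ' (Finite.injective_iff_bijective.mp σ'.injective)
  refine ⟨σ, ?_⟩
  change ∀ (c : K) y, s (c • y) = S c • s y
  -- multiples
  have hcl : ∀ (k : K) (y : W), (∀ c : K, s (c • y) = S c • s y) →
      ∀ c : K, s (c • (k • y)) = S c • s (k • y) := by
    intro k y hy c
    rw [smul_smul, hy, hy, smul_smul, hmul]
  -- isotropic vectors
  have hiso : ∀ y : W, h y y = 0 → ∀ c : K, s (c • y) = S c • s y := by
    intro y hy
    by_cases hy0 : y = 0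
    · intro c
      rw [hy0, smul_zero, map_zero, smul_zero]
    by_cases h11 : h y₁ y = 0
    · by_cases hk : ∃ k : K, y = k • y₁
      · obtain ⟨k, rfl⟩ := hk
        exact hcl k y₁ hS
      · push Not at hk
        choose S' hS' using (hl y hy0 hy).2
        have h3 : S = S' := line_cmp hB hl hy₁0 hy₁i hy
          (by rw [h11, hB.swap h11, add_zero]) hk hS hS'
        rw [h3]
        exact hS'
    · choose S' hS' using (hl y hy0 hy).2
      have hk0 : d / h y₁ y ≠ 0 := div_ne_zero hd0 h11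
      have h4 : h ((d / h y₁ y) • y₁) y = d := by
        rw [hB.sml, div_mul_cancel₀ _ h11]
      have h5 : h y ((d / h y₁ y) • y₁) = -d := by
        rw [hB.herm ((d / h y₁ y) • y₁) y, h4, hd]
      have h3 : S = S' := line_cmp hB hl (smul_ne_zero hk0 hy₁0) (smul_iso hB hy₁i _) hy
        (by rw [h4, h5]; ring) (by
          intro k hk
          apply h11
          rw [hk, hB.smr, hB.smr, hy₁i, mul_zero, mul_zero]) (hcl _ y₁ hS) hS'
      rw [h3]
      exact hS'
  let U : Submodule K W :=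
    { carrier := {y | ∀ c : K, s (c • y) = S c • s y}
      zero_mem' := fun c => by rw [smul_zero, map_zero, smul_zero]
      add_mem' := fun {x y} hx hy c => by
        rw [smul_add, map_add, map_add, hx, hy, smul_add]
      smul_mem' := fun k y hy => hcl k y hy }
  have hU : ∀ y, h y y = 0 → y ∈ U := hiso
  suffices hh : ∀ w, w ∈ U from fun c y => hh y c
  intro w
  obtain ⟨x, hx⟩ : ∃ x, x = w - h w f • e - h w e • f := ⟨_, rfl⟩
  have hxe : h x e = 0 := by
    rw [hx, hB.subl, hB.subl, hB.sml, hB.sml, he, hfe]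
    ring
  have hxf : h x f = 0 := by
    rw [hx, hB.subl, hB.subl, hB.sml, hB.sml, hf, hef]
    ring
  obtain ⟨c, hc⟩ := exists_cond hB hθ x
  have h3 : h (c • e + x + f) (c • e + x + f) = 0 := by
    simp only [hB.addl, hB.addr, hB.sml, hB.smr, he, hf, hef, hfe, hxe, hxf, hB.swap hxe,
      hB.swap hxf]
    linear_combination hc
  have h4 := U.sub_mem (U.sub_mem (hU _ h3) (U.smul_mem c (hU e he))) (hU f hf)
  have h5 : c • e + x + f - c • e - f = x := by abel
  rw [h5] at h4
  have h6 := U.add_mem (U.add_mem h4 (U.smul_mem (h w f) (hU e he)))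
    (U.smul_mem (h w e) (hU f hf))
  have h7 : x + h w f • e + h w e • f = w := by
    rw [hx]
    abel
  rwa [h7] at h6

end Line

section One

omit [Finite K] hB in
/-- the field is generated by the fixed field and one element -/
theorem mem_of_gen (hθ : Iv θ) {A : Subring K} (hF : ∀ c, θ c = c → c ∈ A) {c₀ : K}
    (hc₀ : c₀ ∈ A) (hne : θ c₀ ≠ c₀) (c : K) : c ∈ A := by
  have h3 : c₀ - θ c₀ ≠ 0 := sub_ne_zero.mpr (Ne.symm hne)
  have h3' : θ c₀ - c₀ ≠ 0 := sub_ne_zero.mpr hne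
  obtain ⟨b, hb⟩ : ∃ b, b = (c - θ c) / (c₀ - θ c₀) := ⟨_, rfl⟩
  have hbθ : θ b = b := by
    rw [hb, map_div₀, map_sub, map_sub, hθ.inv, hθ.inv]
    rw [div_eq_div_iff h3' h3]
    ring
  have hbc : b * (c₀ - θ c₀) = c - θ c := by rw [hb, div_mul_cancel₀ _ h3]
  have h4 : θ (c - b * c₀) = c - b * c₀ := by
    rw [map_sub, map_mul, hbθ]
    linear_combination hbc
  have h5 := A.add_mem (hF _ h4) (A.mul_mem (hF _ hbθ) hc₀)
  rwa [sub_add_cancel] at h5

include hθ in
/-- norm one elements with nontrivial cube -/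
theorem exists_cube (hF : 2 < Nat.card (FF θ)) : ∃ u : K, u * θ u = 1 ∧ u ^ 3 ≠ 1 := by
  by_contra hcon
  push Not at hcon
  have h1 := card_nm_one hθ
  have h3 : (nmU hθ).ker ≤ rootsOfUnity 3 K := by
    intro u hu
    rw [mem_rootsOfUnity]
    apply Units.ext
    rw [Units.val_pow_eq_pow_val, Units.val_one]
    exact hcon u ((mem_ker_nmU hθ).mp hu)
  have h4 : Nat.card (nmU hθ).ker ≤ Nat.card (rootsOfUnity 3 K) :=
    Nat.card_le_card_of_injective _ (Subgroup.inclusion_injective h3)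
  have h5 : Nat.card (rootsOfUnity 3 K) ≤ 3 := card_rootsOfUnity K 3
  omega

end One

end Sim

end Vale.Agent.P180.R2.H589.Un
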