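import Vale.Agent.P180.R2.H589.Un.Au5
import Vale.Agent.P180.R2.H589.Bt.SemL

/-!
P180: **every automorphism of `PSU(V)`, `dim V ≥ 3`, odd characteristic, is induced by a semilinear
similitude**.
-/

set_option linter.all false

namespace Vale.Agent.P180.R2.H589.Un

open Subgroup Module
open Vale.Agent.P180.R2.H589.Sch
open Vale.Agent.P180.R2.H589.Sp (oo oo_ne finite_gl cj cj_apply)

section Def

variable {K V : Type*} [Field K] [AddCommGroup V] [Module K V]

/-- semilinear similitudes -/
structure SSim (h : V → V → K) (g : V ≃+ V) (σ : K ≃+* K) (κ : K) : Prop where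
  sl : ∀ (c : K) v, g (c • v) = σ c • g v
  ne : κ ≠ 0
  form : ∀ u v, h (g u) (g v) = κ * σ (h u v)

/-- `α` is induced by `g` -/
def IndS {h : V → V → K} {T : Type*} [Group T] (π : SUG h →* T) (α : MulAut T) (g : V ≃+ V) :
    Prop :=
  ∀ x y : SUG h, (∀ v, g ((x : V ≃ₗ[K] V) v) = (y : V ≃ₗ[K] V) (g v)) → α (π x) = π y

end Def

section Aut

variable {K W : Type*} [Field K] [Finite K] [AddCommGroup W] [Module K W] {θ : K ≃+* K}
  {h : W → W → K} (hθ : Iv θ) (hB : Hm θ h) (h2 : (2 : K) ≠ 0)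
  {T : Type*} [Group T] {π : SUG (hyp θ h) →* T}
  (p : ℕ) [hp : Fact p.Prime] [CharP K p] [Finite W] (hW : ∃ x : W, x ≠ 0)
  (hker : π.ker = center (SUG (hyp θ h))) (hπ : Function.Surjective π)

include hB in
omit [Finite K] [Finite W] hp [CharP K p] in
/-- double orthogonal of a line -/
theorem exists_smul_of_perp {a b : W} (ha : a ≠ 0) (hab : ∀ z, h z a = 0 → h z b = 0) :
    ∃ k : K, b = k • a := by
  obtain ⟨y, hy⟩ := hB.exists_one ha
  have h1 : h y a = 1 := by rw [hB.herm a y, hy, map_one]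
  refine ⟨h b y, ?_⟩
  have h2 : b - h b y • a = 0 := by
    apply hB.nd
    intro z
    apply hB.swap
    have h3 : h (z - h z a • y) a = 0 := by
      rw [hB.subl, hB.sml, h1, mul_one, sub_self]
    have h4 := hab _ h3
    rw [hB.subl, hB.sml] at h4
    rw [hB.subr, hB.smr, ← hB.herm]
    linear_combination h4
  exact sub_eq_zero.mp h2

include hp hB hθ hker h2 hW hπ in
/-- **Every automorphism of `PSU(V)`** is induced by a semilinear similitude. -/
theorem exists_ssim_hyp (α : MulAut T) : ∃ (g : (K × W × K) ≃+ (K × W × K)) (σ : K ≃+* K) (κ : K),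
    SSim (hyp θ h) g σ κ ∧ IndS π α g := by
  have hV := hyp_hm hθ hB
  have hkp := hkp' p hker hθ hB
  haveI : Module.Finite K W := Module.Finite.of_finite
  obtain ⟨t, ht1, ht2⟩ := exists_norm hθ hB h2 p hker hπ α
  obtain ⟨β, hβ⟩ : ∃ β, β = MulAut.conj t * α := ⟨_, rfl⟩
  rw [← hβ] at ht1 ht2
  obtain ⟨s, τ, hτ, hmap, hom⟩ := exists_maps hθ hB h2 p hW hker hπ ht1 ht2
  have hl : ∀ y, y ≠ 0 → h y y = 0 → h (s y) (s y) = 0 ∧ ∀ k : K, ∃ k' : K,
      s (k • y) = k' • s y := fun y hy0 hy => iso_line hθ hB h2 p hker hπ ht1 ht2 hmap hy0 hy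
  obtain ⟨σ, hs⟩ : ∃ σ : K ≃+* K, ∀ (c : K) y, s (c • y) = σ c • s y := by
    by_cases hi : ∃ e : W, e ≠ 0 ∧ h e e = 0
    · exact exists_sigma hθ hB h2 hτ hom hl hi
    · refine sigma_one hθ hB h2 p hker hπ ht1 ht2 hmap ?_
      have h3 : ¬ 2 ≤ finrank K W := fun h4 => hi (exists_iso_vec hθ hB h4)
      have h5 : finrank K W ≠ 0 := by
        intro h0
        obtain ⟨x, hx⟩ := hW
        haveI : Subsingleton W := Module.finrank_zero_iff.mp h0
        exact hx (Subsingleton.elim _ _)
      omega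
  obtain ⟨κ, hκ, hκθ, hform, hτσ⟩ := exists_factor hθ hB h2 hτ hom hW hs
  have hσθ : ∀ c, θ (σ c) = σ (θ c) := fun c => Sp.ringEquiv_comm θ σ c
  -- the semilinear map
  let g : (K × W × K) ≃+ (K × W × K) :=
    { toFun := fun u => (κ * σ u.1, s u.2.1, σ u.2.2)
      invFun := fun u => (σ.symm (κ⁻¹ * u.1), s.symm u.2.1, σ.symm u.2.2)
      left_inv := by
        intro u
        refine Prod.ext ?_ (Prod.ext (s.symm_apply_apply _) (σ.symm_apply_apply _))
        change σ.symm (κ⁻¹ * (κ * σ u.1)) = u.1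
        rw [inv_mul_cancel_left₀ hκ, σ.symm_apply_apply]
      right_inv := by
        intro u
        refine Prod.ext ?_ (Prod.ext (s.apply_symm_apply _) (σ.apply_symm_apply _))
        change κ * σ (σ.symm (κ⁻¹ * u.1)) = u.1
        rw [σ.apply_symm_apply, mul_inv_cancel_left₀ hκ]
      map_add' := by
        intro u v
        refine Prod.ext ?_ (Prod.ext (map_add s _ _) (map_add σ _ _))
        change κ * σ (u.1 + v.1) = κ * σ u.1 + κ * σ v.1
        rw [map_add, mul_add] }
  have hg : ∀ u, g u = (κ * σ u.1, s u.2.1, σ u.2.2) := fun u => rfl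
  have hgS : SSim (hyp θ h) g σ κ := by
    refine ⟨fun c v => ?_, hκ, fun u v => ?_⟩
    · rw [hg, hg]
      refine Prod.ext ?_ (Prod.ext (hs c _) (map_mul σ _ _))
      change κ * σ (c * v.1) = σ c * (κ * σ v.1)
      rw [map_mul]
      ring
    · rw [hg, hg, hyp_apply, hyp_apply, hform, map_mul θ, hκθ, hσθ, hσθ, map_add, map_add,
        map_mul, map_mul]
      ring
  have hgi : ∀ {v}, hyp θ h v v = 0 → hyp θ h (g v) (g v) = 0 := by
    intro v hv
    rw [hgS.form, hv, map_zero, mul_zero]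
  have hgi' : ∀ {v}, hyp θ h (g v) (g v) = 0 → hyp θ h v v = 0 := by
    intro v hv
    rw [hgS.form] at hv
    exact (map_eq_zero σ).mp ((mul_eq_zero.mp hv).resolve_left hκ)
  have hg0 : ∀ {v}, v ≠ 0 → g v ≠ 0 := fun {v} hv h0 => hv (g.map_eq_zero_iff.mp h0)
  -- the action on the transvection groups
  have step1 : ∀ v : K × W × K, hyp θ h v v = 0 → v.2.2 ≠ 0 →
      ∀ x, β x ∈ XT π (g v) ↔ x ∈ XT π v := by
    intro v hvi hv x
    obtain ⟨y, hy⟩ : ∃ y, y = v.2.2⁻¹ • v.2.1 := ⟨_, rfl⟩
    obtain ⟨c, hc⟩ : ∃ c, c = v.2.2⁻¹ * v.1 := ⟨_, rfl⟩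
    have e1 : v = v.2.2 • (c, y, (1 : K)) := by
      refine Prod.ext ?_ (Prod.ext ?_ ?_)
      · change v.1 = v.2.2 * c
        rw [hc, mul_inv_cancel_left₀ hv]
      · change v.2.1 = v.2.2 • y
        rw [hy, smul_smul, mul_inv_cancel₀ hv, one_smul]
      · exact (mul_one _).symm
    have hcond : c + θ c + h y y = 0 := by
      rw [e1, hV.sml, hV.smr] at hvi
      have h3 := (mul_eq_zero.mp ((mul_eq_zero.mp hvi).resolve_left hv)).resolve_left
        ((map_ne_zero θ).mpr hv)
      rw [hyp_apply] at h3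
      simp only [map_one, mul_one, one_mul] at h3
      linear_combination h3
    obtain ⟨z, hz⟩ : ∃ z : Z0 θ, (z : K) = c + h y y / 2 := by
      refine ⟨⟨c + h y y / 2, ?_⟩, rfl⟩
      have h4 : θ (2 : K) = 2 := map_ofNat θ 2
      rw [mem_Z0, map_add, map_div₀, hB.fix, h4]
      field_simp
      linear_combination 2 * hcond
    have e2 : XT π v = XT π (c, y, (1 : K)) := by
      rw [e1]
      exact XT_smul π hV hv _
    have e4 : ((c, y, 1) : K × W × K) =
        (rG hθ hB h2 y z : (K × W × K) ≃ₗ[K] (K × W × K)) (o' K W) := by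
      rw [rG_o', hz, add_sub_cancel_right]
    have e5 : ((κ * σ c, s y, 1) : K × W × K) =
        (rG hθ hB h2 (s y) (τ z) : (K × W × K) ≃ₗ[K] (K × W × K)) (o' K W) := by
      rw [rG_o', hτσ, hz, hform, map_add, map_div₀, map_ofNat]
      refine Prod.ext ?_ rfl
      change κ * σ c = _
      ring
    have e3 : XT π (g v) = XT π (κ * σ c, s y, (1 : K)) := by
      rw [e1, hgS.sl, XT_smul π hV ((map_ne_zero σ).mpr hv), hg]
      change XT π (κ * σ c, s y, σ 1) = _
      rw [map_one]
    rw [e2, e3, e4, e5, ← XT_conj_iff', ← XT_conj_iff', ← hmap, conj_iff_of_mem ht2]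
  have step2 : ∀ v : K × W × K, hyp θ h v v = 0 → v ≠ 0 →
      ∀ x, β x ∈ XT π (g v) ↔ x ∈ XT π v := by
    intro v hvi hv
    by_cases hv2 : v.2.2 ≠ 0
    · exact step1 v hvi hv2
    push Not at hv2
    by_cases hvo : v.2.1 = 0
    · have hk : v = v.1 • oo K W := by
        refine Prod.ext (mul_one _).symm (Prod.ext ?_ ?_)
        · change v.2.1 = v.1 • (0 : W)
          rw [smul_zero, hvo]
        · change v.2.2 = v.1 * 0
          rw [mul_zero, hv2]
      have hk0 : v.1 ≠ 0 := by
        intro h0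
        rw [h0, zero_smul] at hk
        exact hv hk
      have e3 : g (oo K W) = κ • oo K W := by
        rw [hg]
        refine Prod.ext ?_ (Prod.ext ?_ ?_)
        · change κ * σ 1 = κ * 1
          rw [map_one]
        · change s 0 = κ • (0 : W)
          rw [map_zero, smul_zero]
        · change σ 0 = κ * 0
          rw [map_zero, mul_zero]
      intro x
      rw [hk, hgS.sl, XT_smul π hV ((map_ne_zero σ).mpr hk0), XT_smul π hV hk0, e3,
        XT_smul π hV hκ, ht1]
    · obtain ⟨w, hw0, hwi, hw⟩ := exists_img hθ hB hπ oo_ne (oo_iso hB) oo_ne (oo_iso hB) ht1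
        hv hvi
      obtain ⟨w', rfl⟩ := g.surjective w
      -- isotropic vectors which are not orthogonal to the first vector
      have h3 : ∀ u : K × W × K, hyp θ h u u = 0 → u.2.2 ≠ 0 → hyp θ h u v = 0 →
          hyp θ h u w' = 0 := by
        intro u hui hu huv
        have hu0 : u ≠ 0 := by
          rintro rfl
          exact hu rfl
        have h4 : hyp θ h (g u) (g w') = 0 := by
          refine orth_of_XT p hV hθ hker.le hkp (hgi hui) hw0 hwi fun x hx y hy => ?_
          obtain ⟨x, rfl⟩ := β.surjective x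
          obtain ⟨y, rfl⟩ := β.surjective y
          rw [← map_mul, ← map_mul, XT_comm π hV huv ((step1 u hui hu x).mp hx)
            ((hw y).mp hy)]
        rw [hgS.form] at h4
        exact (map_eq_zero σ).mp ((mul_eq_zero.mp h4).resolve_left hκ)
      -- coordinates
      have h4 : ∀ (x : W) (c : K), c + θ c + h x x = 0 → h x v.2.1 = - θ v.1 →
          c * θ w'.2.2 + θ w'.1 + h x w'.2.1 = 0 := by
        intro x c hc hx
        have h5 := h3 (c, x, 1) (iso_of_cond hB hc) one_ne_zero (by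
          rw [hyp_apply]
          change c * θ v.2.2 + 1 * θ v.1 + h x v.2.1 = 0
          rw [hv2, hx, map_zero]
          ring)
        rw [hyp_apply] at h5
        change c * θ w'.2.2 + 1 * θ w'.1 + h x w'.2.1 = 0 at h5
        rwa [one_mul] at h5
      obtain ⟨d, hd0, hd⟩ := exists_dl hθ
      obtain ⟨x₁, hx₁⟩ := hB.exists_one hvo
      have hx₁' : h x₁ v.2.1 = 1 := by rw [hB.herm v.2.1 x₁, hx₁, map_one]
      obtain ⟨x₀, hx₀⟩ : ∃ x₀, x₀ = (- θ v.1) • x₁ := ⟨_, rfl⟩
      have hx₀v : h x₀ v.2.1 = - θ v.1 := by rw [hx₀, hB.sml, hx₁', mul_one]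
      have hw'2 : w'.2.2 = 0 := by
        obtain ⟨c, hc⟩ := exists_cond hB hθ x₀
        have h5 := h4 x₀ c hc hx₀v
        have h6 := h4 x₀ (c + d) (by rw [map_add, hd]; linear_combination hc) hx₀v
        have h7 : d * θ w'.2.2 = 0 := by linear_combination h6 - h5
        exact (map_eq_zero θ).mp ((mul_eq_zero.mp h7).resolve_left hd0)
      have h5 : ∀ x : W, h x v.2.1 = - θ v.1 → h x w'.2.1 = - θ w'.1 := by
        intro x hx
        obtain ⟨c, hc⟩ := exists_cond hB hθ x
        have h6 := h4 x c hc hx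
        rw [hw'2, map_zero, mul_zero, zero_add] at h6
        linear_combination h6
      obtain ⟨k, hk⟩ := exists_smul_of_perp hB hvo (b := w'.2.1) (by
        intro z hz
        have h6 := h5 (x₀ + z) (by rw [hB.addl, hz, add_zero, hx₀v])
        have h7 := h5 x₀ hx₀v
        rw [hB.addl, h7] at h6
        linear_combination h6)
      have hw'v : w' = k • v := by
        refine Prod.ext ?_ (Prod.ext hk ?_)
        · change w'.1 = k * v.1
          apply θ.injective
          have h6 := h5 x₀ hx₀v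
          rw [hk, hB.smr, hx₀v] at h6
          rw [map_mul]
          linear_combination h6
        · change w'.2.2 = k * v.2.2
          rw [hw'2, hv2, mul_zero]
      have hk0 : k ≠ 0 := by
        rintro rfl
        rw [zero_smul] at hw'v
        rw [hw'v, map_zero] at hw0
        exact hw0 rfl
      intro x
      rw [← hw x, hw'v, hgS.sl, XT_smul π hV ((map_ne_zero σ).mpr hk0)]
  -- the action on the elements
  have step3 : IndS π β g := by
    intro x y hxy
    obtain ⟨z, hz⟩ := hπ (β (π x))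
    rw [← hz]
    obtain ⟨c, hc⟩ := scalar_of_iso hθ hB
      (z := ((y⁻¹ * z : SUG (hyp θ h)) : (K × W × K) ≃ₗ[K] (K × W × K)).toLinearMap) (by
        intro w hw0 hwi
        obtain ⟨v, rfl⟩ := g.surjective w
        have hvi := hgi' hwi
        have hv : v ≠ 0 := by
          rintro rfl
          rw [map_zero] at hw0
          exact hw0 rfl
        have hxv : (x : (K × W × K) ≃ₗ[K] (K × W × K)) v ≠ 0 :=
          fun h => hv (LinearEquiv.map_eq_zero_iff _ |>.mp h)
        have hxvi : hyp θ h ((x : (K × W × K) ≃ₗ[K] (K × W × K)) v)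
            ((x : (K × W × K) ≃ₗ[K] (K × W × K)) v) = 0 := UG_iso hV x.2.1 hvi
        obtain ⟨k, hk⟩ := XT_eq (π := π) p hV hθ hker.le hkp (v := (y : (K × W × K) ≃ₗ[K]
          (K × W × K)) (g v)) (w := (z : (K × W × K) ≃ₗ[K] (K × W × K)) (g v))
          (fun h => hg0 hv (LinearEquiv.map_eq_zero_iff _ |>.mp h))
          (UG_iso hV y.2.1 hwi) (UG_iso hV z.2.1 hwi) (by
            intro u hu
            rw [← hxy] at hu
            obtain ⟨u, rfl⟩ := β.surjective u
            rw [step2 _ hxvi hxv, ← XT_conj_iff', ← step2 v hvi hv, map_mul, map_mul, map_inv,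
              ← hz, XT_conj_iff'] at hu
            exact hu)
        refine ⟨k, ?_⟩
        change ((y : (K × W × K) ≃ₗ[K] (K × W × K)).symm
          ((z : (K × W × K) ≃ₗ[K] (K × W × K)) (g v))) = k • g v
        rw [hk, map_smul, LinearEquiv.symm_apply_apply])
    have h4 : y⁻¹ * z ∈ π.ker := by
      rw [hker]
      exact center_of_scalar hc
    rw [MonoidHom.mem_ker, map_mul, map_inv, inv_mul_eq_one] at h4
    exact h4.symm
  -- back to `α`
  obtain ⟨z, rfl⟩ := hπ t
  refine ⟨g.trans (z : (K × W × K) ≃ₗ[K] (K × W × K)).symm.toAddEquiv, σ, κ, ?_, ?_⟩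
  · refine ⟨fun c v => ?_, hκ, fun u v => ?_⟩
    · change (z : (K × W × K) ≃ₗ[K] (K × W × K)).symm (g (c • v)) =
        σ c • (z : (K × W × K) ≃ₗ[K] (K × W × K)).symm (g v)
      rw [hgS.sl, map_smul]
    · change hyp θ h ((z : (K × W × K) ≃ₗ[K] (K × W × K)).symm (g u))
        ((z : (K × W × K) ≃ₗ[K] (K × W × K)).symm (g v)) = _
      rw [← hgS.form, ← mem_UG.mp z.2.1, LinearEquiv.apply_symm_apply,
        LinearEquiv.apply_symm_apply]
  · intro x y hxy
    have hxy' : ∀ v, g ((x : (K × W × K) ≃ₗ[K] (K × W × K)) v) =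
        ((z * y * z⁻¹ : SUG (hyp θ h)) : (K × W × K) ≃ₗ[K] (K × W × K)) (g v) := by
      intro v
      have h3 := hxy v
      change (z : (K × W × K) ≃ₗ[K] (K × W × K)).symm (g _) = (y : (K × W × K) ≃ₗ[K] (K × W × K))
        ((z : (K × W × K) ≃ₗ[K] (K × W × K)).symm (g v)) at h3
      rw [LinearEquiv.symm_apply_eq] at h3
      exact h3
    have h4 := step3 _ _ hxy'
    rw [hβ, MulAut.mul_apply, MulAut.conj_apply, map_mul, map_mul, map_inv] at h4
    have h5 := mul_right_cancel h4
    exact mul_left_cancel h5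

end Aut

end Vale.Agent.P180.R2.H589.Un
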