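import Vale.Agent.P180.R2.H589.Un.Ref
import Vale.Agent.P180.R2.H589.Un.Au4

/-!
P180: the Schur multiplier of a special unitary group over a finite field has order prime to the
characteristic.
-/

set_option linter.all false

namespace Vale.Agent.P180.R2.H589.Un

open Subgroup Module
open Vale.Agent.P180.R2.H589.Sch
open Vale.Agent.P180.R2.H589.Sp (oo oo_ne finite_gl cj SM)
open scoped commutatorElement Pointwise

section Step

variable {K : Type} [Field K] [Finite K] {W : Type} [AddCommGroup W] [Module K W]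
  {θ : K ≃+* K} {h : W → W → K}

/-- the stabiliser of the first line in the special unitary group -/
noncomputable def GU (θ : K ≃+* K) (h : W → W → K) : Subgroup ((K × W × K) ≃ₗ[K] (K × W × K)) :=
  StU θ h ⊓ SUG (hyp θ h)

variable (hθ : Iv θ) (hB : Hm θ h)

/-- the elements of the radical -/
def qs (hB : Hm θ h) {y : W} {c : K} (hc : c + θ c + h y y = 0) : GU θ h :=
  ⟨qq hB y c, qq_St hB hc, qq_mem hB hc, by
    haveI hp : Fact (ringChar K).Prime := ⟨CharP.char_is_prime K (ringChar K)⟩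
    exact det_pel (p := ringChar K) (qq_pel hB y c)⟩

theorem qs_val {y : W} {c : K} (hc : c + θ c + h y y = 0) :
    (qs hB hc : (K × W × K) ≃ₗ[K] (K × W × K)) = qq hB y c := rfl

include hB in
omit [Finite K] in
theorem qs_cond {y y' : W} {c c' : K} (hc : c + θ c + h y y = 0)
    (hc' : c' + θ c' + h y' y' = 0) :
    (c + c' - h y' y) + θ (c + c' - h y' y) + h (y + y') (y + y') = 0 := by
  rw [map_sub, map_add, ← hB.herm, hB.addl, hB.addr, hB.addr]
  linear_combination hc + hc'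

theorem qs_mul {y y' : W} {c c' : K} (hc : c + θ c + h y y = 0)
    (hc' : c' + θ c' + h y' y' = 0) :
    qs hB hc * qs hB hc' = qs hB (qs_cond hB hc hc') := Subtype.ext (qq_mul hB y y' c c')

/-- Levi elements -/
def ls (hθ : Iv θ) [Module.Finite K W] {m : W ≃ₗ[K] W} (hm : m ∈ UG h) {l : Kˣ}
    (hl : (l : K) * (θ (l : K))⁻¹ * (LinearEquiv.det m : Kˣ) = 1) : GU θ h :=
  ⟨lv θ m l, lv_St hm hθ l, lv_mem hm hθ l, by
    change LinearEquiv.det _ = 1
    rw [lv_det_val]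
    exact hl⟩

theorem ls_val [Module.Finite K W] {m : W ≃ₗ[K] W} (hm : m ∈ UG h) {l : Kˣ}
    (hl : (l : K) * (θ (l : K))⁻¹ * (LinearEquiv.det m : Kˣ) = 1) :
    (ls hθ hm hl : (K × W × K) ≃ₗ[K] (K × W × K)) = lv θ m l := rfl

theorem ls_qs [Module.Finite K W] {m : W ≃ₗ[K] W} (hm : m ∈ UG h) {l : Kˣ}
    (hl : (l : K) * (θ (l : K))⁻¹ * (LinearEquiv.det m : Kˣ) = 1) {y : W} {c : K}
    (hc : c + θ c + h y y = 0)
    (hc' : (l : K) * θ (l : K) * c + θ ((l : K) * θ (l : K) * c) +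
      h (θ (l : K) • m y) (θ (l : K) • m y) = 0) :
    ls hθ hm hl * qs hB hc * (ls hθ hm hl)⁻¹ = qs hB hc' :=
  Subtype.ext (lv_qq hB hm hθ l y c)

include hB in
omit [Finite K] in
theorem lq_cond (hθ : Iv θ) {m : W ≃ₗ[K] W} (hm : m ∈ UG h) (l : Kˣ) {y : W} {c : K}
    (hc : c + θ c + h y y = 0) : (l : K) * θ (l : K) * c + θ ((l : K) * θ (l : K) * c) +
      h (θ (l : K) • m y) (θ (l : K) • m y) = 0 := by
  rw [map_mul, map_mul, hθ.inv, hB.sml, hB.smr, hθ.inv, mem_UG.mp hm]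
  linear_combination (l : K) * θ (l : K) * hc

/-- the centre of the radical -/
def ZQ (hB : Hm θ h) : Subgroup (GU θ h) where
  carrier := {g | ∃ c, (g : (K × W × K) ≃ₗ[K] (K × W × K)) = qq hB 0 c}
  one_mem' := ⟨0, (qq_zero hB).symm⟩
  mul_mem' := by
    rintro a b ⟨c, hc⟩ ⟨d, hd⟩
    refine ⟨c + d, ?_⟩
    rw [Subgroup.coe_mul, hc, hd, qq_mul, hB.zl, sub_zero, add_zero]
  inv_mem' := by
    rintro a ⟨c, hc⟩
    refine ⟨-c, ?_⟩
    rw [Subgroup.coe_inv, hc, qq_inv, neg_zero, hB.zl, sub_zero]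

theorem mem_ZQ {g : GU θ h} :
    g ∈ ZQ hB ↔ ∃ c, (g : (K × W × K) ≃ₗ[K] (K × W × K)) = qq hB 0 c := Iff.rfl

/-- elements of the radical -/
def IsQ (hB : Hm θ h) (g : GU θ h) (y : W) : Prop :=
  ∃ c, (g : (K × W × K) ≃ₗ[K] (K × W × K)) = qq hB y c

theorem IsQ.cond {g : GU θ h} {y : W} {c : K}
    (hg : (g : (K × W × K) ≃ₗ[K] (K × W × K)) = qq hB y c) : c + θ c + h y y = 0 := by
  have h1 := g.2.2.1
  rw [hg] at h1
  exact cond_of_mem hB h1

theorem IsQ.mul {a b : GU θ h} {y y' : W} (ha : IsQ hB a y) (hb : IsQ hB b y') :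
    IsQ hB (a * b) (y + y') := by
  obtain ⟨c, hc⟩ := ha
  obtain ⟨d, hd⟩ := hb
  exact ⟨_, by rw [Subgroup.coe_mul, hc, hd, qq_mul]⟩

theorem IsQ.inv {a : GU θ h} {y : W} (ha : IsQ hB a y) : IsQ hB a⁻¹ (-y) := by
  obtain ⟨c, hc⟩ := ha
  exact ⟨_, by rw [Subgroup.coe_inv, hc, qq_inv]⟩

theorem isQ_zero {a : GU θ h} : IsQ hB a 0 ↔ a ∈ ZQ hB := Iff.rfl

theorem IsQ.inj {a : GU θ h} {y y' : W} (ha : IsQ hB a y) (hb : IsQ hB a y') : y = y' := by
  obtain ⟨c, hc⟩ := ha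
  obtain ⟨d, hd⟩ := hb
  rw [hc] at hd
  exact (qq_inj hB hd).1

include hθ in
theorem exists_isQ (y : W) : ∃ g : GU θ h, IsQ hB g y := by
  obtain ⟨c, hc⟩ := exists_cond hB hθ y
  exact ⟨qs hB hc, c, rfl⟩

theorem IsQ.conj [Module.Finite K W] {a g : GU θ h} {y : W} (ha : IsQ hB a y)
    {m : W ≃ₗ[K] W} (hm : m ∈ UG h) {l : Kˣ}
    (hg : (g : (K × W × K) ≃ₗ[K] (K × W × K)) = lv θ m l) (hθ : Iv θ) :
    IsQ hB (g * a * g⁻¹) (θ (l : K) • m y) := by
  obtain ⟨c, hc⟩ := ha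
  exact ⟨_, by rw [Subgroup.coe_mul, Subgroup.coe_mul, Subgroup.coe_inv, hc, hg, lv_qq hB hm hθ]⟩

/-- commuting with the centre of the radical -/
theorem isQ_comm {a b : GU θ h} {y : W} (ha : IsQ hB a y) (hb : IsQ hB b 0) : a * b = b * a := by
  obtain ⟨c, hc⟩ := ha
  obtain ⟨d, hd⟩ := hb
  apply Subtype.ext
  rw [Subgroup.coe_mul, Subgroup.coe_mul, hc, hd, qq_mul, qq_mul, hB.zl, hB.zr, add_zero, zero_add]
  congr 1
  ring

/-- the Levi quotient -/
def LV (θ : K ≃+* K) (h : W → W → K) : Subgroup (Kˣ × UG h) where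
  carrier := {w | (w.1 : K) * (θ (w.1 : K))⁻¹ *
    (LinearEquiv.det (w.2 : W ≃ₗ[K] W) : Kˣ) = 1}
  one_mem' := by
    change ((1 : Kˣ) : K) * (θ ((1 : Kˣ) : K))⁻¹ *
      (LinearEquiv.det ((1 : UG h) : W ≃ₗ[K] W) : Kˣ) = 1
    rw [Subgroup.coe_one, map_one, Units.val_one, map_one, inv_one, mul_one, mul_one]
  mul_mem' := by
    rintro a b ha hb
    change ((a.1 * b.1 : Kˣ) : K) * (θ ((a.1 * b.1 : Kˣ) : K))⁻¹ *
      (LinearEquiv.det ((a.2 * b.2 : UG h) : W ≃ₗ[K] W) : Kˣ) = 1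
    change (a.1 : K) * (θ (a.1 : K))⁻¹ * (LinearEquiv.det (a.2 : W ≃ₗ[K] W) : Kˣ) = 1 at ha
    change (b.1 : K) * (θ (b.1 : K))⁻¹ * (LinearEquiv.det (b.2 : W ≃ₗ[K] W) : Kˣ) = 1 at hb
    rw [Subgroup.coe_mul, map_mul, Units.val_mul, map_mul, mul_inv, Units.val_mul]
    calc _ = ((a.1 : K) * (θ (a.1 : K))⁻¹ * (LinearEquiv.det (a.2 : W ≃ₗ[K] W) : Kˣ)) *
          ((b.1 : K) * (θ (b.1 : K))⁻¹ * (LinearEquiv.det (b.2 : W ≃ₗ[K] W) : Kˣ)) := by ring
      _ = 1 := by rw [ha, hb, one_mul]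
  inv_mem' := by
    rintro a ha
    change ((a.1⁻¹ : Kˣ) : K) * (θ ((a.1⁻¹ : Kˣ) : K))⁻¹ *
      (LinearEquiv.det ((a.2⁻¹ : UG h) : W ≃ₗ[K] W) : Kˣ) = 1
    change (a.1 : K) * (θ (a.1 : K))⁻¹ * (LinearEquiv.det (a.2 : W ≃ₗ[K] W) : Kˣ) = 1 at ha
    rw [Subgroup.coe_inv, map_inv, Units.val_inv_eq_inv_val, map_inv₀, Units.val_inv_eq_inv_val,
      ← mul_inv, ← mul_inv, ha, inv_one]

theorem mem_LV {w : Kˣ × UG h} : w ∈ LV θ h ↔ (w.1 : K) * (θ (w.1 : K))⁻¹ *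
    (LinearEquiv.det (w.2 : W ≃ₗ[K] W) : Kˣ) = 1 := Iff.rfl

/-- the Levi quotient -/
noncomputable def toL0 (hB : Hm θ h) : GU θ h →* Kˣ × UG h :=
  ((lam θ h).prod (bl hB)).comp (Subgroup.inclusion inf_le_left)

theorem toL0_apply (g : GU θ h) : toL0 hB g = (lam θ h ⟨g, g.2.1⟩, bl hB ⟨g, g.2.1⟩) := rfl

theorem toL0_mem (hθ : Iv θ) [Module.Finite K W] (g : GU θ h) : toL0 hB g ∈ LV θ h := by
  haveI hp : Fact (ringChar K).Prime := ⟨CharP.char_is_prime K (ringChar K)⟩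
  rw [mem_LV, toL0_apply]
  change ((lam θ h ⟨g, g.2.1⟩ : Kˣ) : K) * (θ ((lam θ h ⟨g, g.2.1⟩ : Kˣ) : K))⁻¹ *
    (LinearEquiv.det (bl hB ⟨g, g.2.1⟩ : W ≃ₗ[K] W) : Kˣ) = 1
  rw [← det_St hB hθ (ringChar K) ⟨g, g.2.1⟩]
  exact congrArg Units.val g.2.2.2

/-- the Levi quotient -/
noncomputable def toLV (hθ : Iv θ) (hB : Hm θ h) [Module.Finite K W] : GU θ h →* LV θ h :=
  (toL0 hB).codRestrict (LV θ h) (toL0_mem hB hθ)

variable [Module.Finite K W]

theorem toLV_fst (g : GU θ h) : ((toLV hθ hB g : LV θ h) : Kˣ × UG h).1 =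
    lam θ h ⟨g, g.2.1⟩ := rfl

theorem toLV_snd (g : GU θ h) : ((toLV hθ hB g : LV θ h) : Kˣ × UG h).2 =
    bl hB ⟨g, g.2.1⟩ := rfl

theorem toLV_surj : Function.Surjective (toLV hθ hB) := by
  rintro ⟨⟨l, m⟩, hl⟩
  refine ⟨ls hθ m.2 hl, ?_⟩
  apply Subtype.ext
  refine Prod.ext (lam_lv m.2 hθ l) ?_
  apply Subtype.ext
  apply LinearEquiv.ext
  intro x
  rfl

theorem toLV_eq_one {g : GU θ h} : toLV hθ hB g = 1 ↔ ∃ y, IsQ hB g y := by
  constructor
  · intro hg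
    have h1 := congrArg (fun w : LV θ h => (w : Kˣ × UG h)) hg
    obtain ⟨y, c, hc, h2⟩ := exists_qq hB (congrArg Prod.snd h1) (congrArg Prod.fst h1)
    exact ⟨y, c, h2⟩
  · rintro ⟨y, c, hc⟩
    apply Subtype.ext
    refine Prod.ext ?_ ?_
    · change lam θ h ⟨g, g.2.1⟩ = 1
      apply Units.ext
      rw [lam_val]
      change ((g : (K × W × K) ≃ₗ[K] (K × W × K)) (oo K W)).1 = 1
      rw [hc, qq_oo]
      rfl
    · change bl hB ⟨g, g.2.1⟩ = 1
      apply Subtype.ext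
      apply LinearEquiv.ext
      intro x
      rw [bl_apply]
      change ((g : (K × W × K) ≃ₗ[K] (K × W × K)) (0, x, 0)).2.1 = x
      rw [hc, qq_apply]
      change x + (0 : K) • y = x
      rw [zero_smul, add_zero]

include hθ in
theorem ZQ_normal : (ZQ hB).Normal := by
  refine ⟨?_⟩
  intro a ha g
  obtain ⟨y, d, hd, hg⟩ := exists_decomp hB hθ ⟨g, g.2.1⟩
  obtain ⟨m, hm⟩ : ∃ m, m = bl hB ⟨(g : (K × W × K) ≃ₗ[K] (K × W × K)), g.2.1⟩ := ⟨_, rfl⟩
  obtain ⟨l, hl⟩ : ∃ l, l = lam θ h ⟨(g : (K × W × K) ≃ₗ[K] (K × W × K)), g.2.1⟩ := ⟨_, rfl⟩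
  rw [← hm, ← hl] at hg
  change (g : (K × W × K) ≃ₗ[K] (K × W × K)) = lv θ (m : W ≃ₗ[K] W) l * qq hB y d at hg
  have h1 : ((g * (qs hB hd)⁻¹ : GU θ h) : (K × W × K) ≃ₗ[K] (K × W × K)) =
      lv θ (m : W ≃ₗ[K] W) l := by
    rw [Subgroup.coe_mul, Subgroup.coe_inv, hg, qs_val, mul_inv_cancel_right]
  have h2 : qs hB hd * a = a * qs hB hd := isQ_comm hB ⟨d, rfl⟩ ha
  have h3 : g * a * g⁻¹ = (g * (qs hB hd)⁻¹) * a * (g * (qs hB hd)⁻¹)⁻¹ := by
    calc g * a * g⁻¹ = (g * (qs hB hd)⁻¹) * (qs hB hd * a) * g⁻¹ := by group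
      _ = (g * (qs hB hd)⁻¹) * a * (g * (qs hB hd)⁻¹)⁻¹ := by rw [h2]; group
  rw [h3]
  have h4 := IsQ.conj hB (y := 0) ha m.2 h1 hθ
  rw [map_zero, smul_zero] at h4
  exact h4

end Step

section Main

variable {K : Type} [Field K] [Finite K] {θ : K ≃+* K} {p : ℕ} [Fact p.Prime] [CharP K p]

variable {W : Type} [AddCommGroup W] [Module K W] [Module.Finite K W] {h : W → W → K}
  (hθ : Iv θ) (hB : Hm θ h)

theorem SM_LV (ih : SM p (SUG h)) : SM p (LV θ h) := by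
  let F : LV θ h →* Kˣ := (MonoidHom.fst Kˣ (UG h)).comp (LV θ h).subtype
  have h1 : SM p F.ker := by
    refine SM.of_equiv (G := SUG h) ?_ ih
    exact
      { toFun := fun g => ⟨⟨(1, ⟨(g : W ≃ₗ[K] W), g.2.1⟩), by
          rw [mem_LV, Units.val_one, map_one, inv_one, mul_one, one_mul]
          exact congrArg Units.val g.2.2⟩, rfl⟩
        invFun := fun w => ⟨(((w : LV θ h) : Kˣ × UG h).2 : W ≃ₗ[K] W), by
          refine ⟨((w : LV θ h) : Kˣ × UG h).2.2, ?_⟩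
          have h2 := mem_LV.mp (w : LV θ h).2
          have h3 : ((w : LV θ h) : Kˣ × UG h).1 = 1 := w.2
          rw [h3, Units.val_one, map_one, inv_one, mul_one, one_mul] at h2
          exact Units.ext h2⟩
        left_inv := fun g => rfl
        right_inv := fun w => Subtype.ext (Subtype.ext (Prod.ext
          (show (1 : Kˣ) = ((w : LV θ h) : Kˣ × UG h).1 from (MonoidHom.mem_ker.mp w.2).symm) rfl))
        map_mul' := fun g g' => Subtype.ext (Subtype.ext (Prod.ext (one_mul 1).symm rfl)) }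
  refine SM.of_index ?_ h1
  rw [index_ker]
  intro hd
  exact Sp.not_dvd_units (K := K) (p := p) (hd.trans (card_subgroup_dvd_card _))

/-- the coefficient of an element over the centre -/
theorem comm_of_comm_eq {E : Type*} [Group E] {x u v : E} (h1 : ⁅x, u⁆ ∈ center E)
    (h2 : ⁅x, v⁆ = ⁅x, u⁆) : x * (u⁻¹ * v) = (u⁻¹ * v) * x := by
  obtain ⟨a, ha⟩ : ∃ a, a = ⁅x, u⁆ := ⟨_, rfl⟩
  rw [← ha] at h1 h2
  have hac := fun g => mem_center_iff.mp h1 g
  have e1 : x * u = a * u * x := by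
    rw [ha, commutatorElement_def]
    group
  have e2 : x * v = a * v * x := by
    rw [← h2, commutatorElement_def]
    group
  have e3 : x * u⁻¹ = a⁻¹ * (u⁻¹ * x) := by
    have e4 : u * (x * u⁻¹) = a⁻¹ * x := by
      have e5 : u * x = a⁻¹ * (x * u) := by rw [e1]; group
      calc u * (x * u⁻¹) = (u * x) * u⁻¹ := by group
        _ = a⁻¹ * x := by rw [e5]; group
    calc x * u⁻¹ = u⁻¹ * (u * (x * u⁻¹)) := by group
      _ = u⁻¹ * (a⁻¹ * x) := by rw [e4]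
      _ = (u⁻¹ * a⁻¹) * x := by group
      _ = (a⁻¹ * u⁻¹) * x := by
        have : u⁻¹ * a⁻¹ = a⁻¹ * u⁻¹ := by
          rw [← mul_inv_rev, ← mul_inv_rev, hac u]
        rw [this]
      _ = a⁻¹ * (u⁻¹ * x) := by group
  calc x * (u⁻¹ * v) = (x * u⁻¹) * v := by group
    _ = a⁻¹ * u⁻¹ * (x * v) := by rw [e3]; group
    _ = a⁻¹ * (u⁻¹ * a) * v * x := by rw [e2]; group
    _ = a⁻¹ * (a * u⁻¹) * v * x := by rw [hac u⁻¹]
    _ = (u⁻¹ * v) * x := by group

omit [Fact p.Prime] [CharP K p] in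
include hθ in
/-- The lifts of the centre of the radical commute with the lifts of the radical. -/
theorem zc (hF : 9 < Nat.card (FF θ)) {E : Type*} [Group E] {f : E →* GU θ h}
    (hf : Function.Surjective f) (hk : f.ker ≤ center E) {x q : E} (hx : IsQ hB (f x) 0)
    {y : W} (hq : IsQ hB (f q) y) : x * q = q * x := by
  obtain ⟨d, hd0, hd⟩ := exists_dl hθ
  have hcz : ∀ s : FF θ, (s : K) * d + θ ((s : K) * d) + h (0 : W) 0 = 0 := by
    intro s
    rw [map_mul, FF_coe, hd, hB.zl]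
    ring
  have h00 : ∀ {x q : E}, IsQ hB (f x) 0 → IsQ hB (f q) 0 → x * q = q * x := by
    intro x q hx hq
    obtain ⟨c, hc⟩ := hx
    obtain ⟨e, he⟩ := hq
    have hc1 := IsQ.cond hB hc
    have he1 := IsQ.cond hB he
    rw [hB.zl, add_zero] at hc1 he1
    obtain ⟨s, hs⟩ := eq_smul_dl hd0 hd (x := c) (eq_neg_of_add_eq_zero_right hc1)
    obtain ⟨t, ht⟩ := eq_smul_dl hd0 hd (x := e) (eq_neg_of_add_eq_zero_right he1)
    refine comm_of_squares (K := FF θ) hF hf hk (ρ := fun s => qs hB (hcz s))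
      (fun s t => ?_) (fun m hm => ?_) (s := s) (t := t) (Subtype.ext (by rw [hc, hs]; rfl))
      (Subtype.ext (by rw [he, ht]; rfl))
    · apply Subtype.ext
      rw [Subgroup.coe_mul, qs_val, qs_val, qs_val, qq_mul, hB.zl, sub_zero, add_zero]
      congr 1
      change ((s : K) + (t : K)) * d = _
      ring
    · have hm0 : (m : K) ≠ 0 := fun h0 => hm (Subtype.ext h0)
      refine ⟨ls hθ (Subgroup.one_mem (UG h)) (l := Units.mk0 (m : K) hm0) (by
        rw [Units.val_mk0, FF_coe, map_one, Units.val_one, mul_one, mul_inv_cancel₀ hm0]),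
        fun s => ?_⟩
      apply Subtype.ext
      rw [Subgroup.coe_mul, Subgroup.coe_mul, Subgroup.coe_inv, ls_val, qs_val, qs_val,
        lv_qq hB (Subgroup.one_mem _) hθ, map_zero, smul_zero, Units.val_mk0, FF_coe]
      congr 1
      change (m : K) * (m : K) * ((s : K) * d) = (((m ^ 2 * s : FF θ)) : K) * d
      rw [Subfield.coe_mul, SubmonoidClass.coe_pow]
      ring
  -- the centraliser of the lifts of the centre
  obtain ⟨C, hC⟩ : ∃ C : Subgroup E, C = centralizer {x | IsQ hB (f x) 0} := ⟨_, rfl⟩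
  have hCmem : ∀ u, u ∈ C ↔ ∀ x, IsQ hB (f x) 0 → x * u = u * x := by
    intro u
    rw [hC, mem_centralizer_iff]
    exact Iff.rfl
  have hC0 : ∀ u, IsQ hB (f u) 0 → u ∈ C := fun u hu => (hCmem u).mpr fun x hx => h00 hx hu
  have hCone : ∀ {y : W} {u v : E}, u ∈ C → IsQ hB (f u) y → IsQ hB (f v) y → v ∈ C := by
    intro y u v hu hfu hfv
    have h1 : IsQ hB (f (u⁻¹ * v)) 0 := by
      have h2 := (hfu.inv hB).mul hB hfv
      rw [neg_add_cancel] at h2
      rw [map_mul, map_inv]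
      exact h2
    have h2 := C.mul_mem hu (hC0 _ h1)
    rwa [mul_inv_cancel_left] at h2
  have hP : ∀ y : W, h y y ≠ 0 → ∀ u, IsQ hB (f u) y → u ∈ C := by
    intro y hy u hu
    obtain ⟨ζ, hζ1, hζ3⟩ := exists_cube hθ (by omega)
    have hζ0 : ζ ≠ 0 := by
      rintro rfl
      rw [zero_mul] at hζ1
      exact zero_ne_one hζ1
    have hζθ : θ ζ = ζ⁻¹ := eq_inv_of_mul_eq_one_right hζ1
    -- `l = ζ`, the scalar on the line is `ζ⁻²`
    obtain ⟨t, ht0, ht⟩ := exists_scale hθ hB hy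
    have hμ0 : (ζ ^ 2)⁻¹ ≠ 0 := inv_ne_zero (pow_ne_zero 2 hζ0)
    have hμ1 : (ζ ^ 2)⁻¹ * θ (ζ ^ 2)⁻¹ = 1 := by
      rw [map_inv₀, map_pow, hζθ]
      field_simp
    obtain ⟨m, hmdef⟩ : ∃ m, m = rf hB ht hμ0 := ⟨_, rfl⟩
    have hm : m ∈ UG h := by rw [hmdef]; exact rf_mem hB ht hμ0 hμ1
    have hmy : m y = (ζ ^ 2)⁻¹ • y := by
      have h1 := rf_self hB ht hμ0
      rw [← hmdef, map_smul, smul_comm] at h1
      exact smul_right_injective W ht0 h1
    have hl : ((Units.mk0 ζ hζ0 : Kˣ) : K) * (θ ((Units.mk0 ζ hζ0 : Kˣ) : K))⁻¹ *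
        (LinearEquiv.det m : Kˣ) = 1 := by
      rw [hmdef, rf_det, Units.val_mk0, hζθ]
      field_simp
    obtain ⟨g, hg⟩ := hf (ls hθ hm hl)
    have hgv : ((f g : GU θ h) : (K × W × K) ≃ₗ[K] (K × W × K)) = lv θ m (Units.mk0 ζ hζ0) := by
      rw [hg]
      rfl
    -- `ζ⁻³`
    have hν : θ ((Units.mk0 ζ hζ0 : Kˣ) : K) * (ζ ^ 2)⁻¹ = (ζ ^ 3)⁻¹ := by
      rw [Units.val_mk0, hζθ]
      field_simp
    have hν1 : (ζ ^ 3)⁻¹ - 1 ≠ 0 := by
      intro h0
      exact hζ3 (inv_eq_one.mp (sub_eq_zero.mp h0))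
    obtain ⟨y', hy'⟩ : ∃ y', y' = ((ζ ^ 3)⁻¹ - 1)⁻¹ • y := ⟨_, rfl⟩
    obtain ⟨w, hw⟩ := exists_isQ hθ hB y'
    obtain ⟨v, hv⟩ := hf w
    rw [← hv] at hw
    have hcj : IsQ hB (f (g * v * g⁻¹)) ((ζ ^ 3)⁻¹ • y') := by
      have h1 := IsQ.conj hB hw hm hgv hθ
      have h2 : m y' = (ζ ^ 2)⁻¹ • y' := by
        rw [hy', map_smul, hmy, smul_comm]
      rw [h2, smul_smul, hν] at h1
      rw [map_mul, map_mul, map_inv]
      exact h1
    have hprod : IsQ hB (f (v⁻¹ * (g * v * g⁻¹))) y := by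
      have h1 := (hw.inv hB).mul hB hcj
      have h2 : -y' + (ζ ^ 3)⁻¹ • y' = y := by
        have h3 : -y' + (ζ ^ 3)⁻¹ • y' = ((ζ ^ 3)⁻¹ - 1) • y' := by module
        rw [h3, hy', smul_smul, mul_inv_cancel₀ hν1, one_smul]
      rw [h2, ← map_inv, ← map_mul] at h1
      exact h1
    refine hCone (u := v⁻¹ * (g * v * g⁻¹)) ?_ hprod hu
    rw [hCmem]
    intro x hx
    have hcomm : ∀ {a : E} {y : W}, IsQ hB (f a) y → ⁅x, a⁆ ∈ center E := by
      intro a y ha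
      apply hk
      rw [MonoidHom.mem_ker, map_commutatorElement, commutatorElement_eq_one_iff_mul_comm]
      exact (isQ_comm hB ha hx).symm
    refine comm_of_comm_eq (hcomm hw) ?_
    -- `g` centralises the centre of the radical
    have hgx : f (g * x * g⁻¹) = f x := by
      obtain ⟨c, hc⟩ := hx
      apply Subtype.ext
      rw [map_mul, map_mul, map_inv, Subgroup.coe_mul, Subgroup.coe_mul, Subgroup.coe_inv, hc,
        hgv, lv_qq hB hm hθ, map_zero, smul_zero, Units.val_mk0, hζ1, one_mul]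
    have hk1 : x⁻¹ * (g * x * g⁻¹) ∈ center E := by
      apply hk
      rw [MonoidHom.mem_ker, map_mul, map_inv, hgx, inv_mul_cancel]
    have h3 : ⁅x, g * v * g⁻¹⁆ = ⁅g * x * g⁻¹, g * v * g⁻¹⁆ := by
      have h4 : g * x * g⁻¹ = x * (x⁻¹ * (g * x * g⁻¹)) := by group
      rw [h4]
      obtain ⟨k, hk2⟩ : ∃ k, k = x⁻¹ * (g * x * g⁻¹) := ⟨_, rfl⟩
      rw [← hk2] at hk1 ⊢
      have h5 := mem_center_iff.mp hk1 ((g * v * g⁻¹))
      rw [commutatorElement_def, commutatorElement_def]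
      calc x * (g * v * g⁻¹) * x⁻¹ * (g * v * g⁻¹)⁻¹ =
          x * (g * v * g⁻¹) * (k * k⁻¹) * x⁻¹ * (g * v * g⁻¹)⁻¹ := by group
        _ = x * ((g * v * g⁻¹) * k) * k⁻¹ * x⁻¹ * (g * v * g⁻¹)⁻¹ := by group
        _ = x * (k * (g * v * g⁻¹)) * k⁻¹ * x⁻¹ * (g * v * g⁻¹)⁻¹ := by rw [h5]
        _ = x * k * (g * v * g⁻¹) * (x * k)⁻¹ * (g * v * g⁻¹)⁻¹ := by group
    have h6 : ⁅g * x * g⁻¹, g * v * g⁻¹⁆ = g * ⁅x, v⁆ * g⁻¹ := by
      rw [commutatorElement_def, commutatorElement_def]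
      group
    rw [h3, h6]
    have h7 := mem_center_iff.mp (hcomm hw) g
    rw [h7, mul_inv_cancel_right]
  -- all elements
  have hall : ∀ y : W, ∀ u, IsQ hB (f u) y → u ∈ C := by
    intro y u hu
    by_cases hy : h y y = 0
    · by_cases hy0 : y = 0
      · rw [hy0] at hu
        exact hC0 u hu
      obtain ⟨w, hw⟩ := exists_aniso hθ hB ⟨y, hy0⟩
      have h2 : ∃ t : K, θ t = t ∧ t ≠ 0 ∧ t * h w w + (h y w + h w y) ≠ 0 := by
        obtain ⟨μ, hμ, hμ1⟩ := exists_fix_ne hθ (by omega : 2 < Nat.card (FF θ))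
        by_cases h3 : h w w + (h y w + h w y) = 0
        · refine ⟨μ, hμ, μ.ne_zero, fun h4 => hμ1 ?_⟩
          have h5 : ((μ : K) - 1) * h w w = 0 := by linear_combination h4 - h3
          exact sub_eq_zero.mp ((mul_eq_zero.mp h5).resolve_right hw)
        · exact ⟨1, map_one θ, one_ne_zero, by rwa [one_mul]⟩
      obtain ⟨t, ht, ht0, htu⟩ := h2
      have h3 : h (y + t • w) (y + t • w) ≠ 0 := by
        rw [hB.addl, hB.addr, hB.addr, hB.sml, hB.sml, hB.smr, hB.smr, hy, ht]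
        have : (0 : K) + t * h y w + (t * h w y + t * (t * h w w)) =
            t * (t * h w w + (h y w + h w y)) := by ring
        rw [this]
        exact mul_ne_zero ht0 htu
      have h4 : h (-(t • w)) (-(t • w)) ≠ 0 := by
        rw [hB.negl, hB.negr, neg_neg, hB.sml, hB.smr, ht]
        exact mul_ne_zero ht0 (mul_ne_zero ht0 hw)
      obtain ⟨a, ha⟩ := exists_isQ hθ hB (y + t • w)
      obtain ⟨b, hb⟩ := exists_isQ hθ hB (-(t • w))
      obtain ⟨a, rfl⟩ := hf a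
      obtain ⟨b, rfl⟩ := hf b
      have h5 : IsQ hB (f (a * b)) y := by
        have h6 := ha.mul hB hb
        rw [add_neg_cancel_right, ← map_mul] at h6
        exact h6
      exact hCone (C.mul_mem (hP _ h3 _ ha) (hP _ h4 _ hb)) h5 hu
    · exact hP y hy u hu
  exact (hCmem q).mp (hall y q hq) x hx

include hθ hB

theorem SM_GU (hF : 9 < Nat.card (FF θ)) (ih : SM p (SUG h)) : SM p (GU θ h) := by
  haveI : Finite W := Module.finite_of_finite K
  haveI : Finite ((K × W × K) ≃ₗ[K] (K × W × K)) := finite_gl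
  haveI := ZQ_normal hθ hB
  obtain ⟨μ, hμ, hμ2⟩ := exists_fix_sq hθ (by omega : 3 < Nat.card (FF θ))
  have hμ1 : (μ : K) ≠ 1 := by
    intro h0
    rw [h0, one_pow] at hμ2
    exact hμ2 rfl
  have hμl : (μ : K) * (θ (μ : K))⁻¹ * (LinearEquiv.det (1 : W ≃ₗ[K] W) : Kˣ) = 1 := by
    rw [hμ, map_one, Units.val_one, mul_one, mul_inv_cancel₀ μ.ne_zero]
  obtain ⟨τ, hτ⟩ : ∃ τ : GU θ h, τ = ls hθ (Subgroup.one_mem (UG h)) hμl := ⟨_, rfl⟩
  have hτv : (τ : (K × W × K) ≃ₗ[K] (K × W × K)) = lv θ 1 μ := by rw [hτ]; rfl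
  have hτL : ∀ w : LV θ h, (toLV hθ hB τ)⁻¹ * w * toLV hθ hB τ * w⁻¹ = 1 := by
    intro w
    apply Subtype.ext
    have h1 : ((toLV hθ hB τ : LV θ h) : Kˣ × UG h) = (μ, 1) := by
      refine Prod.ext ?_ ?_
      · change lam θ h ⟨τ, τ.2.1⟩ = μ
        apply Units.ext
        rw [lam_val]
        change ((τ : (K × W × K) ≃ₗ[K] (K × W × K)) (oo K W)).1 = μ
        rw [hτv, lv_oo]
        exact mul_one _
      · change bl hB ⟨τ, τ.2.1⟩ = 1
        apply Subtype.ext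
        apply LinearEquiv.ext
        intro x
        rw [bl_apply]
        change ((τ : (K × W × K) ≃ₗ[K] (K × W × K)) (0, x, 0)).2.1 = x
        rw [hτv]
        rfl
    rw [Subgroup.coe_mul, Subgroup.coe_mul, Subgroup.coe_mul, Subgroup.coe_inv,
      Subgroup.coe_inv, h1]
    refine Prod.ext ?_ ?_
    · change μ⁻¹ * (w : Kˣ × UG h).1 * μ * ((w : Kˣ × UG h).1)⁻¹ = 1
      rw [mul_comm μ⁻¹, inv_mul_cancel_right, mul_inv_cancel]
    · change 1⁻¹ * (w : Kˣ × UG h).2 * 1 * ((w : Kˣ × UG h).2)⁻¹ = 1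
      rw [inv_one, one_mul, mul_one, mul_inv_cancel]
  have hcl : ∀ {a b : GU θ h} {y : W}, IsQ hB a y → IsQ hB b y →
      QuotientGroup.mk' (ZQ hB) a = QuotientGroup.mk' (ZQ hB) b := by
    intro a b y ha hb
    have h1 : IsQ hB (a⁻¹ * b) 0 := by
      have h2 := (ha.inv hB).mul hB hb
      rwa [neg_add_cancel] at h2
    exact QuotientGroup.eq.mpr h1
  -- second step
  have hstep2 : SM p (GU θ h ⧸ ZQ hB) := by
    have hφ0 : ZQ hB ≤ (toLV hθ hB).ker := by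
      intro a ha
      exact (toLV_eq_one hθ hB).mpr ⟨0, ha⟩
    let φ : GU θ h ⧸ ZQ hB →* LV θ h := QuotientGroup.lift _ (toLV hθ hB) hφ0
    have hφ : ∀ g, φ (QuotientGroup.mk' (ZQ hB) g) = toLV hθ hB g := fun g => rfl
    have hker : ∀ n, φ n = 1 → ∃ g y, IsQ hB g y ∧ n = QuotientGroup.mk' (ZQ hB) g := by
      intro n hn
      obtain ⟨g, rfl⟩ := QuotientGroup.mk'_surjective _ n
      obtain ⟨y, hy⟩ := (toLV_eq_one hθ hB).mp hn
      exact ⟨g, y, hy, rfl⟩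
    choose Q hQ using exists_isQ hθ hB
    refine SM.of_quot φ ?_ (SM_LV ih) ?_
    · intro w
      obtain ⟨g, hg⟩ := toLV_surj hθ hB w
      exact ⟨QuotientGroup.mk' (ZQ hB) g, hg⟩
    · intro E _ _ f hf hk
      obtain ⟨e, he⟩ := hf (QuotientGroup.mk' (ZQ hB) τ)
      have H1 : ∀ x y, φ (f x) = 1 → φ (f y) = 1 → x * y = y * x := by
        intro x y hx hy
        obtain ⟨g, a, ha, hxg⟩ := hker _ hx
        obtain ⟨g', b, hb, hyg⟩ := hker _ hy
        have hadd : ∀ (a : W) (s t : FF θ), QuotientGroup.mk' (ZQ hB) (Q ((s + t : FF θ) • a)) =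
            QuotientGroup.mk' (ZQ hB) (Q (s • a)) * QuotientGroup.mk' (ZQ hB) (Q (t • a)) := by
          intro a s t
          rw [← map_mul]
          refine hcl (hQ _) ?_
          rw [add_smul]
          exact (hQ _).mul hB (hQ _)
        have hT : ∀ (m : FF θ) (hm : (m : K) ≠ 0), ∃ t : GU θ h,
            (t : (K × W × K) ≃ₗ[K] (K × W × K)) = lv θ 1 (Units.mk0 (m : K) hm) := by
          intro m hm
          exact ⟨ls hθ (Subgroup.one_mem (UG h)) (l := Units.mk0 (m : K) hm)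
            (by rw [Units.val_mk0, FF_coe, map_one, Units.val_one, mul_one,
                mul_inv_cancel₀ hm]), rfl⟩
        have hcj : ∀ (m : FF θ) (hm : (m : K) ≠ 0) (t : GU θ h)
            (ht : (t : (K × W × K) ≃ₗ[K] (K × W × K)) = lv θ 1 (Units.mk0 (m : K) hm))
            (a : W) (s : FF θ), QuotientGroup.mk' (ZQ hB) t * QuotientGroup.mk' (ZQ hB)
            (Q (s • a)) * (QuotientGroup.mk' (ZQ hB) t)⁻¹ =
            QuotientGroup.mk' (ZQ hB) (Q ((m * s : FF θ) • a)) := by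
          intro m hm t ht a s
          rw [← map_inv, ← map_mul, ← map_mul]
          refine hcl (y := (m * s : FF θ) • a) ?_ (hQ _)
          have h1 := IsQ.conj hB (hQ (s • a)) (Subgroup.one_mem (UG h)) ht hθ
          rw [Units.val_mk0, FF_coe] at h1
          rw [mul_smul]
          exact h1
        refine Sp.comm_of_scalars (K := FF θ) (by omega) hf hk
          (ρ := fun s => QuotientGroup.mk' (ZQ hB) (Q (s • a)))
          (ρ' := fun s => QuotientGroup.mk' (ZQ hB) (Q (s • b))) (fun s t => hadd a s t)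
          (fun s t => hadd b s t) (fun s t => ?_) (fun m hm => ?_) (s := 1) (t := 1) ?_ ?_
        · rw [← map_mul, ← map_mul]
          refine hcl ((hQ _).mul hB (hQ _)) ?_
          rw [add_comm]
          exact (hQ _).mul hB (hQ _)
        · have hm0 : (m : K) ≠ 0 := fun h0 => hm (Subtype.ext h0)
          obtain ⟨t, ht⟩ := hT m hm0
          exact ⟨_, fun s => hcj m hm0 t ht a s, fun s => hcj m hm0 t ht b s⟩
        · rw [one_smul, hxg]
          exact hcl ha (hQ a)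
        · rw [one_smul, hyg]
          exact hcl hb (hQ b)
      refine ⟨e, H1, ?_, ?_⟩
      · intro n hn hnh
        obtain ⟨g, y, hy, rfl⟩ := hker n hn
        rw [he, ← map_mul, ← map_mul, eq_comm] at hnh
        have h1 : QuotientGroup.mk' (ZQ hB) (g⁻¹ * (τ * g * τ⁻¹)) = 1 := by
          rw [map_mul, map_mul, hnh, map_mul, map_inv, map_inv, mul_inv_cancel_right,
            inv_mul_cancel]
        have h2 : g⁻¹ * (τ * g * τ⁻¹) ∈ ZQ hB := (QuotientGroup.eq_one_iff _).mp h1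
        have h3 := (hy.inv hB).mul hB (IsQ.conj hB hy (Subgroup.one_mem (UG h)) hτv hθ)
        have h4 := IsQ.inj hB h3 h2
        have h5 : ((μ : K) - 1) • y = 0 := by
          have h6 : (-y + θ (μ : K) • y : W) = 0 := h4
          rw [hμ] at h6
          rw [sub_smul, one_smul, sub_eq_add_neg, add_comm]
          exact h6
        have h6 : y = 0 := (smul_eq_zero.mp h5).resolve_left (sub_ne_zero.mpr hμ1)
        rw [h6] at hy
        exact (QuotientGroup.eq_one_iff _).mpr hy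
      · intro x y hx
        refine H1 x _ hx ?_
        obtain ⟨g, hg⟩ := QuotientGroup.mk'_surjective _ (f y)
        rw [map_mul, map_mul, map_mul, map_mul, map_mul, map_mul, map_inv, map_inv, map_inv,
          map_inv, he, ← hg, hφ, hφ]
        exact hτL _
  refine SM.of_quot (QuotientGroup.mk' (ZQ hB)) (QuotientGroup.mk'_surjective _) hstep2 ?_
  intro E _ _ f hf hk
  obtain ⟨e, he⟩ := hf τ
  have hmem : ∀ g, QuotientGroup.mk' (ZQ hB) g = 1 → IsQ hB g 0 :=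
    fun g hg => (QuotientGroup.eq_one_iff g).mp hg
  refine ⟨e, ?_, ?_, ?_⟩
  · intro x y hx hy
    exact zc hθ hB hF hf hk (hmem _ hx) (hmem _ hy)
  · intro n hn hnh
    obtain ⟨c, hc⟩ := hmem _ hn
    rw [he, eq_comm, ← mul_inv_eq_iff_eq_mul] at hnh
    have h1 := congrArg Subtype.val hnh
    rw [Subgroup.coe_mul, Subgroup.coe_mul, Subgroup.coe_inv, hc, hτv,
      lv_qq hB (Subgroup.one_mem _) hθ] at h1
    have h2 := (qq_inj hB h1).2
    rw [hμ] at h2
    have h3 : ((μ : K) ^ 2 - 1) * c = 0 := by linear_combination h2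
    have h4 : c = 0 := (mul_eq_zero.mp h3).resolve_left (sub_ne_zero.mpr hμ2)
    apply Subtype.ext
    rw [hc, h4]
    exact qq_zero hB
  · intro x y hx
    obtain ⟨z, hz⟩ := (toLV_eq_one hθ hB (g := f (e⁻¹ * y * e * y⁻¹))).mp (by
      rw [map_mul, map_mul, map_mul, map_mul, map_mul, map_mul, map_inv, map_inv, map_inv,
        map_inv, he]
      exact hτL _)
    exact zc hθ hB hF hf hk (hmem _ hx) hz

end Main

end Vale.Agent.P180.R2.H589.Un
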