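import Vale.Agent.P180.R2.H589.Un.Ref
import Vale.Agent.P180.R2.H589.Sch.Cop
import Vale.Agent.P180.R2.H589.Sp.Mul

/-!
P180: central extensions of special unitary groups by groups of order prime to the characteristic:
the claim.
-/

set_option linter.all false

namespace Vale.Agent.P180.R2.H589.Un

open Subgroup Module
open Vale.Agent.P180.R2.H589.Sch

/-- The claim. -/
def CopU {K V : Type} [Field K] [AddCommGroup V] [Module K V] (p : ℕ) (h : V → V → K) : Prop :=
  ∀ (E : Type) [Group E] [Finite E] (f : E →* (V ≃ₗ[K] V)), (∀ g ∈ SUG h, ∃ y, f y = g) →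
    (∀ e, f e ∈ SUG h) → f.ker ≤ center E → ¬ p ∣ Nat.card f.ker →
    closure {x : E | Pel p x} = ⊤ → f.ker = ⊥

section Tr

variable {K V V' : Type} [Field K] [AddCommGroup V] [Module K V] [AddCommGroup V'] [Module K V']
  {h : V → V → K} {h' : V' → V' → K} {e : V ≃ₗ[K] V'}

/-- invariance under isometries -/
theorem CopU.congr {p : ℕ} (he : ∀ x y, h' (e x) (e y) = h x y) (hc : CopU p h) : CopU p h' := by
  intro E _ _ f hf hfU hk hp hgen
  have hker : ((Sp.cj e).symm.toMonoidHom.comp f).ker = f.ker := by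
    ext x
    rw [MonoidHom.mem_ker, MonoidHom.mem_ker]
    constructor
    · intro hx
      exact (MulEquiv.map_eq_one_iff (Sp.cj e).symm).mp hx
    · intro hx
      change (Sp.cj e).symm (f x) = 1
      rw [hx, map_one]
  rw [← hker]
  refine hc E ((Sp.cj e).symm.toMonoidHom.comp f) (fun g hg => ?_) (fun x => ?_)
    (by rw [hker]; exact hk) (by rw [hker]; exact hp) hgen
  · obtain ⟨y, hy⟩ := hf (Sp.cj e g) ((cj_mem_SUG he).mpr hg)
    refine ⟨y, ?_⟩
    change (Sp.cj e).symm (f y) = g
    rw [hy, MulEquiv.symm_apply_apply]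
  · change (Sp.cj e).symm (f x) ∈ SUG h
    rw [← cj_mem_SUG he, MulEquiv.apply_symm_apply]
    exact hfU x

end Tr

end Vale.Agent.P180.R2.H589.Un
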