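import Vale.Agent.P180.R2.H589.Un.CopDef
import Vale.Agent.P180.R2.H589.Sch.Sheets

/-!
P180: central extensions of special unitary groups: canonical lifts of the subgroups which fix the
orthogonal complement of a nondegenerate subspace.
-/

set_option linter.all false

namespace Vale.Agent.P180.R2.H589.Un

open Subgroup Module
open Vale.Agent.P180.R2.H589.Sch
open Vale.Agent.P180.R2.H589.Sp (finite_gl cj cj_apply cj_symm_apply)

section Ex

variable {K V : Type*} [Field K] [AddCommGroup V] [Module K V] {θ : K ≃+* K} {h : V → V → K}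
  [Finite K] [Module.Finite K V] (hB : Hm θ h) {U : Submodule K V} (hU : Nd h U)

/-- the orthogonal decomposition -/
noncomputable def decE : (U × pp hB U) ≃ₗ[K] V := (exists_dec hB hU).choose

theorem decE_apply (u : U × pp hB U) : decE hB hU u = (u.1 : V) + u.2 :=
  (exists_dec hB hU).choose_spec.1 u

theorem decE_form (u v : U × pp hB U) : h (decE hB hU u) (decE hB hU v) =
    h u.1 v.1 + h u.2 v.2 := (exists_dec hB hU).choose_spec.2 u v

/-- extension by the identity -/
noncomputable def ex : (U ≃ₗ[K] U) →* (V ≃ₗ[K] V) where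
  toFun g := cj (decE hB hU) (LinearEquiv.prodCongr g (LinearEquiv.refl K (pp hB U)))
  map_one' := by
    apply LinearEquiv.ext
    intro v
    rw [cj_apply]
    exact (decE hB hU).apply_symm_apply v
  map_mul' g g' := by
    rw [← map_mul]
    rfl

theorem ex_dec (g : U ≃ₗ[K] U) (u : U × pp hB U) :
    ex hB hU g (decE hB hU u) = decE hB hU (g u.1, u.2) := by
  change cj (decE hB hU) _ _ = _
  rw [cj_apply, LinearEquiv.symm_apply_apply]
  rfl

theorem ex_left (g : U ≃ₗ[K] U) (u : U) : ex hB hU g u = g u := by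
  have h1 := ex_dec hB hU g (u, 0)
  rw [decE_apply, decE_apply] at h1
  change ex hB hU g ((u : V) + ((0 : pp hB U) : V)) = (g u : V) + ((0 : pp hB U) : V) at h1
  rwa [Submodule.coe_zero, add_zero, add_zero] at h1

theorem ex_right (g : U ≃ₗ[K] U) {y : V} (hy : y ∈ pp hB U) : ex hB hU g y = y := by
  have h1 := ex_dec hB hU g (0, ⟨y, hy⟩)
  rw [decE_apply, decE_apply] at h1
  change ex hB hU g (((0 : U) : V) + y) = (g 0 : V) + y at h1
  rwa [map_zero, Submodule.coe_zero, zero_add] at h1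

theorem ex_inj : Function.Injective (ex hB hU) := by
  intro g g' hg
  apply LinearEquiv.ext
  intro u
  apply Subtype.ext
  rw [← ex_left hB hU, ← ex_left hB hU, hg]

theorem ex_det (g : U ≃ₗ[K] U) : LinearEquiv.det (ex hB hU g) = LinearEquiv.det g := by
  have h1 : LinearEquiv.det (ex hB hU g) =
      LinearEquiv.det (LinearEquiv.prodCongr g (LinearEquiv.refl K (pp hB U))) :=
    LinearEquiv.det_conj _ _
  rw [h1]
  apply Units.ext
  rw [LinearEquiv.coe_det, LinearEquiv.coe_det]
  have h2 : ((LinearEquiv.prodCongr g (LinearEquiv.refl K (pp hB U)) :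
      (U × pp hB U) ≃ₗ[K] (U × pp hB U)) : (U × pp hB U) →ₗ[K] (U × pp hB U)) =
      LinearMap.prodMap (g : U →ₗ[K] U) LinearMap.id := by
    apply LinearMap.ext
    intro u
    rfl
  rw [h2, LinearMap.det_prodMap, LinearMap.det_id, mul_one]

theorem ex_mem_UG {g : U ≃ₗ[K] U} : ex hB hU g ∈ UG h ↔ g ∈ UG (rs h U) := by
  constructor
  · intro hg x y
    change h (g x) (g y) = h x y
    rw [← ex_left hB hU, ← ex_left hB hU, mem_UG.mp hg]
  · intro hg x y
    obtain ⟨u, rfl⟩ := (decE hB hU).surjective x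
    obtain ⟨v, rfl⟩ := (decE hB hU).surjective y
    rw [ex_dec, ex_dec, decE_form hB hU, decE_form hB hU]
    have := hg u.1 v.1
    change h (g u.1) (g v.1) = h u.1 v.1 at this
    rw [this]

theorem ex_mem {g : U ≃ₗ[K] U} : ex hB hU g ∈ SUG h ↔ g ∈ SUG (rs h U) := by
  rw [mem_SUG, mem_SUG, ex_mem_UG, ex_det]

theorem exists_ex {g : V ≃ₗ[K] V} (hg : g ∈ SUG h) (hfix : ∀ y ∈ pp hB U, g y = y) :
    ∃ g' ∈ SUG (rs h U), ex hB hU g' = g := by
  have h1 : ∀ k ∈ SUG h, (∀ y ∈ pp hB U, k y = y) → ∀ u ∈ U, k u ∈ U := by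
    intro k hk hkf u hu
    rw [← pp_pp hB hU]
    intro y hy
    have h2 := mem_UG.mp hk.1 u y
    rw [hkf y hy] at h2
    rw [h2]
    exact hB.swap (hy u hu)
  have hfix' : ∀ y ∈ pp hB U, g⁻¹ y = y := by
    intro y hy
    have h2 := hfix y hy
    nth_rewrite 1 [← h2]
    exact g.symm_apply_apply y
  have hg' := (SUG h).inv_mem hg
  let g' : U ≃ₗ[K] U :=
    { toFun := fun u => ⟨g u, h1 g hg hfix u u.2⟩
      map_add' := fun x y => Subtype.ext (map_add g _ _)
      map_smul' := fun c x => Subtype.ext (map_smul g _ _)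
      invFun := fun u => ⟨g⁻¹ u, h1 g⁻¹ hg' hfix' u u.2⟩
      left_inv := fun u => Subtype.ext (g.symm_apply_apply u)
      right_inv := fun u => Subtype.ext (g.apply_symm_apply u) }
  have h2 : ex hB hU g' = g := by
    apply LinearEquiv.ext
    intro x
    obtain ⟨u, rfl⟩ := (decE hB hU).surjective x
    rw [ex_dec, decE_apply, decE_apply, map_add, hfix _ u.2.2]
    rfl
  exact ⟨g', by rw [← ex_mem hB hU, h2]; exact hg, h2⟩

end Ex

section PA

variable {K V E : Type*} [Field K] [AddCommGroup V] [Module K V] [Group E] {θ : K ≃+* K}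
  {h : V → V → K} {f : E →* (V ≃ₗ[K] V)} {p : ℕ}

/-- the subgroup generated by the `p`-elements over the isometries which fix all vectors orthogonal
to `A` -/
def PA (f : E →* (V ≃ₗ[K] V)) (p : ℕ) (h : V → V → K) (A : Set V) : Subgroup E :=
  closure {x | Pel p x ∧ ∀ y, (∀ a ∈ A, h y a = 0) → f x y = y}

theorem pa_fix {A : Set V} {x : E} (hx : x ∈ PA f p h A) {y : V} (hy : ∀ a ∈ A, h y a = 0) :
    f x y = y := by
  unfold PA at hx
  induction hx using closure_induction with
  | mem x hx => exact hx.2 y hy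
  | one => rw [map_one]; rfl
  | mul x x' _ _ h1 h2 => rw [map_mul, LinearEquiv.mul_apply, h2, h1]
  | inv x _ h1 => exact map_inv_eq h1

theorem pa_mono {A A' : Set V} (hA : ∀ y, (∀ a ∈ A', h y a = 0) → ∀ a ∈ A, h y a = 0) :
    PA f p h A ≤ PA f p h A' :=
  closure_mono fun x hx => ⟨hx.1, fun y hy => hx.2 y (hA y hy)⟩

theorem pa_le_pv (hB : Hm θ h) {A : Set V} {v : V} (hv : ∀ a ∈ A, h v a = 0) :
    PA f p h A ≤ Pv f p v :=
  closure_mono fun x hx => ⟨hx.1, hx.2 v hv⟩

theorem pa_conj (hfB : ∀ e, f e ∈ UG h) {A : Set V} {x : E} (hx : x ∈ PA f p h A) (e : E) :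
    e * x * e⁻¹ ∈ PA f p h (f e '' A) := by
  unfold PA at hx
  induction hx using closure_induction with
  | mem x hx =>
    refine subset_closure ⟨hx.1.conj e, fun y hy => ?_⟩
    have h1 : f x (f e⁻¹ y) = f e⁻¹ y := by
      apply hx.2
      intro a ha
      have h2 := hy _ ⟨a, ha, rfl⟩
      rw [← mem_UG.mp (hfB e⁻¹)] at h2
      rwa [map_inv_eq (f := f) (e := e) (v := a) rfl] at h2
    rw [map_mul, map_mul, LinearEquiv.mul_apply, LinearEquiv.mul_apply, h1,
      ← LinearEquiv.mul_apply, ← map_mul, mul_inv_cancel, map_one]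
    rfl
  | one => rw [mul_one, mul_inv_cancel]; exact Subgroup.one_mem _
  | mul x y _ _ hx hy =>
    have : e * (x * y) * e⁻¹ = (e * x * e⁻¹) * (e * y * e⁻¹) := by group
    rw [this]
    exact Subgroup.mul_mem _ hx hy
  | inv x _ hx =>
    have : e * x⁻¹ * e⁻¹ = (e * x * e⁻¹)⁻¹ := by group
    rw [this]
    exact Subgroup.inv_mem _ hx

theorem mem_pp_span (hB : Hm θ h) {A : Set V} {y : V} :
    y ∈ pp hB (Submodule.span K A) ↔ ∀ a ∈ A, h y a = 0 := by
  constructor
  · intro hy a ha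
    exact hy a (Submodule.subset_span ha)
  · intro hy a ha
    induction ha using Submodule.span_induction with
    | mem x hx => exact hy x hx
    | zero => exact hB.zr y
    | add x x' _ _ h1 h2 => rw [hB.addr, h1, h2, add_zero]
    | smul c x _ h1 => rw [hB.smr, h1, mul_zero]

end PA

section Lift

variable {K V E : Type} [Field K] [Finite K] [AddCommGroup V] [Module K V] [Module.Finite K V]
  [Group E] [Finite E] {θ : K ≃+* K} {h : V → V → K} {f : E →* (V ≃ₗ[K] V)} {p : ℕ}
  [Fact p.Prime] [CharP K p] (hθ : Iv θ) (hB : Hm θ h) (hF : 2 < Nat.card (FF θ))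
  (hk : f.ker ≤ center E) (hp : ¬ p ∣ Nat.card f.ker) (hr : ∀ g ∈ SUG h, ∃ y, f y = g)
  (hfB : ∀ e, f e ∈ SUG h)

include hθ hB hF hp hr in
omit [Finite E] in
/-- lifts of the isometries which fix the orthogonal complement -/
theorem pa_surj [Finite E] {A : Set V} (hA : Nd h (Submodule.span K A)) {g : V ≃ₗ[K] V}
    (hg : g ∈ SUG h) (hfix : ∀ y, (∀ a ∈ A, h y a = 0) → g y = y) :
    ∃ x ∈ PA f p h A, f x = g := by
  obtain ⟨g', hg', rfl⟩ := exists_ex hB hA hg (fun y hy => hfix y ((mem_pp_span hB).mp hy))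
  clear hg hfix
  rw [SUG_eq_TG hθ hF (rs_hm hB hA)] at hg'
  unfold TG at hg'
  induction hg' using closure_induction with
  | mem g' hg' =>
    obtain ⟨a, ha, c, hc, rfl⟩ := hg'
    have h1 : Pel p (ex hB hA (tU (rs_hm hB hA) ha c)) :=
      (tU_pel (p := p) (rs_hm hB hA) ha c).map _
    obtain ⟨q, hq, hfq⟩ := exists_pel (f := f) (p := p) hp h1
      (hr _ ((ex_mem hB hA).mpr (tU_mem_SUG (rs_hm hB hA) ha hc)))
    refine ⟨q, subset_closure ⟨hq, fun y hy => ?_⟩, hfq⟩
    rw [hfq]
    exact ex_right hB hA _ ((mem_pp_span hB).mpr hy)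
  | one => exact ⟨1, Subgroup.one_mem _, by rw [map_one, map_one]⟩
  | mul m m' _ _ h1 h2 =>
    obtain ⟨q, hq, hfq⟩ := h1
    obtain ⟨q', hq', hfq'⟩ := h2
    exact ⟨q * q', Subgroup.mul_mem _ hq hq', by rw [map_mul, hfq, hfq', map_mul]⟩
  | inv m _ h1 =>
    obtain ⟨q, hq, hfq⟩ := h1
    exact ⟨q⁻¹, Subgroup.inv_mem _ hq, by rw [map_inv, hfq, map_inv]⟩

theorem closure_sub {E : Type*} [Group E] {p : ℕ} {Q : E → Prop} {P : Subgroup E}
    (hP : P = closure {x | Pel p x ∧ Q x}) : closure {x : P | Pel p x} = ⊤ := by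
  rw [eq_top_iff]
  rintro ⟨y, hy⟩ -
  have key : ∀ (y : E) (hy : y ∈ closure {x | Pel p x ∧ Q x}) (hyP : y ∈ P),
      (⟨y, hyP⟩ : P) ∈ closure {x : P | Pel p x} := by
    intro y hy
    induction hy using closure_induction with
    | mem x hx =>
      intro hxP
      refine subset_closure ?_
      obtain ⟨m, hm⟩ := hx.1
      exact ⟨m, Subtype.ext hm⟩
    | one => intro hxP; exact Subgroup.one_mem _
    | mul x y hx hy ihx ihy =>
      intro hxP
      have hxP' : x ∈ P := by rw [hP]; exact hx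
      have hyP' : y ∈ P := by rw [hP]; exact hy
      have : (⟨x * y, hxP⟩ : P) = ⟨x, hxP'⟩ * ⟨y, hyP'⟩ := rfl
      rw [this]
      exact Subgroup.mul_mem _ (ihx hxP') (ihy hyP')
    | inv x hx ihx =>
      intro hxP
      have hxP' : x ∈ P := by rw [hP]; exact hx
      have : (⟨x⁻¹, hxP⟩ : P) = ⟨x, hxP'⟩⁻¹ := rfl
      rw [this]
      exact Subgroup.inv_mem _ (ihx hxP')
  exact key y (by rw [← hP]; exact hy) hy

include hθ hB hF hk hp hr hfB in
/-- The canonical lifts. -/
theorem pa_inj {A : Set V} (hA : Nd h (Submodule.span K A))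
    (hc : CopU p (rs h (Submodule.span K A))) {x : E} (hx : x ∈ PA f p h A) (hfx : f x = 1) :
    x = 1 := by
  obtain ⟨P, hP⟩ : ∃ P, P = PA f p h A := ⟨_, rfl⟩
  rw [← hP] at hx
  let r := MonoidHom.ofInjective (ex_inj hB hA)
  have hrange : ∀ y : P, f y ∈ (ex hB hA).range := by
    intro y
    have hy : (y : E) ∈ PA f p h A := by rw [← hP]; exact y.2
    obtain ⟨g', hg', h1⟩ := exists_ex hB hA (hfB y)
      (fun z hz => pa_fix hy ((mem_pp_span hB).mp hz))
    exact ⟨g', h1⟩
  let f₁ : P →* (ex hB hA).range := (f.comp P.subtype).codRestrict _ hrange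
  let F : P →* (Submodule.span K A ≃ₗ[K] Submodule.span K A) := r.symm.toMonoidHom.comp f₁
  have hF' : ∀ y : P, ex hB hA (F y) = f y := by
    intro y
    have h1 : r (F y) = f₁ y := r.apply_symm_apply _
    exact congrArg Subtype.val h1
  have hFker : ∀ y : P, y ∈ F.ker ↔ f (y : E) = 1 := by
    intro y
    rw [MonoidHom.mem_ker, ← hF']
    constructor
    · intro h1; rw [h1, map_one]
    · intro h1; exact ex_inj hB hA (by rw [h1, map_one])
  have hbot := hc P F (fun g hg => by
      obtain ⟨q, hq, hfq⟩ := pa_surj hθ hB hF hp hr hA (g := ex hB hA g) ((ex_mem hB hA).mpr hg)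
        (fun y hy => ex_right hB hA _ ((mem_pp_span hB).mpr hy))
      rw [← hP] at hq
      refine ⟨⟨q, hq⟩, ex_inj hB hA ?_⟩
      rw [hF']
      exact hfq) (fun y => by
      rw [← ex_mem hB hA, hF']
      exact hfB y) (fun y hy => by
      rw [mem_center_iff]
      intro z
      exact Subtype.ext (mem_center_iff.mp (hk (MonoidHom.mem_ker.mpr ((hFker y).mp hy))) z))
    (fun hd => by
      obtain ⟨w, hw⟩ := exists_prime_orderOf_dvd_card' p hd
      have h1 : f ((w : P) : E) = 1 := (hFker w).mp w.2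
      have h2 : w ^ p = 1 := by rw [← hw]; exact pow_orderOf_eq_one w
      have h3 : ((w : P) : E) = 1 := eq_one_of_pel_of_mem hp (MonoidHom.mem_ker.mpr h1)
        ⟨1, by
          rw [pow_one]
          have h4 : (w : P) ^ p = 1 := congrArg Subtype.val h2
          exact congrArg Subtype.val h4⟩
      have h4 : w = 1 := Subtype.ext (Subtype.ext h3)
      rw [h4, orderOf_one] at hw
      exact (Fact.out : p.Prime).one_lt.ne hw) (closure_sub (by rw [hP]; rfl))
  have h1 : (⟨x, hx⟩ : P) ∈ F.ker := (hFker _).mpr hfx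
  rw [hbot, mem_bot] at h1
  exact congrArg Subtype.val h1

include hθ hB hF hk hp hr hfB in
/-- elements of the canonical lifts which fix a vector -/
theorem pa_star {A : Set V} (hA : Nd h (Submodule.span K A))
    (hc : CopU p (rs h (Submodule.span K A))) {v : V} (hvA : v ∈ Submodule.span K A)
    (hv : h v v = 1) {x : E} (hx : x ∈ PA f p h A) (hfx : f x v = v) : x ∈ Pv f p v := by
  let U : Submodule K V :=
    { carrier := {u | u ∈ Submodule.span K A ∧ h u v = 0}
      zero_mem' := ⟨Submodule.zero_mem _, hB.zl v⟩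
      add_mem' := fun {a b} ha hb => ⟨Submodule.add_mem _ ha.1 hb.1, by
        rw [hB.addl, ha.2, hb.2, add_zero]⟩
      smul_mem' := fun c a ha => ⟨Submodule.smul_mem _ c ha.1, by
        rw [hB.sml, ha.2, mul_zero]⟩ }
  have hUmem : ∀ u, u ∈ U ↔ u ∈ Submodule.span K A ∧ h u v = 0 := fun u => Iff.rfl
  have hUspan : Submodule.span K (U : Set V) = U := Submodule.span_eq U
  have hproj : ∀ y ∈ Submodule.span K A, y - h y v • v ∈ U := by
    intro y hy
    refine (hUmem _).mpr ⟨Submodule.sub_mem _ hy (Submodule.smul_mem _ _ hvA), ?_⟩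
    rw [hB.subl, hB.sml, hv, mul_one, sub_self]
  have hU : Nd h U := by
    intro u hu huy
    refine hA u hu.1 fun y hy => ?_
    have h1 := huy _ (hproj y hy)
    rw [hB.subr, hB.smr, hu.2, mul_zero, sub_zero] at h1
    exact h1
  obtain ⟨x', hx', hfx'⟩ := pa_surj (f := f) (p := p) hθ hB hF hp hr (A := (U : Set V))
    (by rw [hUspan]; exact hU) (hfB x) (fun y hy => by
      have h1 : y - h y v • v ∈ pp hB (Submodule.span K A) := by
        intro a ha
        have h2 : a = (a - h a v • v) + h a v • v := by abel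
        rw [h2, hB.addr, hB.smr, hB.subl, hB.subl, hB.sml, hB.sml, hv,
          hy _ (hproj a ha)]
        have h3 : h v (a - h a v • v) = 0 := hB.swap (hproj a ha).2
        rw [h3]
        ring
      have h2 := pa_fix hx ((mem_pp_span hB).mp h1)
      rw [map_sub, map_smul, hfx] at h2
      exact sub_left_injective h2)
  have hle : PA f p h (U : Set V) ≤ PA f p h A := pa_mono fun y hy a ha =>
    (mem_pp_span hB).mpr hy a ha.1
  have h1 : x'⁻¹ * x = 1 := by
    refine pa_inj hθ hB hF hk hp hr hfB hA hc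
      (Subgroup.mul_mem _ (Subgroup.inv_mem _ (hle hx')) hx) ?_
    rw [map_mul, map_inv, hfx', inv_mul_cancel]
  rw [← inv_mul_eq_one.mp h1]
  exact pa_le_pv hB (fun a ha => hB.swap ha.2) hx'

end Lift

section Move

variable {K V : Type} [Field K] [Finite K] [AddCommGroup V] [Module K V] [Module.Finite K V]
  {θ : K ≃+* K} {h : V → V → K} (hθ : Iv θ) (hB : Hm θ h)

include hθ hB

/-- **Transitivity on the vectors of norm one.** -/
theorem exists_SUG_move (hd : 2 ≤ finrank K V) {v w : V} (hv : h v v = 1) (hw : h w w = 1) :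
    ∃ g ∈ SUG h, g v = w := by
  have hv0 : h v v ≠ 0 := by rw [hv]; exact one_ne_zero
  have hw0 : h w w ≠ 0 := by rw [hw]; exact one_ne_zero
  have h1 := finrank_pp_line hB hv0
  have h2 := finrank_pp_line hB hw0
  obtain ⟨ε, hε⟩ := exists_isom hθ (finrank K V - 1) _ _ _ _
    (rs_hm hB (nd_pp hB (nd_line hB hv0))) (rs_hm hB (nd_pp hB (nd_line hB hw0)))
    (by omega) (by omega)
  have hpr : ∀ x, x - h x v • v ∈ pp hB (Submodule.span K {v}) := by
    intro x
    rw [mem_pp_line, hB.subl, hB.sml, hv, mul_one, sub_self]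
  let e₀ : V →ₗ[K] V :=
    { toFun := fun x => h x v • w + (ε ⟨x - h x v • v, hpr x⟩ : V)
      map_add' := by
        intro x y
        have h3 : (⟨x + y - h (x + y) v • v, hpr (x + y)⟩ : pp hB (Submodule.span K {v})) =
            ⟨x - h x v • v, hpr x⟩ + ⟨y - h y v • v, hpr y⟩ := by
          apply Subtype.ext
          change x + y - h (x + y) v • v = (x - h x v • v) + (y - h y v • v)
          rw [hB.addl]
          module
        rw [h3, map_add, hB.addl, Submodule.coe_add]
        module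
      map_smul' := by
        intro c x
        have h3 : (⟨c • x - h (c • x) v • v, hpr (c • x)⟩ : pp hB (Submodule.span K {v})) =
            c • ⟨x - h x v • v, hpr x⟩ := by
          apply Subtype.ext
          change c • x - h (c • x) v • v = c • (x - h x v • v)
          rw [hB.sml]
          module
        rw [h3, map_smul, hB.sml, Submodule.coe_smul, RingHom.id_apply]
        module }
  have he₀ : ∀ x, e₀ x = h x v • w + (ε ⟨x - h x v • v, hpr x⟩ : V) := fun x => rfl
  have hiso : ∀ x y, h (e₀ x) (e₀ y) = h x y := by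
    intro x y
    obtain ⟨x', hx'⟩ : ∃ x' : pp hB (Submodule.span K {v}), x' = ⟨x - h x v • v, hpr x⟩ :=
      ⟨_, rfl⟩
    obtain ⟨y', hy'⟩ : ∃ y' : pp hB (Submodule.span K {v}), y' = ⟨y - h y v • v, hpr y⟩ :=
      ⟨_, rfl⟩
    have hxw : h (ε x' : V) w = 0 := (mem_pp_line hB).mp (ε x').2
    have hyw : h (ε y' : V) w = 0 := (mem_pp_line hB).mp (ε y').2
    have hxy : h (ε x' : V) (ε y') = h (x' : V) y' := hε x' y'
    rw [he₀, he₀, ← hx', ← hy', hB.addl, hB.addr, hB.addr, hB.sml, hB.sml, hB.smr, hB.smr, hw,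
      hxw, hB.swap hyw, hxy, hx', hy']
    change _ = h x y
    change h x v * (θ (h y v) * 1) + h x v * 0 + (θ (h y v) * 0 +
      h (x - h x v • v) (y - h y v • v)) = h x y
    rw [hB.subl, hB.subr, hB.subr, hB.sml, hB.sml, hB.smr, hB.smr, hv, ← hB.herm y v]
    ring
  have hinj : Function.Injective e₀ := by
    rw [injective_iff_map_eq_zero]
    intro x hx
    apply hB.nd
    intro y
    rw [← hiso, hx, hB.zl]
  haveI : Finite V := Module.finite_of_finite K
  obtain ⟨g, hg⟩ : ∃ g : V ≃ₗ[K] V, ∀ x, g x = e₀ x :=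
    ⟨LinearEquiv.ofBijective e₀ (Finite.injective_iff_bijective.mp hinj), fun x => rfl⟩
  have hgU : g ∈ UG h := fun x y => by rw [hg, hg, hiso]
  have hgv : g v = w := by
    rw [hg, he₀]
    have h3 : (⟨v - h v v • v, hpr v⟩ : pp hB (Submodule.span K {v})) = 0 := by
      apply Subtype.ext
      change v - h v v • v = 0
      rw [hv, one_smul, sub_self]
    rw [h3, map_zero, hv, one_smul, Submodule.coe_zero, add_zero]
  -- the determinant
  have hδ := nm_det hθ hB hgU
  obtain ⟨δ, hδd⟩ : ∃ δ : Kˣ, δ = LinearEquiv.det g := ⟨_, rfl⟩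
  rw [← hδd] at hδ
  have hδ' : (δ : K)⁻¹ * θ (δ : K)⁻¹ = 1 := by
    rw [map_inv₀, ← mul_inv, hδ, inv_one]
  obtain ⟨u, hu⟩ := exists_norm_one hθ (rs_hm hB (nd_pp hB (nd_line hB hw0))) (by omega)
  have hu1 : h (u : V) u = 1 := hu
  have huw : h w u = 0 := hB.swap ((mem_pp_line hB).mp u.2)
  refine ⟨rf hB hu1 (inv_ne_zero δ.ne_zero) * g, ⟨?_, ?_⟩, ?_⟩
  · exact Subgroup.mul_mem _ (rf_mem hB hu1 _ hδ') hgU
  · change LinearEquiv.det _ = 1
    rw [map_mul, ← hδd]
    apply Units.ext
    rw [Units.val_mul, rf_det, Units.val_one, inv_mul_cancel₀ δ.ne_zero]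
  · rw [LinearEquiv.mul_apply, hgv, rf_fix hB hu1 _ huw]

end Move

end Vale.Agent.P180.R2.H589.Un
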