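import Vale.Agent.P180.R2.H589.Un.Gen

/-!
P180: unitary groups: quasi-reflections, vectors of norm one.
-/

set_option linter.all false

namespace Vale.Agent.P180.R2.H589.Un

open Subgroup Module
open Vale.Agent.P180.R2.H589.Sch

section Ref

variable {K V : Type*} [Field K] [AddCommGroup V] [Module K V] {θ : K ≃+* K} {h : V → V → K}

/-- quasi-reflections -/
def rf (hB : Hm θ h) {u : V} (hu : h u u = 1) {ζ : K} (hζ : ζ ≠ 0) : V ≃ₗ[K] V where
  toFun x := x + ((ζ - 1) * h x u) • u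
  map_add' x y := by
    rw [hB.addl]
    module
  map_smul' c x := by
    rw [hB.sml, RingHom.id_apply]
    module
  invFun x := x + ((ζ⁻¹ - 1) * h x u) • u
  left_inv x := by
    change x + ((ζ - 1) * h x u) • u + ((ζ⁻¹ - 1) * h (x + ((ζ - 1) * h x u) • u) u) • u = x
    rw [hB.addl, hB.sml, hu]
    have : ((ζ - 1) * h x u) + ((ζ⁻¹ - 1) * (h x u + (ζ - 1) * h x u * 1)) = 0 := by
      field_simp
      ring
    rw [add_assoc, ← add_smul, this, zero_smul, add_zero]
  right_inv x := by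
    change x + ((ζ⁻¹ - 1) * h x u) • u + ((ζ - 1) * h (x + ((ζ⁻¹ - 1) * h x u) • u) u) • u = x
    rw [hB.addl, hB.sml, hu]
    have : ((ζ⁻¹ - 1) * h x u) + ((ζ - 1) * (h x u + (ζ⁻¹ - 1) * h x u * 1)) = 0 := by
      field_simp
      ring
    rw [add_assoc, ← add_smul, this, zero_smul, add_zero]

theorem rf_apply (hB : Hm θ h) {u : V} (hu : h u u = 1) {ζ : K} (hζ : ζ ≠ 0) (x : V) :
    rf hB hu hζ x = x + ((ζ - 1) * h x u) • u := rfl

theorem rf_mem (hB : Hm θ h) {u : V} (hu : h u u = 1) {ζ : K} (hζ : ζ ≠ 0)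
    (hζ1 : ζ * θ ζ = 1) : rf hB hu hζ ∈ UG h := by
  intro x y
  rw [rf_apply, rf_apply]
  simp only [hB.addl, hB.addr, hB.sml, hB.smr, hu, map_mul, map_sub, map_one]
  rw [← hB.herm y u]
  linear_combination (h x u * h u y) * hζ1

theorem rf_self (hB : Hm θ h) {u : V} (hu : h u u = 1) {ζ : K} (hζ : ζ ≠ 0) :
    rf hB hu hζ u = ζ • u := by
  rw [rf_apply, hu]
  module

theorem rf_fix (hB : Hm θ h) {u : V} (hu : h u u = 1) {ζ : K} (hζ : ζ ≠ 0) {x : V}
    (hx : h x u = 0) : rf hB hu hζ x = x := by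
  rw [rf_apply, hx, mul_zero, zero_smul, add_zero]

theorem rf_det [Module.Finite K V] (hB : Hm θ h) {u : V} (hu : h u u = 1) {ζ : K} (hζ : ζ ≠ 0) :
    ((LinearEquiv.det (rf hB hu hζ) : Kˣ) : K) = ζ := by
  rw [LinearEquiv.coe_det]
  have h1 : ((rf hB hu hζ : V ≃ₗ[K] V) : V →ₗ[K] V) =
      LinearMap.transvection ((ζ - 1) • hl hB u) u := LinearMap.ext fun x => rfl
  rw [h1, LinearMap.transvection.det, LinearMap.smul_apply, hl_apply, hu, smul_eq_mul]
  ring

end Ref

section Span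

variable {K V : Type*} [Field K] [Finite K] [AddCommGroup V] [Module K V] {θ : K ≃+* K}
  (hθ : Iv θ) {h : V → V → K} (hB : Hm θ h)

include hθ hB

/-- scaling to norm one -/
theorem exists_scale {v : V} (hv : h v v ≠ 0) : ∃ x : K, x ≠ 0 ∧ h (x • v) (x • v) = 1 := by
  obtain ⟨x, hx0, hx⟩ := exists_nm_ne hθ (a := (h v v)⁻¹) (by rw [map_inv₀, hB.fix])
    (inv_ne_zero hv)
  exact ⟨x, hx0, by rw [hB.sml, hB.smr, ← mul_assoc, hx, inv_mul_cancel₀ hv]⟩

/-- The vectors of norm one span the space. -/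
theorem mem_of_norm_one (hF : 2 < Nat.card (FF θ)) {U : Submodule K V}
    (hU : ∀ u, h u u = 1 → u ∈ U) (w : V) : w ∈ U := by
  have h1 : ∀ w, h w w ≠ 0 → w ∈ U := by
    intro w hw
    obtain ⟨x, hx0, hx⟩ := exists_scale hθ hB hw
    have h2 := U.smul_mem x⁻¹ (hU _ hx)
    rwa [smul_smul, inv_mul_cancel₀ hx0, one_smul] at h2
  by_cases hw : h w w = 0
  · by_cases hw0 : w = 0
    · rw [hw0]
      exact U.zero_mem
    obtain ⟨u, hu⟩ := exists_aniso hθ hB ⟨w, hw0⟩
    -- a scalar of the fixed field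
    have h2 : ∃ t : K, θ t = t ∧ t ≠ 0 ∧ t * h u u + (h w u + h u w) ≠ 0 := by
      obtain ⟨μ, hμ, hμ1⟩ := exists_fix_ne hθ hF
      by_cases h3 : h u u + (h w u + h u w) = 0
      · refine ⟨μ, hμ, μ.ne_zero, fun h4 => hμ1 ?_⟩
        have h5 : ((μ : K) - 1) * h u u = 0 := by linear_combination h4 - h3
        exact sub_eq_zero.mp ((mul_eq_zero.mp h5).resolve_right hu)
      · exact ⟨1, map_one θ, one_ne_zero, by rwa [one_mul]⟩
    obtain ⟨t, ht, ht0, htu⟩ := h2
    have h3 : h (w + t • u) (w + t • u) ≠ 0 := by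
      rw [hB.addl, hB.addr, hB.addr, hB.sml, hB.sml, hB.smr, hB.smr, hw, ht]
      have : (0 : K) + t * h w u + (t * h u w + t * (t * h u u)) =
          t * (t * h u u + (h w u + h u w)) := by ring
      rw [this]
      exact mul_ne_zero ht0 htu
    have h4 := U.sub_mem (h1 _ h3) (U.smul_mem t (h1 _ hu))
    rwa [add_sub_cancel_right] at h4
  · exact h1 w hw

/-- A subspace which is invariant under the quasi-reflections. -/
theorem eq_top_of_inv (hF : 2 < Nat.card (FF θ)) {U : Submodule K V} (hU0 : ∃ x ∈ U, x ≠ 0)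
    (hinv : ∀ u, h u u = 1 → ∀ x ∈ U, h x u ≠ 0 → u ∈ U) (w : V) : w ∈ U := by
  obtain ⟨x, hx, hx0⟩ := hU0
  -- a vector of norm one
  have h1 : ∃ u ∈ U, h u u = 1 := by
    by_contra hcon
    push Not at hcon
    have h2 : ∀ w, h w x = 0 := by
      intro w
      let U' : Submodule K V :=
        { carrier := {w | h w x = 0}
          zero_mem' := hB.zl x
          add_mem' := fun {a b} ha hb => by
            change h (a + b) x = 0
            rw [hB.addl, ha, hb, add_zero]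
          smul_mem' := fun c a ha => by
            change h (c • a) x = 0
            rw [hB.sml, ha, mul_zero] }
      refine mem_of_norm_one hθ hB hF (U := U') (fun u hu => ?_) w
      by_contra hne
      exact hcon u (hinv u hu x hx (hB.swap_ne hne)) hu
    exact hx0 (hB.nd x fun y => hB.swap (h2 y))
  obtain ⟨u₁, hu₁, hu₁1⟩ := h1
  refine mem_of_norm_one hθ hB hF (fun u hu => ?_) w
  by_cases h2 : h u₁ u = 0
  · obtain ⟨μ, hμ, hμ1⟩ := exists_fix_ne hθ hF
    obtain ⟨a, ha0, ha⟩ := exists_nm_ne hθ hμ μ.ne_zero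
    obtain ⟨b, hb0, hb⟩ := exists_nm_ne hθ (a := 1 - (μ : K)) (by rw [map_sub, map_one, hμ])
      (sub_ne_zero.mpr (Ne.symm hμ1))
    have h3 : h (a • u₁ + b • u) (a • u₁ + b • u) = 1 := by
      simp only [hB.addl, hB.addr, hB.sml, hB.smr, h2, hB.swap h2, hu₁1, hu]
      linear_combination ha + hb
    have h4 : h u₁ (a • u₁ + b • u) ≠ 0 := by
      rw [hB.addr, hB.smr, hB.smr, h2, hu₁1, mul_zero, add_zero, mul_one]
      exact (map_ne_zero θ).mpr ha0
    have h5 := hinv _ h3 u₁ hu₁ h4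
    have h6 := U.smul_mem b⁻¹ (U.sub_mem h5 (U.smul_mem a hu₁))
    rwa [add_sub_cancel_left, smul_smul, inv_mul_cancel₀ hb0, one_smul] at h6
  · exact hinv u hu u₁ hu₁ h2

end Span

end Vale.Agent.P180.R2.H589.Un
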