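import Vale.Agent.P180.R2.H589.Un.Ext

/-!
P180: central extensions of special unitary groups by groups of order prime to the characteristic:
transport between vectors of norm one.
-/

set_option linter.all false

namespace Vale.Agent.P180.R2.H589.Un

open Subgroup Module
open Vale.Agent.P180.R2.H589.Sch

section Generic

variable {K V : Type*} [Field K] [AddCommGroup V] [Module K V] {θ : K ≃+* K} {h : V → V → K}
  [Finite K] (hB : Hm θ h)

include hB

theorem exists_common_step {ι : Type*} (q : ι → (V →ₗ[K] V)) (s : Finset ι)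
    (hn : 2 * s.card < Nat.card (FF θ)) (x y : V)
    (hs : ∀ i ∈ s, h (q i x) (q i x) ≠ 0 ∨ h (q i y) (q i y) ≠ 0) :
    ∃ z, ∀ i ∈ s, h (q i z) (q i z) ≠ 0 := by
  classical
  haveI : Fintype (FF θ) := Fintype.ofFinite _
  obtain ⟨P, hP⟩ : ∃ P : ι → Polynomial K, P = fun i =>
      Polynomial.C (h (q i x) (q i x)) +
        Polynomial.C (h (q i x) (q i y) + h (q i y) (q i x)) * Polynomial.X +
        Polynomial.C (h (q i y) (q i y)) * Polynomial.X ^ 2 := ⟨_, rfl⟩
  have hP0 : ∀ i ∈ s, P i ≠ 0 := by
    intro i hi h0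
    rcases hs i hi with h1 | h1
    · apply h1
      have h2 := congrArg (fun r : Polynomial K => r.coeff 0) h0
      rw [hP] at h2
      simpa using h2
    · apply h1
      have h2 := congrArg (fun r : Polynomial K => r.coeff 2) h0
      rw [hP] at h2
      simpa [Polynomial.coeff_X, Polynomial.coeff_C] using h2
  have hPd : ∀ i, (P i).natDegree ≤ 2 := by
    intro i
    rw [hP]
    have h2 : ∀ a b c : K, (Polynomial.C a + Polynomial.C b * Polynomial.X +
        Polynomial.C c * Polynomial.X ^ 2 : Polynomial K).natDegree ≤ 2 := by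
      intro a b c
      have h3 : (Polynomial.C a + Polynomial.C b * Polynomial.X +
        Polynomial.C c * Polynomial.X ^ 2 : Polynomial K) =
        Polynomial.C c * Polynomial.X ^ 2 + Polynomial.C b * Polynomial.X + Polynomial.C a := by
        ring
      rw [h3]
      exact Polynomial.natDegree_quadratic_le
    exact h2 _ _ _
  have hPe : ∀ i, ∀ t : FF θ, (P i).eval (t : K) =
      h (q i (x + (t : K) • y)) (q i (x + (t : K) • y)) := by
    intro i t
    rw [hP]
    simp only [Polynomial.eval_add, Polynomial.eval_mul, Polynomial.eval_C, Polynomial.eval_X,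
      Polynomial.eval_pow]
    rw [map_add, map_smul, hB.addl, hB.addr, hB.addr, hB.sml, hB.smr, hB.sml, hB.smr, FF_coe]
    ring
  by_contra hcon
  have hall : ∀ t : FF θ, (∏ i ∈ s, P i).eval (t : K) = 0 := by
    intro t
    by_contra h1
    apply hcon
    refine ⟨x + (t : K) • y, fun i hi h2 => h1 ?_⟩
    rw [Polynomial.eval_prod]
    refine Finset.prod_eq_zero hi ?_
    rw [hPe, h2]
  have hz := Polynomial.eq_zero_of_natDegree_lt_card_of_eval_eq_zero (∏ i ∈ s, P i)
    (f := fun t : FF θ => (t : K)) Subtype.val_injective hall (by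
      rw [← Nat.card_eq_fintype_card]
      refine lt_of_le_of_lt ?_ hn
      refine (Polynomial.natDegree_prod_le s P).trans ?_
      calc ∑ i ∈ s, (P i).natDegree ≤ ∑ i ∈ s, 2 := Finset.sum_le_sum fun i _ => hPd i
        _ = 2 * s.card := by rw [Finset.sum_const, smul_eq_mul, mul_comm])
  exact (Finset.prod_ne_zero_iff.mpr hP0) hz

/-- **A common vector.** -/
theorem exists_common {n : ℕ} (hn : 2 * n < Nat.card (FF θ)) (q : Fin n → (V →ₗ[K] V))
    (hq : ∀ i, ∃ x, h (q i x) (q i x) ≠ 0) : ∃ x, ∀ i, h (q i x) (q i x) ≠ 0 := by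
  classical
  have key : ∀ s : Finset (Fin n), ∃ x, ∀ i ∈ s, h (q i x) (q i x) ≠ 0 := by
    intro s
    induction s using Finset.induction_on with
    | empty => exact ⟨0, fun i hi => absurd hi (Finset.notMem_empty i)⟩
    | insert a s ha ih =>
      obtain ⟨x, hx⟩ := ih
      obtain ⟨y, hy⟩ := hq a
      refine exists_common_step hB q (insert a s) ?_ x y ?_
      · have h1 := Finset.card_le_univ (insert a s)
        rw [Fintype.card_fin] at h1
        omega
      · intro i hi
        rcases Finset.mem_insert.mp hi with rfl | h1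
        · exact Or.inr hy
        · exact Or.inl (hx i h1)
  obtain ⟨x, hx⟩ := key Finset.univ
  exact ⟨x, fun i => hx i (Finset.mem_univ i)⟩

end Generic

section Nd

variable {K V : Type*} [Field K] [AddCommGroup V] [Module K V] {θ : K ≃+* K} {h : V → V → K}
  (hB : Hm θ h)

include hB

theorem adj_ind {v w : V} (hv : h v v = 1) (hw : h w w = 1) (ha : h v w * h w v ≠ 1) {a b : K}
    (h1 : h (a • v + b • w) v = 0) (h2 : h (a • v + b • w) w = 0) : a = 0 ∧ b = 0 := by
  rw [hB.addl, hB.sml, hB.sml, hv, mul_one] at h1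
  rw [hB.addl, hB.sml, hB.sml, hw, mul_one] at h2
  have h3 : a * (1 - h v w * h w v) = 0 := by linear_combination h1 - h w v * h2
  have h4 : a = 0 := by
    rcases mul_eq_zero.mp h3 with h5 | h5
    · exact h5
    · exact absurd (sub_eq_zero.mp h5).symm ha
  refine ⟨h4, ?_⟩
  rw [h4, zero_mul, zero_add] at h2
  exact h2

theorem nd_adj {v w : V} (hv : h v v = 1) (hw : h w w = 1) (ha : h v w * h w v ≠ 1) :
    Nd h (Submodule.span K {v, w}) := by
  intro x hx hy
  obtain ⟨a, b, rfl⟩ := Submodule.mem_span_pair.mp hx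
  obtain ⟨rfl, rfl⟩ := adj_ind hB hv hw ha (hy v (Submodule.subset_span (Set.mem_insert v _)))
    (hy w (Submodule.subset_span (Set.mem_insert_of_mem _ (Set.mem_singleton w))))
  rw [zero_smul, zero_smul, add_zero]

theorem finrank_adj {v w : V} (hv : h v v = 1) (hw : h w w = 1) (ha : h v w * h w v ≠ 1) :
    finrank K (Submodule.span K {v, w}) = 2 := by
  have h1 : LinearIndependent K ![v, w] := by
    rw [LinearIndependent.pair_iff]
    intro a b hab
    exact adj_ind hB hv hw ha (by rw [hab, hB.zl]) (by rw [hab, hB.zl])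
  have h2 := finrank_span_eq_card h1
  have h3 : Set.range ![v, w] = {v, w} := by
    rw [Matrix.range_cons, Matrix.range_cons, Matrix.range_empty, Set.union_empty]
    rfl
  rw [h3, Fintype.card_fin] at h2
  exact h2

/-- adding a vector to a nondegenerate subspace -/
theorem nd_insert {A : Set V} (hA : Nd h (Submodule.span K A)) {x x' : V}
    (h1 : x - x' ∈ Submodule.span K A) (h2 : ∀ a ∈ A, h x' a = 0) (h3 : h x' x' ≠ 0) :
    Nd h (Submodule.span K (insert x A)) := by
  have h2' : ∀ a ∈ Submodule.span K A, h x' a = 0 := (mem_pp_span hB).mpr h2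
  intro s hs hy
  obtain ⟨a, u, hu, rfl⟩ := Submodule.mem_span_insert.mp hs
  have hle : Submodule.span K A ≤ Submodule.span K (insert x A) :=
    Submodule.span_mono (Set.subset_insert x A)
  have hx' : x' ∈ Submodule.span K (insert x A) := by
    have h4 : x' = x - (x - x') := by abel
    rw [h4]
    exact Submodule.sub_mem _ (Submodule.subset_span (Set.mem_insert x A)) (hle h1)
  obtain ⟨u', hu'⟩ : ∃ u', u' = a • (x - x') + u := ⟨_, rfl⟩
  have hu'm : u' ∈ Submodule.span K A := by
    rw [hu']
    exact Submodule.add_mem _ (Submodule.smul_mem _ _ h1) hu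
  have h5 : a • x + u = a • x' + u' := by
    rw [hu']
    module
  have h6 := hy x' hx'
  rw [h5, hB.addl, hB.sml, hB.swap (h2' u' hu'm), add_zero] at h6
  have h7 : a = 0 := (mul_eq_zero.mp h6).resolve_right h3
  rw [h7, zero_smul, zero_add] at h5
  rw [h7] at hy ⊢
  rw [zero_smul, zero_add] at h5 ⊢
  rw [zero_smul, zero_add] at hy
  exact hA u hu fun y hyA => hy y (hle hyA)

end Nd

section Prj

variable {K V : Type*} [Field K] [AddCommGroup V] [Module K V] {θ : K ≃+* K} {h : V → V → K}
  [Finite K] [Module.Finite K V] (hB : Hm θ h)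

include hB in
/-- the projection along a nondegenerate subspace -/
theorem exists_prj {A : Set V} (hA : Nd h (Submodule.span K A)) :
    ∃ q : V →ₗ[K] V, (∀ x, x - q x ∈ Submodule.span K A) ∧ (∀ x, ∀ a ∈ A, h (q x) a = 0) ∧
      ∀ x, (∀ a ∈ A, h x a = 0) → q x = x := by
  let q : V →ₗ[K] V :=
    { toFun := fun x => (((decE hB hA).symm x).2 : V)
      map_add' := fun x y => by
        rw [map_add]
        rfl
      map_smul' := fun c x => by
        rw [map_smul]
        rfl }
  have hq : ∀ x, q x = (((decE hB hA).symm x).2 : V) := fun x => rfl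
  refine ⟨q, ?_, ?_, ?_⟩
  · intro x
    obtain ⟨u, rfl⟩ := (decE hB hA).surjective x
    rw [hq, LinearEquiv.symm_apply_apply, decE_apply, add_sub_cancel_right]
    exact u.1.2
  · intro x
    exact (mem_pp_span hB).mp (((decE hB hA).symm x).2.2)
  · intro x hx
    have hx' : x ∈ pp hB (Submodule.span K A) := (mem_pp_span hB).mpr hx
    have h1 : x = decE hB hA (0, ⟨x, hx'⟩) := by
      rw [decE_apply]
      change x = ((0 : Submodule.span K A) : V) + x
      rw [Submodule.coe_zero, zero_add]
    rw [hq]
    nth_rewrite 1 [h1]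
    rw [LinearEquiv.symm_apply_apply]

/-- the projection along a vector of norm one -/
def pl (hB : Hm θ h) (v : V) : V →ₗ[K] V where
  toFun x := x - h x v • v
  map_add' x y := by rw [hB.addl]; module
  map_smul' c x := by rw [hB.sml, RingHom.id_apply]; module

omit [Finite K] [Module.Finite K V] in
theorem pl_form {v : V} (hv : h v v = 1) (x : V) :
    h (pl hB v x) (pl hB v x) = h x x - h x v * h v x := by
  change h (x - h x v • v) (x - h x v • v) = _
  rw [hB.subl, hB.subr, hB.subr, hB.sml, hB.sml, hB.smr, hB.smr, hv, ← hB.herm x v]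
  ring

end Prj

end Vale.Agent.P180.R2.H589.Un
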