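import Vale.Agent.P180.R2.H589.Un.Shu

/-!
P180: central extensions of special unitary groups by groups of order prime to the characteristic:
transport between vectors of norm one.
-/

set_option linter.all false

namespace Vale.Agent.P180.R2.H589.Un

open Subgroup Module
open Vale.Agent.P180.R2.H589.Sch

section Def

variable {K V E : Type*} [Field K] [AddCommGroup V] [Module K V] [Group E]

/-- The coset of `Pv v` which consists of the flat elements mapping `v` to `w`. -/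
def CoU (f : E →* (V ≃ₗ[K] V)) (p : ℕ) (h : V → V → K) (w v : V) : Set E :=
  {t | ∃ u ∈ PA f p h {v, w}, f u v = w ∧ u⁻¹ * t ∈ Pv f p v}

/-- Transport over a vector. -/
def RoU (f : E →* (V ≃ₗ[K] V)) (p : ℕ) (h : V → V → K) (w v : V) : Set E :=
  {t | ∃ y, h y y = 1 ∧ h v y * h y v ≠ 1 ∧ h y w * h w y ≠ 1 ∧ ∃ s ∈ CoU f p h w y,
    ∃ s' ∈ CoU f p h y v, t = s * s'}

variable {f : E →* (V ≃ₗ[K] V)} {p : ℕ} {h : V → V → K}

theorem coU_apply {t : E} {w v : V} (ht : t ∈ CoU f p h w v) : f t v = w := by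
  obtain ⟨u, hu, h1, hq⟩ := ht
  have h2 : t = u * (u⁻¹ * t) := by group
  rw [h2, map_mul, LinearEquiv.mul_apply, pv_fix hq, h1]

theorem coU_mul_right {t q : E} {w v : V} (ht : t ∈ CoU f p h w v) (hq : q ∈ Pv f p v) :
    t * q ∈ CoU f p h w v := by
  obtain ⟨u, hu, h1, h2⟩ := ht
  refine ⟨u, hu, h1, ?_⟩
  rw [← mul_assoc]
  exact Subgroup.mul_mem _ h2 hq

theorem coU_inv {t : E} {w v : V} (ht : t ∈ CoU f p h w v) : t⁻¹ ∈ CoU f p h v w := by
  obtain ⟨u, hu, h1, hq⟩ := ht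
  refine ⟨u⁻¹, ?_, map_inv_eq h1, ?_⟩
  · rw [Set.pair_comm]
    exact Subgroup.inv_mem _ hu
  · have h2 := pv_conj (Subgroup.inv_mem _ hq) u
    rw [h1] at h2
    have : u⁻¹⁻¹ * t⁻¹ = u * (u⁻¹ * t)⁻¹ * u⁻¹ := by group
    rw [this]
    exact h2

theorem coU_conj (hfB : ∀ e, f e ∈ UG h) {t : E} {w v : V} (ht : t ∈ CoU f p h w v) (e : E) :
    e * t * e⁻¹ ∈ CoU f p h (f e w) (f e v) := by
  obtain ⟨u, hu, h1, hq⟩ := ht
  refine ⟨e * u * e⁻¹, ?_, ?_, ?_⟩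
  · have h2 := pa_conj hfB hu e
    rwa [Set.image_pair] at h2
  · rw [map_mul, map_mul, LinearEquiv.mul_apply, LinearEquiv.mul_apply, map_inv_eq rfl, h1]
  · have : (e * u * e⁻¹)⁻¹ * (e * t * e⁻¹) = e * (u⁻¹ * t) * e⁻¹ := by group
    rw [this]
    exact pv_conj hq e

theorem roU_apply {t : E} {w v : V} (ht : t ∈ RoU f p h w v) : f t v = w := by
  obtain ⟨y, _, _, _, s, hs, s', hs', rfl⟩ := ht
  rw [map_mul, LinearEquiv.mul_apply, coU_apply hs', coU_apply hs]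

theorem roU_mul_right {t q : E} {w v : V} (ht : t ∈ RoU f p h w v) (hq : q ∈ Pv f p v) :
    t * q ∈ RoU f p h w v := by
  obtain ⟨y, hy, hy', hy2, s, hs, s', hs', rfl⟩ := ht
  exact ⟨y, hy, hy', hy2, s, hs, s' * q, coU_mul_right hs' hq, by group⟩

theorem roU_inv {t : E} {w v : V} (ht : t ∈ RoU f p h w v) : t⁻¹ ∈ RoU f p h v w := by
  obtain ⟨y, hy, hy', hy2, s, hs, s', hs', rfl⟩ := ht
  exact ⟨y, hy, by rwa [mul_comm], by rwa [mul_comm], _, coU_inv hs', _, coU_inv hs, by group⟩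

theorem roU_conj (hfB : ∀ e, f e ∈ UG h) {t : E} {w v : V} (ht : t ∈ RoU f p h w v) (e : E) :
    e * t * e⁻¹ ∈ RoU f p h (f e w) (f e v) := by
  obtain ⟨y, hy, hy', hy2, s, hs, s', hs', rfl⟩ := ht
  refine ⟨f e y, ?_, ?_, ?_, _, coU_conj hfB hs e, _, coU_conj hfB hs' e, by group⟩
  · rw [mem_UG.mp (hfB e)]; exact hy
  · rw [mem_UG.mp (hfB e), mem_UG.mp (hfB e)]; exact hy'
  · rw [mem_UG.mp (hfB e), mem_UG.mp (hfB e)]; exact hy2

end Def

section Main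

variable {K V E : Type} [Field K] [Finite K] [AddCommGroup V] [Module K V] [Module.Finite K V]
  [Group E] [Finite E] {θ : K ≃+* K} {h : V → V → K} {f : E →* (V ≃ₗ[K] V)} {p : ℕ}
  [Fact p.Prime] [CharP K p] (hθ : Iv θ) (hB : Hm θ h) (hF : 18 < Nat.card (FF θ))
  (hk : f.ker ≤ center E) (hp : ¬ p ∣ Nat.card f.ker) (hr : ∀ g ∈ SUG h, ∃ y, f y = g)
  (hfB : ∀ e, f e ∈ SUG h)
  (hc : ∀ U : Submodule K V, Nd h U → finrank K U ≤ 3 → CopU p (rs h U))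

include hθ hB hF hk hp hr hfB

theorem exists_pa {v w : V} (hv : h v v = 1) (hw : h w w = 1) (ha : h v w * h w v ≠ 1) :
    ∃ u ∈ PA f p h {v, w}, f u v = w := by
  have hA := nd_adj hB hv hw ha
  have hvA : v ∈ Submodule.span K {v, w} := Submodule.subset_span (Set.mem_insert v _)
  have hwA : w ∈ Submodule.span K {v, w} :=
    Submodule.subset_span (Set.mem_insert_of_mem _ (Set.mem_singleton w))
  obtain ⟨g, hg, h1⟩ := exists_SUG_move hθ (rs_hm hB hA) (by rw [finrank_adj hB hv hw ha])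
    (v := ⟨v, hvA⟩) (w := ⟨w, hwA⟩) hv hw
  obtain ⟨u, hu, hfu⟩ := pa_surj (f := f) (p := p) hθ hB (by omega) hp hr (A := {v, w}) hA
    (g := ex hB hA g) ((ex_mem hB hA).mpr hg)
    (fun y hy => ex_right hB hA _ ((mem_pp_span hB).mpr hy))
  refine ⟨u, hu, ?_⟩
  rw [hfu]
  have h2 := ex_left hB hA g ⟨v, hvA⟩
  rw [h1] at h2
  exact h2

theorem coU_nonempty {v w : V} (hv : h v v = 1) (hw : h w w = 1) (ha : h v w * h w v ≠ 1) :
    ∃ t, t ∈ CoU f p h w v := by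
  obtain ⟨u, hu, h1⟩ := exists_pa hθ hB hF hk hp hr hfB hv hw ha
  exact ⟨u, u, hu, h1, by rw [inv_mul_cancel]; exact Subgroup.one_mem _⟩

include hc

theorem coU_spec {t u : E} {w v : V} (hv : h v v = 1) (hw : h w w = 1)
    (ha : h v w * h w v ≠ 1) (ht : t ∈ CoU f p h w v) (hu : u ∈ PA f p h {v, w})
    (hu1 : f u v = w) : u⁻¹ * t ∈ Pv f p v := by
  obtain ⟨u', hu', h1, hq⟩ := ht
  have hA := nd_adj hB hv hw ha
  have h2 : u⁻¹ * u' ∈ Pv f p v := by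
    refine pa_star hθ hB (by omega) hk hp hr hfB hA
      (hc _ hA (by rw [finrank_adj hB hv hw ha]; omega))
      (Submodule.subset_span (Set.mem_insert v _)) hv
      (Subgroup.mul_mem _ (Subgroup.inv_mem _ hu) hu') ?_
    rw [map_mul, LinearEquiv.mul_apply, h1]
    exact map_inv_eq hu1
  have : u⁻¹ * t = (u⁻¹ * u') * (u'⁻¹ * t) := by group
  rw [this]
  exact Subgroup.mul_mem _ h2 hq

theorem coU_mul_inv {s r : E} {w y : V} (hw : h w w = 1) (hy : h y y = 1)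
    (ha : h w y * h y w ≠ 1) (hs : s ∈ CoU f p h y w) (hr' : r ∈ CoU f p h w y) :
    s * r ∈ Pv f p y := by
  obtain ⟨u, hu, h1, hq⟩ := hs
  have h3 := coU_spec hθ hB hF hk hp hr hfB hc hw hy ha (coU_inv hr') hu h1
  have h2 := pv_conj (Subgroup.mul_mem _ hq (Subgroup.inv_mem _ h3)) u
  rw [h1] at h2
  have : s * r = u * (u⁻¹ * s * (u⁻¹ * r⁻¹)⁻¹) * u⁻¹ := by group
  rw [this]
  exact h2

theorem coU_tri {A : Set V} (hA : Nd h (Submodule.span K A))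
    (hA3 : finrank K (Submodule.span K A) ≤ 3) {t t' : E} {v w z : V} (hvA : v ∈ A)
    (hwA : w ∈ A) (hzA : z ∈ A) (hv : h v v = 1) (hw : h w w = 1) (hz : h z z = 1)
    (hvz : h v z * h z v ≠ 1) (ht : t ∈ CoU f p h z w) (ht' : t' ∈ CoU f p h w v) :
    t * t' ∈ CoU f p h z v := by
  obtain ⟨u₁, hu₁, e₁, q₁⟩ := ht
  obtain ⟨u₂, hu₂, e₂, q₂⟩ := ht'
  obtain ⟨u₃, hu₃, e₃⟩ := exists_pa hθ hB hF hk hp hr hfB hv hz hvz
  have hle : ∀ a b : V, a ∈ A → b ∈ A → PA f p h {a, b} ≤ PA f p h A := by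
    intro a b ha hb
    refine pa_mono fun y hy c hc' => ?_
    rcases hc' with rfl | hc'
    · exact hy _ ha
    · rw [Set.mem_singleton_iff] at hc'
      rw [hc']
      exact hy _ hb
  have h1 : u₃⁻¹ * (u₁ * u₂) ∈ Pv f p v := by
    refine pa_star hθ hB (by omega) hk hp hr hfB hA (hc _ hA hA3) (Submodule.subset_span hvA) hv
      (Subgroup.mul_mem _ (Subgroup.inv_mem _ (hle _ _ hvA hzA hu₃))
        (Subgroup.mul_mem _ (hle _ _ hwA hzA hu₁) (hle _ _ hvA hwA hu₂))) ?_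
    rw [map_mul, map_mul, LinearEquiv.mul_apply, LinearEquiv.mul_apply, e₂, e₁]
    exact map_inv_eq e₃
  have h2 := pv_conj q₁ u₂⁻¹
  rw [map_inv_eq e₂] at h2
  refine ⟨u₃, hu₃, e₃, ?_⟩
  have : u₃⁻¹ * (t * t') = (u₃⁻¹ * (u₁ * u₂)) * ((u₂⁻¹ * (u₁⁻¹ * t) * u₂⁻¹⁻¹) * (u₂⁻¹ * t')) := by
    group
  rw [this]
  exact Subgroup.mul_mem _ h1 (Subgroup.mul_mem _ h2 q₂)

end Main

end Vale.Agent.P180.R2.H589.Un
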