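import Vale.Agent.P180.R2.H589.Un.Shu2

/-!
P180: central extensions of special unitary groups by groups of order prime to the characteristic:
the sheets of the covering of the set of vectors of norm one.
-/

set_option linter.all false

namespace Vale.Agent.P180.R2.H589.Un

open Subgroup Module
open Vale.Agent.P180.R2.H589.Sch

section Gen

variable {K V : Type} [Field K] [AddCommGroup V] [Module K V] {θ : K ≃+* K} {h : V → V → K}
  [Finite K] [Module.Finite K V] (hθ : Iv θ) (hB : Hm θ h)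

theorem finrank_three (a b c : V) : finrank K (Submodule.span K ({a, b, c} : Set V)) ≤ 3 := by
  classical
  have h5 := finrank_span_finset_le_card (R := K) ({a, b, c} : Finset V)
  rw [Finset.coe_insert, Finset.coe_insert, Finset.coe_singleton] at h5
  exact h5.trans Finset.card_le_three

include hB in
omit [Finite K] [Module.Finite K V] in
theorem adj_of_pl {v x : V} (hv : h v v = 1) (hx : h x x = 1)
    (h1 : h (pl hB v x) (pl hB v x) ≠ 0) : h x v * h v x ≠ 1 := by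
  rw [pl_form hB hv, hx] at h1
  intro h2
  exact h1 (by rw [h2, sub_self])

include hθ hB

theorem exists_gen {n : ℕ} (hn : 2 * (n + 1) < Nat.card (FF θ)) (hd : 1 ≤ finrank K V)
    (q : Fin n → (V →ₗ[K] V)) (hq : ∀ i, ∃ x, h (q i x) (q i x) ≠ 0) :
    ∃ x, h x x = 1 ∧ ∀ i, h (q i x) (q i x) ≠ 0 := by
  obtain ⟨x, hx⟩ := exists_common hB hn (Fin.cons LinearMap.id q) (by
    intro i
    refine Fin.cases ?_ ?_ i
    · obtain ⟨v, hv⟩ := exists_norm_one hθ hB hd
      refine ⟨v, ?_⟩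
      rw [Fin.cons_zero, LinearMap.id_apply, hv]
      exact one_ne_zero
    · intro i
      rw [Fin.cons_succ]
      exact hq i)
  have h0 := hx 0
  rw [Fin.cons_zero, LinearMap.id_apply] at h0
  obtain ⟨c, hc, h1⟩ := exists_scale hθ hB h0
  refine ⟨c • x, h1, fun i => ?_⟩
  have h2 := hx i.succ
  rw [Fin.cons_succ] at h2
  rw [map_smul, hB.sml, hB.smr]
  exact mul_ne_zero hc (mul_ne_zero ((map_ne_zero θ).mpr hc) h2)

theorem exists_pl (hd : 2 ≤ finrank K V) {v : V} (hv : h v v = 1) :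
    ∃ x, h (pl hB v x) (pl hB v x) ≠ 0 := by
  have hv0 : h v v ≠ 0 := by rw [hv]; exact one_ne_zero
  obtain ⟨x, hx⟩ := exists_norm_one hθ (rs_hm hB (nd_pp hB (nd_line hB hv0)))
    (by have := finrank_pp_line hB hv0; omega)
  have hx1 : h (x : V) x = 1 := hx
  have hx2 : h (x : V) v = 0 := (mem_pp_line hB).mp x.2
  refine ⟨x, ?_⟩
  rw [pl_form hB hv, hx1, hx2, zero_mul, sub_zero]
  exact one_ne_zero

theorem exists_prj' (hd : 3 ≤ finrank K V) {v w : V} (hv : h v v = 1) (hw : h w w = 1)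
    (ha : h v w * h w v ≠ 1) :
    ∃ q : V →ₗ[K] V, (∃ x, h (q x) (q x) ≠ 0) ∧ ∀ x, h (q x) (q x) ≠ 0 →
      Nd h (Submodule.span K {x, v, w}) := by
  have hA := nd_adj hB hv hw ha
  obtain ⟨q, h1, h2, h3⟩ := exists_prj hB hA
  refine ⟨q, ?_, fun x hx => nd_insert hB hA (h1 x) (h2 x) hx⟩
  obtain ⟨x, hx⟩ := exists_norm_one hθ (rs_hm hB (nd_pp hB hA))
    (by
      have h4 := finrank_pp hB hA
      have h5 := finrank_adj hB hv hw ha
      omega)
  have hx1 : h (x : V) x = 1 := hx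
  refine ⟨x, ?_⟩
  rw [h3 x ((mem_pp_span hB).mp x.2), hx1]
  exact one_ne_zero

end Gen

section Main

variable {K V E : Type} [Field K] [Finite K] [AddCommGroup V] [Module K V] [Module.Finite K V]
  [Group E] [Finite E] {θ : K ≃+* K} {h : V → V → K} {f : E →* (V ≃ₗ[K] V)} {p : ℕ}
  [Fact p.Prime] [CharP K p] (hθ : Iv θ) (hB : Hm θ h) (hF : 18 < Nat.card (FF θ))
  (hk : f.ker ≤ center E) (hp : ¬ p ∣ Nat.card f.ker) (hr : ∀ g ∈ SUG h, ∃ y, f y = g)
  (hfB : ∀ e, f e ∈ SUG h)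
  (hc : ∀ U : Submodule K V, Nd h U → finrank K U ≤ 3 → CopU p (rs h U))
  (hd : 3 ≤ finrank K V)

include hθ hB hF hk hp hr hfB hc hd

theorem coU_change {v w y y' : V} (hv : h v v = 1) (hw : h w w = 1) (hy : h y y = 1)
    (hy' : h y' y' = 1) (hvy : h v y * h y v ≠ 1) (hyw : h y w * h w y ≠ 1)
    (hvy' : h v y' * h y' v ≠ 1) (hyw' : h y' w * h w y' ≠ 1) {s s' : E}
    (hs : s ∈ CoU f p h w y) (hs' : s' ∈ CoU f p h y v) :
    ∃ r ∈ CoU f p h w y', ∃ r' ∈ CoU f p h y' v, s * s' = r * r' := by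
  obtain ⟨q₁, e₁, z₁⟩ := exists_prj' hθ hB hd hv hy hvy
  obtain ⟨q₂, e₂, z₂⟩ := exists_prj' hθ hB hd hy hw hyw
  obtain ⟨q₃, e₃, z₃⟩ := exists_prj' hθ hB hd hv hy' hvy'
  obtain ⟨q₄, e₄, z₄⟩ := exists_prj' hθ hB hd hy' hw hyw'
  obtain ⟨x, hx1, hx⟩ := exists_gen hθ hB (n := 8) hF (by omega)
    ![pl hB v, pl hB w, pl hB y, pl hB y', q₁, q₂, q₃, q₄] (by
      intro i
      fin_cases i
      · exact exists_pl hθ hB (by omega) hv
      · exact exists_pl hθ hB (by omega) hw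
      · exact exists_pl hθ hB (by omega) hy
      · exact exists_pl hθ hB (by omega) hy'
      · exact e₁
      · exact e₂
      · exact e₃
      · exact e₄)
  have x1 : h x v * h v x ≠ 1 := adj_of_pl hB hv hx1 (hx 0)
  have x2 : h x w * h w x ≠ 1 := adj_of_pl hB hw hx1 (hx 1)
  have x3 : h x y * h y x ≠ 1 := adj_of_pl hB hy hx1 (hx 2)
  have x4 : h x y' * h y' x ≠ 1 := adj_of_pl hB hy' hx1 (hx 3)
  have t1 : Nd h (Submodule.span K {x, v, y}) := z₁ x (hx 4)
  have t2 : Nd h (Submodule.span K {x, y, w}) := z₂ x (hx 5)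
  have t3 : Nd h (Submodule.span K {x, v, y'}) := z₃ x (hx 6)
  have t4 : Nd h (Submodule.span K {x, y', w}) := z₄ x (hx 7)
  have m1 : ∀ a b c : V, a ∈ ({a, b, c} : Set V) := fun a b c => Set.mem_insert a _
  have m2 : ∀ a b c : V, b ∈ ({a, b, c} : Set V) := fun a b c =>
    Set.mem_insert_of_mem _ (Set.mem_insert b _)
  have m3 : ∀ a b c : V, c ∈ ({a, b, c} : Set V) := fun a b c =>
    Set.mem_insert_of_mem _ (Set.mem_insert_of_mem _ (Set.mem_singleton c))
  obtain ⟨t, ht⟩ := coU_nonempty hθ hB hF hk hp hr hfB hv hx1 (by rwa [mul_comm])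
  obtain ⟨r', hr'⟩ := coU_nonempty hθ hB hF hk hp hr hfB hv hy' hvy'
  have c1 : s' * t⁻¹ ∈ CoU f p h y x :=
    coU_tri hθ hB hF hk hp hr hfB hc t1 (finrank_three _ _ _) (m1 _ _ _) (m2 _ _ _) (m3 _ _ _)
      hx1 hv hy x3 hs' (coU_inv ht)
  have c2 : s * (s' * t⁻¹) ∈ CoU f p h w x :=
    coU_tri hθ hB hF hk hp hr hfB hc t2 (finrank_three _ _ _) (m1 _ _ _) (m2 _ _ _) (m3 _ _ _)
      hx1 hy hw x2 hs c1
  have c3 : t * r'⁻¹ ∈ CoU f p h x y' :=
    coU_tri hθ hB hF hk hp hr hfB hc t3 (finrank_three _ _ _) (m3 _ _ _) (m2 _ _ _) (m1 _ _ _)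
      hy' hv hx1 (by rwa [mul_comm]) ht (coU_inv hr')
  have c4 : s * (s' * t⁻¹) * (t * r'⁻¹) ∈ CoU f p h w y' :=
    coU_tri hθ hB hF hk hp hr hfB hc t4 (finrank_three _ _ _) (m2 _ _ _) (m1 _ _ _) (m3 _ _ _)
      hy' hx1 hw hyw' c2 c3
  exact ⟨_, c4, r', hr', by group⟩

theorem roU_mul {v w z : V} (hv : h v v = 1) (hw : h w w = 1) (hz : h z z = 1) {t t' : E}
    (ht : t ∈ RoU f p h z w) (ht' : t' ∈ RoU f p h w v) : t * t' ∈ RoU f p h z v := by
  obtain ⟨y, hy0, hy⟩ := exists_gen hθ hB (n := 3) (by omega) (by omega)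
    ![pl hB v, pl hB w, pl hB z] (by
      intro i
      fin_cases i
      · exact exists_pl hθ hB (by omega) hv
      · exact exists_pl hθ hB (by omega) hw
      · exact exists_pl hθ hB (by omega) hz)
  have y1 : h y v * h v y ≠ 1 := adj_of_pl hB hv hy0 (hy 0)
  have y2 : h y w * h w y ≠ 1 := adj_of_pl hB hw hy0 (hy 1)
  have y3 : h y z * h z y ≠ 1 := adj_of_pl hB hz hy0 (hy 2)
  obtain ⟨y₁, n₁, hy₁, hy₁', s, hs, s', hs', rfl⟩ := ht
  obtain ⟨y₂, n₂, hy₂, hy₂', r, hr1, r', hr', rfl⟩ := ht'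
  obtain ⟨a, ha, a', ha', e1⟩ := coU_change hθ hB hF hk hp hr hfB hc hd hw hz n₁ hy0 hy₁ hy₁'
    (by rwa [mul_comm]) y3 hs hs'
  obtain ⟨b, hb, b', hb', e2⟩ := coU_change hθ hB hF hk hp hr hfB hc hd hv hw n₂ hy0 hy₂ hy₂'
    (by rwa [mul_comm]) y2 hr1 hr'
  rw [e1, e2]
  refine ⟨y, hy0, by rwa [mul_comm], y3, a * (a' * b), coU_mul_right ha
    (coU_mul_inv hθ hB hF hk hp hr hfB hc hw hy0 (by rwa [mul_comm]) ha' hb), b', hb', by group⟩

omit hc in
theorem roU_nonempty {v w : V} (hv : h v v = 1) (hw : h w w = 1) : ∃ t, t ∈ RoU f p h w v := by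
  obtain ⟨y, hy0, hy⟩ := exists_gen hθ hB (n := 2) (by omega) (by omega)
    ![pl hB v, pl hB w] (by
      intro i
      fin_cases i
      · exact exists_pl hθ hB (by omega) hv
      · exact exists_pl hθ hB (by omega) hw)
  have y1 : h v y * h y v ≠ 1 := by
    have := adj_of_pl hB hv hy0 (hy 0)
    rwa [mul_comm]
  have y2 : h y w * h w y ≠ 1 := adj_of_pl hB hw hy0 (hy 1)
  obtain ⟨s, hs⟩ := coU_nonempty hθ hB hF hk hp hr hfB hy0 hw y2
  obtain ⟨s', hs'⟩ := coU_nonempty hθ hB hF hk hp hr hfB hv hy0 y1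
  exact ⟨s * s', y, hy0, y1, y2, s, hs, s', hs', rfl⟩

omit hd in
theorem roU_self {v : V} (hv : h v v = 1) {t : E} (ht : t ∈ RoU f p h v v) : t ∈ Pv f p v := by
  obtain ⟨y, hy, hy1, hy2, s, hs, s', hs', rfl⟩ := ht
  exact coU_mul_inv hθ hB hF hk hp hr hfB hc hy hv hy2 hs hs'

theorem roU_one {v : V} (hv : h v v = 1) : (1 : E) ∈ RoU f p h v v := by
  obtain ⟨t, ht⟩ := roU_nonempty hθ hB hF hk hp hr hfB hd hv hv
  have := roU_mul hθ hB hF hk hp hr hfB hc hd hv hv hv ht (roU_inv ht)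
  rwa [mul_inv_cancel] at this

theorem exists_flatU {o : V} (ho : h o o = 1) :
    ∃ F : Subgroup E, ∀ t, t ∈ F ↔ t ∈ RoU f p h (f t o) o := by
  have hfU : ∀ e, f e ∈ UG h := fun e => (hfB e).1
  have hne : ∀ e : E, h (f e o) (f e o) = 1 := fun e => by rw [mem_UG.mp (hfU e), ho]
  have h1 : (1 : E) ∈ RoU f p h (f 1 o) o := by
    rw [map_one]
    exact roU_one hθ hB hF hk hp hr hfB hc hd ho
  have h2 : ∀ t t' : E, t ∈ RoU f p h (f t o) o → t' ∈ RoU f p h (f t' o) o →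
      t * t' ∈ RoU f p h (f (t * t') o) o := by
    intro t t' ht ht'
    have h1 := roU_conj hfU ht' t
    rw [← LinearEquiv.mul_apply, ← map_mul] at h1
    have h2 := roU_mul hθ hB hF hk hp hr hfB hc hd ho (hne t) (hne (t * t')) h1 ht
    rwa [inv_mul_cancel_right] at h2
  have h3 : ∀ t : E, t ∈ RoU f p h (f t o) o → t⁻¹ ∈ RoU f p h (f t⁻¹ o) o := by
    intro t ht
    have h1 := roU_conj hfU (roU_inv ht) t⁻¹
    have h5 : f t⁻¹ (f t o) = o := map_inv_eq (f := f) (e := t) (v := o) (w := f t o) rfl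
    rw [h5] at h1
    have h2 : t⁻¹ * t⁻¹ * t⁻¹⁻¹ = t⁻¹ := by rw [inv_inv, inv_mul_cancel_right]
    rwa [h2] at h1
  exact exists_subgroup_of (fun t => t ∈ RoU f p h (f t o) o) h1 h2 h3

/-- **The sheets.** -/
theorem sheetsU (hgen : closure {x : E | Pel p x} = ⊤) {o : V} (ho : h o o = 1)
    (hst : ∀ x : E, f x o = o → ∃ q ∈ Pv f p o, ∃ a ∈ f.ker, x = q * a)
    (hst2 : ∀ x ∈ Pv f p o, f x = 1 → x = 1) : f.ker = ⊥ := by
  have hfU : ∀ e, f e ∈ UG h := fun e => (hfB e).1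
  have hne : ∀ e : E, h (f e o) (f e o) = 1 := fun e => by rw [mem_UG.mp (hfU e), ho]
  obtain ⟨F, hF'⟩ := exists_flatU hθ hB hF hk hp hr hfB hc hd ho
  have hFk : ∀ t ∈ F, f t = 1 → t = 1 := by
    intro t ht h1
    rw [hF', h1] at ht
    exact hst2 t (roU_self hθ hB hF hk hp hr hfB hc ho ht) h1
  have hFE : ∀ e : E, ∃ t ∈ F, ∃ a ∈ f.ker, e = t * a := by
    intro e
    obtain ⟨t, ht⟩ := roU_nonempty hθ hB hF hk hp hr hfB hd ho (hne e)
    have h1 : f (t⁻¹ * e) o = o := by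
      rw [map_mul, LinearEquiv.mul_apply]
      exact map_inv_eq (roU_apply ht)
    obtain ⟨q, hq, a, ha, h2⟩ := hst _ h1
    have h3 := roU_mul_right ht hq
    refine ⟨t * q, ?_, a, ha, ?_⟩
    · rw [hF', roU_apply h3]
      exact h3
    · rw [mul_assoc, ← h2, mul_inv_cancel_left]
  have hFtop : F = ⊤ := by
    rw [eq_top_iff, ← hgen, closure_le]
    rintro x ⟨n, hn⟩
    obtain ⟨t, ht, a, ha, rfl⟩ := hFE x
    have hcm : Commute t a := mem_center_iff.mp (hk ha) t
    rw [hcm.mul_pow] at hn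
    have h1 : t ^ p ^ n ∈ F := F.pow_mem ht _
    have h2 : t ^ p ^ n = (a ^ p ^ n)⁻¹ := eq_inv_of_mul_eq_one_left hn
    have h4 : t ^ p ^ n = 1 := by
      refine hFk _ h1 ?_
      rw [h2, map_inv, map_pow, MonoidHom.mem_ker.mp ha, one_pow, inv_one]
    have h5 : a = 1 := by
      refine eq_one_of_pel_of_mem hp ha ⟨n, ?_⟩
      rw [h4, one_mul] at hn
      exact hn
    rw [h5, mul_one]
    exact ht
  rw [eq_bot_iff]
  intro x hx
  rw [mem_bot]
  exact hFk x (by rw [hFtop]; exact mem_top x) hx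

end Main

section Ind

variable {K : Type} [Field K] [Finite K] {θ : K ≃+* K} {p : ℕ} [Fact p.Prime] [CharP K p]

/-- **Central extensions of special unitary groups by groups of order prime to the
characteristic**, reduction to small dimension. -/
theorem copU_of_small (hθ : Iv θ) (hF : 18 < Nat.card (FF θ))
    (hsm : ∀ (V : Type) [AddCommGroup V] [Module K V] [Module.Finite K V] (h : V → V → K),
      Hm θ h → finrank K V ≤ 3 → CopU p h) :
    ∀ (n : ℕ) (V : Type) [AddCommGroup V] [Module K V] [Module.Finite K V] (h : V → V → K),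
      Hm θ h → finrank K V ≤ n → CopU p h := by
  intro n
  induction n with
  | zero =>
    intro V _ _ _ h hB hn
    exact hsm V h hB (by omega)
  | succ n ih =>
    intro V _ _ _ h hB hn
    by_cases h3 : finrank K V ≤ 3
    · exact hsm V h hB h3
    obtain ⟨o, ho⟩ := exists_norm_one hθ hB (by omega)
    have ho0 : h o o ≠ 0 := by rw [ho]; exact one_ne_zero
    obtain ⟨U, hU⟩ : ∃ U, U = pp hB (Submodule.span K {o}) := ⟨_, rfl⟩
    have hUn : Nd h U := by rw [hU]; exact nd_pp hB (nd_line hB ho0)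
    have hUs : Submodule.span K (U : Set V) = U := Submodule.span_eq U
    have hUf : finrank K U + 1 = finrank K V := by
      have := finrank_pp_line hB ho0
      rw [← hU] at this
      omega
    have hUo : ∀ a ∈ (U : Set V), h o a = 0 := by
      intro a ha
      have : a ∈ pp hB (Submodule.span K {o}) := by rw [← hU]; exact ha
      exact hB.swap ((mem_pp_line hB).mp this)
    have hUp : ∀ y, (∀ a ∈ (U : Set V), h y a = 0) → ∃ c : K, c • o = y := by
      intro y hy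
      have h1 : y ∈ pp hB (pp hB (Submodule.span K {o})) := by
        intro a ha
        rw [← hU] at ha
        exact hy a ha
      rw [pp_pp hB (nd_line hB ho0)] at h1
      exact Submodule.mem_span_singleton.mp h1
    intro E _ _ f hr hfB hk hp hgen
    refine sheetsU hθ hB hF hk hp hr hfB (fun W hW hW3 => ?_) (by omega) hgen ho ?_ ?_
    · exact hsm W (rs h W) (rs_hm hB hW) hW3
    · intro x hx
      obtain ⟨q, hq, hfq⟩ := pa_surj (f := f) (p := p) hθ hB (by omega) hp hr (A := (U : Set V))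
        (by rw [hUs]; exact hUn) (hfB x) (fun y hy => by
          obtain ⟨c, rfl⟩ := hUp y hy
          rw [map_smul, hx])
      refine ⟨q, pa_le_pv hB hUo hq, q⁻¹ * x, ?_, by group⟩
      rw [MonoidHom.mem_ker, map_mul, map_inv, hfq, inv_mul_cancel]
    · intro x hx hfx
      have hle : Pv f p o ≤ PA f p h (U : Set V) := closure_mono fun x hx => ⟨hx.1, fun y hy => by
        obtain ⟨c, rfl⟩ := hUp y hy
        rw [map_smul, hx.2]⟩
      refine pa_inj hθ hB (by omega) hk hp hr hfB (A := (U : Set V)) (by rw [hUs]; exact hUn) ?_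
        (hle hx) hfx
      rw [hUs]
      exact ih U (rs h U) (rs_hm hB hUn) (by omega)

end Ind

end Vale.Agent.P180.R2.H589.Un
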